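import Crest.Agent.R133.Defs

/-!
# Row 133: auxiliary lemmas for `exists_chartSys` (local charts, uniform `C²` bounds)
-/

open MeasureTheory Filter Set Metric
open scoped Matrix Topology ENNReal NNReal Manifold ContDiff

namespace Crest.Agent.R133

noncomputable section

/-- uniform `C²` bounds on a compact convex set -/
theorem chB_bounds {V W : Type*} [NormedAddCommGroup V] [NormedSpace ℝ V] [NormedAddCommGroup W]
    [NormedSpace ℝ W] {s K : Set V} (hs : UniqueDiffOn ℝ s) (hKs : K ⊆ s) (hK : IsCompact K)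
    (hc : Convex ℝ K) {f : V → W} (hf : ContDiffOn ℝ ∞ f s) :
    ∃ A : ℝ, 0 ≤ A ∧ (∀ u ∈ K, ∀ v ∈ K, ‖f u - f v‖ ≤ A * ‖u - v‖) ∧
      (∀ v ∈ K, s ∈ 𝓝 v → ‖fderiv ℝ f v‖ ≤ A) ∧
      ∀ v r, (∀ u, ‖u - v‖ ≤ r → u ∈ K ∧ s ∈ 𝓝 u) → ∀ u u', ‖u - v‖ ≤ r → ‖u' - v‖ ≤ r →
        ‖f u - f u' - fderiv ℝ f v (u - u')‖ ≤ A * r * ‖u - u'‖ := by
  have hf' : ContDiffOn ℝ 1 (fderivWithin ℝ f s) s :=
    hf.fderivWithin hs (by
      rw [show (1 + 1 : WithTop ℕ∞) = ((2 : ℕ∞) : WithTop ℕ∞) from rfl]; exact_mod_cast le_top)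
  obtain ⟨A₁, h₁⟩ := (hf.mono hKs).exists_lipschitzOnWith (by simp) hc hK
  obtain ⟨A₂, h₂⟩ := (hf'.mono hKs).exists_lipschitzOnWith (by simp) hc hK
  obtain ⟨A₃, h₃⟩ := hK.exists_bound_of_continuousOn (hf'.continuousOn.mono hKs)
  refine ⟨A₁ + A₂ + |A₃|, by positivity, fun u hu v hv => ?_, fun v hv hn => ?_,
    fun v r hr u u' hu hu' => ?_⟩
  · refine (h₁.norm_sub_le hu hv).trans (mul_le_mul_of_nonneg_right ?_ (norm_nonneg _))
    have := abs_nonneg A₃
    have := A₂.2
    linarith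
  · rw [← fderivWithin_of_mem_nhds hn]
    have := h₃ v hv
    have := le_abs_self A₃
    have := A₁.2
    have := A₂.2
    linarith
  · have hr0 : 0 ≤ r := (norm_nonneg _).trans hu
    have hv := hr v (by simpa using hr0)
    refine (convex_closedBall v r).norm_image_sub_le_of_norm_fderiv_le' (fun x hx => ?_)
      (fun x hx => ?_) (mem_closedBall_iff_norm.2 hu') (mem_closedBall_iff_norm.2 hu)
    · have hx' := hr x (mem_closedBall_iff_norm.1 hx)
      exact (hf.contDiffAt hx'.2).differentiableAt (by simp)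
    · have hx0 := mem_closedBall_iff_norm.1 hx
      have hx' := hr x hx0
      rw [← fderivWithin_of_mem_nhds hx'.2, ← fderivWithin_of_mem_nhds hv.2]
      refine (h₂.norm_sub_le hx'.1 hv.1).trans (mul_le_mul ?_ hx0 (norm_nonneg _) (by positivity))
      have := abs_nonneg A₃
      have := A₁.2
      linarith

/-- the data of one chart -/
structure LocChart {d : ℕ} {H : Type} [TopologicalSpace H]
    (I : ModelWithCorners ℝ (EuclideanSpace ℝ (Fin d)) H) {M : Type} [TopologicalSpace M]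
    [ChartedSpace H M] [MeasurableSpace M] (ν : Measure M) (p : M) where
  g : (Fin d → ℝ) → M
  s : Set (Fin d → ℝ)
  K : Set (Fin d → ℝ)
  E : M → Fin d → ℝ
  b : M → ℝ
  δ : ℝ
  Cd : ℝ≥0
  Cb : ℝ≥0
  bad : ℝ → Set M
  δ_pos : 0 < δ
  uniq : UniqueDiffOn ℝ s
  sub : K ⊆ s
  cpt : IsCompact K
  cvx : Convex ℝ K
  g_smooth : ContMDiffOn 𝓘(ℝ, Fin d → ℝ) I ∞ g s
  E_smooth : ContMDiff I 𝓘(ℝ, Fin d → ℝ) ∞ E
  b_smooth : ContMDiff I 𝓘(ℝ, ℝ) ∞ b
  b_one : {x | b x = 1} ∈ 𝓝 p
  inv : ∀ x, b x ≠ 0 → g (E x) = x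
  reg : ∀ x, b x ≠ 0 → ∀ ρ, 0 < ρ → ρ ≤ δ → x ∉ bad ρ → ∀ u, ‖u - E x‖ ≤ ρ → u ∈ K ∧ s ∈ 𝓝 u
  bad_le : ∀ ρ, 0 < ρ → ν (bad ρ) ≤ Cb * ENNReal.ofReal ρ
  dens : ∀ U, ν {x | b x ≠ 0 ∧ E x ∈ U} ≤ Cd * volume U

theorem chB_dens {d : ℕ} {H : Type} [TopologicalSpace H]
    (I : ModelWithCorners ℝ (EuclideanSpace ℝ (Fin d)) H) {M : Type} [TopologicalSpace M]
    [ChartedSpace H M] [MeasurableSpace M] [BorelSpace M] (ν : Measure M)
    (hν : Crest.AnalysisR.HasSmoothPositiveDensity I ν) (p : M)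
    {K : Set (EuclideanSpace ℝ (Fin d))} (hK : IsCompact K) (hKt : K ⊆ (extChartAt I p).target) :
    ∃ C : ℝ≥0, ∀ W, ν {x | x ∈ (chartAt H p).source ∧ extChartAt I p x ∈ W ∩ K} ≤ C * volume W := by
  obtain ⟨f, hf, -, e⟩ := hν _ (chart_mem_atlas H p)
  have ht : I '' (chartAt H p).target = (extChartAt I p).target := by
    rw [extChartAt_target, I.image_eq]
  rw [ht] at hf e
  obtain ⟨C, hC⟩ := hK.exists_bound_of_continuousOn (hf.continuousOn.mono hKt)
  refine ⟨C.toNNReal, fun W => ?_⟩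
  have hm : AEMeasurable (I ∘ chartAt H p) (ν.restrict (chartAt H p).source) :=
    (I.continuous.comp_continuousOn (chartAt H p).continuousOn).aemeasurable
      (chartAt H p).open_source.measurableSet
  set W' := toMeasurable volume W ∩ K with hW'
  have hW : MeasurableSet W' := (measurableSet_toMeasurable _ _).inter hK.measurableSet
  calc ν {x | x ∈ (chartAt H p).source ∧ extChartAt I p x ∈ W ∩ K}
      ≤ ν ((I ∘ chartAt H p) ⁻¹' W' ∩ (chartAt H p).source) :=
        measure_mono fun x hx => ⟨⟨subset_toMeasurable _ _ hx.2.1, hx.2.2⟩, hx.1⟩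
    _ = (ν.restrict (chartAt H p).source) ((I ∘ chartAt H p) ⁻¹' W') :=
        (Measure.restrict_apply' (chartAt H p).open_source.measurableSet).symm
    _ ≤ (ν.restrict (chartAt H p).source).map (I ∘ chartAt H p) W' := Measure.le_map_apply hm _
    _ = ∫⁻ y in W', ENNReal.ofReal (f y) ∂(volume.restrict (extChartAt I p).target) := by
        rw [e, withDensity_apply _ hW]
    _ ≤ ∫⁻ _ in W', ENNReal.ofReal C ∂(volume.restrict (extChartAt I p).target) :=
        setLIntegral_mono' hW fun y hy =>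
          ENNReal.ofReal_le_ofReal ((le_abs_self _).trans (hC y hy.2))
    _ = ENNReal.ofReal C * (volume.restrict (extChartAt I p).target) W' := setLIntegral_const _ _
    _ ≤ C.toNNReal * volume W := by
        refine mul_le_mul' le_rfl ((Measure.restrict_apply_le _ _).trans ?_)
        rw [← measure_toMeasurable W]
        exact measure_mono inter_subset_left

theorem exists_locChart {d : ℕ} {H : Type} [TopologicalSpace H]
    (I : ModelWithCorners ℝ (EuclideanSpace ℝ (Fin d)) H)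
    (hI : ∀ R : ℝ, ∃ K : ℝ≥0, ∀ ρ : ℝ, 0 < ρ →
      volume {v : EuclideanSpace ℝ (Fin d) | ‖v‖ ≤ R ∧ v ∈ Set.range I ∧
        ¬ Metric.closedBall v ρ ⊆ interior (Set.range I)} ≤ K * ENNReal.ofReal ρ)
    {M : Type} [TopologicalSpace M] [T2Space M] [ChartedSpace H M]
    [IsManifold I ∞ M] [MeasurableSpace M] [BorelSpace M] (ν : Measure M)
    (hν : Crest.AnalysisR.HasSmoothPositiveDensity I ν) (p : M) : Nonempty (LocChart I ν p) := by
  obtain ⟨β⟩ : Nonempty (SmoothBumpFunction I p) := inferInstance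
  let b : SmoothBumpFunction I p :=
    ⟨⟨β.rIn / 2, β.rIn, half_pos β.rIn_pos, half_lt_self β.rIn_pos⟩,
      (inter_subset_inter_left _ (closedBall_subset_closedBall β.rIn_lt_rOut.le)).trans
        β.closedBall_subset⟩
  let T : (Fin d → ℝ) ≃L[ℝ] EuclideanSpace ℝ (Fin d) := (EuclideanSpace.equiv (Fin d) ℝ).symm
  let τ : ℝ := ‖(T : (Fin d → ℝ) →L[ℝ] EuclideanSpace ℝ (Fin d))‖ + 1
  have τ0 : 0 < τ := by positivity
  have hT : ∀ v, ‖T v‖ ≤ τ * ‖v‖ := fun v =>
    ((T : (Fin d → ℝ) →L[ℝ] EuclideanSpace ℝ (Fin d)).le_opNorm v).trans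
      (mul_le_mul_of_nonneg_right (by simp [τ]) (norm_nonneg _))
  set e := extChartAt I p with he
  let K' : Set (EuclideanSpace ℝ (Fin d)) := closedBall (e p) β.rOut ∩ range I
  have hK' : IsCompact K' := (isCompact_closedBall _ _).inter_right I.isClosed_range
  obtain ⟨C, hC⟩ := chB_dens I ν hν p hK' β.closedBall_subset
  obtain ⟨K₀, hK₀⟩ := hI (‖e p‖ + β.rOut)
  have hb : ∀ x, b x ≠ 0 → x ∈ (chartAt H p).source ∧ dist (e x) (e p) < β.rIn := fun x hx => by
    have : x ∈ Function.support b := hx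
    rwa [b.support_eq_inter_preimage] at this
  have hE : ∀ x, b x ≠ 0 → T.symm (β x • e x) = T.symm (e x) := fun x hx => by
    rw [β.one_of_dist_le (hb x hx).1 (hb x hx).2.le, one_smul]
  have hr : ∀ x, e x ∈ range I := fun x => ⟨_, rfl⟩
  have hK : ∀ x, b x ≠ 0 → e x ∈ K' := fun x hx =>
    ⟨((hb x hx).2.trans β.rIn_lt_rOut).le, hr x⟩
  refine ⟨{
    g := fun v => e.symm (T v)
    s := T ⁻¹' e.target
    K := T ⁻¹' K'
    E := fun x => T.symm (β x • e x)
    b := b
    δ := (β.rOut - β.rIn) / τ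
    Cd := C
    Cb := C * K₀ * τ.toNNReal
    bad := fun ρ => {x | x ∈ (chartAt H p).source ∧ e x ∈ {v : EuclideanSpace ℝ (Fin d) |
      ‖v‖ ≤ ‖e p‖ + β.rOut ∧ v ∈ Set.range I ∧
        ¬ Metric.closedBall v (τ * ρ) ⊆ interior (Set.range I)} ∩ K'}
    δ_pos := div_pos (sub_pos.2 β.rIn_lt_rOut) τ0
    uniq := T.uniqueDiffOn_preimage_iff.2 (uniqueDiffOn_extChartAt_target p)
    sub := preimage_mono β.closedBall_subset
    cpt := T.toHomeomorph.isCompact_preimage.2 hK'
    cvx := ((convex_closedBall _ _).inter I.convex_range).linear_preimage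
      (T : (Fin d → ℝ) →L[ℝ] EuclideanSpace ℝ (Fin d)).toLinearMap
    g_smooth := (contMDiffOn_extChartAt_symm p).comp T.contDiff.contMDiff.contMDiffOn
      fun _ hx => hx
    E_smooth := T.symm.contDiff.contMDiff.comp (β.contMDiff_smul contMDiffOn_extChartAt)
    b_smooth := b.contMDiff
    b_one := b.eventuallyEq_one
    inv := fun x hx => ?_
    reg := fun x hx ρ ρ0 hρ hbad u hu => ?_
    bad_le := fun ρ ρ0 => ?_
    dens := fun U => ?_ }⟩
  · rw [hE x hx, T.apply_symm_apply]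
    exact e.left_inv (by rw [he, extChartAt_source]; exact (hb x hx).1)
  · rw [hE x hx] at hu
    have h1 : dist (T u) (e x) ≤ τ * ρ := by
      rw [dist_eq_norm, ← T.apply_symm_apply (e x), ← map_sub]
      exact (hT _).trans (mul_le_mul_of_nonneg_left hu τ0.le)
    have h2 : closedBall (e x) (τ * ρ) ⊆ interior (range I) := by
      by_contra h
      refine hbad ⟨(hb x hx).1, ⟨?_, hr x, h⟩, hK x hx⟩
      have := (hK x hx).1
      rw [mem_closedBall, dist_eq_norm] at this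
      linarith [norm_sub_norm_le (e x) (e p)]
    have h3 : T u ∈ K' := by
      refine ⟨?_, interior_subset (h2 h1)⟩
      have h4 := (le_div_iff₀' τ0).1 hρ
      have h5 := dist_triangle (T u) (e x) (e p)
      have h6 := (hb x hx).2
      rw [mem_closedBall]
      linarith
    refine ⟨h3, T.continuous.continuousAt.preimage_mem_nhds ?_⟩
    have h4 := β.closedBall_subset h3
    rw [he, extChartAt_target]
    rw [extChartAt_target] at h4
    exact inter_mem (((chartAt H p).open_target.preimage I.continuous_symm).mem_nhds h4.1)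
      (mem_interior_iff_mem_nhds.1 (h2 h1))
  · refine (hC _).trans ?_
    rw [ENNReal.coe_mul, ENNReal.coe_mul, mul_assoc, mul_assoc]
    refine mul_le_mul' le_rfl ((hK₀ _ (mul_pos τ0 ρ0)).trans_eq ?_)
    rw [ENNReal.ofReal_mul τ0.le]
    rfl
  · refine le_trans (measure_mono fun x hx => ?_) ((hC (T.symm ⁻¹' U)).trans ?_)
    · exact ⟨(hb x hx.1).1, by have := hx.2; rwa [hE x hx.1] at this, hK x hx.1⟩
    · refine mul_le_mul' le_rfl ?_
      have hp := PiLp.volume_preserving_ofLp (Fin d)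
      exact hp.measure_preimage_le U

theorem chB_piece {M Y J : Type*} [MeasurableSpace M] [MeasurableSpace Y] [Countable J]
    (idx : M → J) (h : ∀ i, MeasurableSet {x | idx x = i}) (G : J → M → Y)
    (hG : ∀ i, Measurable (G i)) : Measurable fun x => G (idx x) x := by
  intro s hs
  have : (fun x => G (idx x) x) ⁻¹' s = ⋃ i, {x | idx x = i} ∩ G i ⁻¹' s := by
    ext x; simp
  rw [this]
  exact MeasurableSet.iUnion fun i => (h i).inter (hG i hs)

theorem chB_label {d : ℕ} {H : Type} [TopologicalSpace H]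
    (I : ModelWithCorners ℝ (EuclideanSpace ℝ (Fin d)) H) {M : Type} [TopologicalSpace M]
    [T2Space M] [CompactSpace M] [ChartedSpace H M] [IsManifold I ∞ M] [MeasurableSpace M]
    [BorelSpace M] (ν : Measure M) [IsProbabilityMeasure ν] (sym : M → Bool)
    (hsym : Measurable sym) {ε : ℝ} (hε : 0 < ε) :
    ∃ b : M → ℝ, ContMDiff I 𝓘(ℝ, ℝ) ∞ b ∧ ∀ c : ℝ, 0 < c → c < 1 →
      ν {x | decide (c < b x) ≠ sym x} ≤ ENNReal.ofReal ε := by
  have := Manifold.metrizableSpace I M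
  have hA : MeasurableSet {x | sym x = true} := hsym (measurableSet_singleton true)
  have h2 : ENNReal.ofReal (ε / 2) ≠ 0 := by simpa using hε
  obtain ⟨U, hU, hUo, -, hU'⟩ := hA.exists_isOpen_sdiff_lt (μ := ν) (measure_ne_top _ _) h2
  obtain ⟨K, hK, hKc, hK'⟩ := hA.exists_isClosed_sdiff_lt (μ := ν) (measure_ne_top _ _) h2
  obtain ⟨f, f0, f1, -⟩ := exists_contMDiffMap_zero_one_of_isClosed (n := ⊤) I hUo.isClosed_compl
    hKc (disjoint_left.2 fun x hx hx' => hx (hU (hK hx')))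
  refine ⟨f, f.contMDiff, fun c c0 c1 => ?_⟩
  calc ν {x | decide (c < f x) ≠ sym x}
      ≤ ν ((U \ {x | sym x = true}) ∪ ({x | sym x = true} \ K)) := by
        refine measure_mono fun x hx => ?_
        by_cases h : sym x = true
        · refine Or.inr ⟨h, fun hxK => hx ?_⟩
          simp [f1 hxK, c1, h]
        · refine Or.inl ⟨?_, h⟩
          by_contra hxU
          refine hx ?_
          simp [f0 hxU, c0.le, h]
    _ ≤ ENNReal.ofReal (ε / 2) + ENNReal.ofReal (ε / 2) :=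
        (measure_union_le _ _).trans (add_le_add hU'.le hK'.le)
    _ = ENNReal.ofReal ε := by rw [← ENNReal.ofReal_add (half_pos hε).le (half_pos hε).le, add_halves]

theorem chB_side {a a' c r : ℝ} (h : ¬ |a - c| ≤ r) (h' : |a' - a| ≤ r) : c < a' ↔ c < a := by
  rw [abs_le] at h h'
  constructor <;> intro h1 <;> by_contra h2 <;> exact h ⟨by linarith, by linarith⟩

theorem chB_mulVec {d : ℕ} (L : (Fin d → ℝ) →L[ℝ] (Fin d → ℝ)) {A : ℝ} (hL : ‖L‖ ≤ A)
    (w : Fin d → ℝ) :
    (Matrix.of fun r s => max (-A) (min A (L (Pi.single s 1) r))) *ᵥ w = L w := by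
  have : (Matrix.of fun r s => max (-A) (min A (L (Pi.single s 1) r))) =
      LinearMap.toMatrix' L.toLinearMap := by
    ext r s
    have h1 : |L (Pi.single s 1) r| ≤ A := by
      refine (norm_le_pi_norm (L (Pi.single s 1)) r).trans ((L.le_opNorm _).trans ?_)
      rw [Pi.norm_single, norm_one, mul_one]; exact hL
    rw [abs_le] at h1
    simp [min_eq_right h1.2, max_eq_right h1.1]
  rw [this, LinearMap.toMatrix'_mulVec]; rfl

end

end Crest.Agent.R133
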