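import Crest.Agent.R133.ChartsA
import Crest.Agent.R133.ChartsB

/-!
# Row 133: a smooth map of a compact manifold in charts
-/

open MeasureTheory Finset Filter
open scoped Matrix Topology ENNReal NNReal

namespace Crest.Agent.R133

noncomputable section

open scoped Manifold ContDiff

/-- Recipe.  For `p : M` take `β p : SmoothBumpFunction I p` and a second bump `b p` with radii
`rIn / 2 < rIn`; finitely many centres `j ∈ J` have `{b j = 1}` covering `M`.  `e j = extChartAt I j`,
`E j x = ofLp (β j x • e j x)` is smooth on `M` (`SmoothBumpFunction.contMDiff_smul`) and equals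
`ofLp (e j x)` where `b j x ≠ 0`.  `K j = closedBall (e j j) rOut ∩ range I ⊆ (e j).target` is
compact and convex (`I.convex_range`).  `b₀ : M → ℝ` smooth, `1` on a closed `K ⊆ {sym}` and `0` off
an open `U ⊇ {sym}` with `ν (U \ K) ≤ ε` (`Manifold.metrizableSpace`, weak regularity,
`exists_contMDiffMap_zero_one_of_isClosed`).  The functions `b i ∘ S ∘ (e j).symm`,
`b₀ ∘ (e j).symm`, `Ft j i = E i ∘ S ∘ (e j).symm ∘ toLp` are `ContDiffOn` on the target, hence
Lipschitz on `K j`, and so is `fderivWithin` (`ContDiffOn.exists_lipschitzOnWith`,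
`uniqueDiffOn_extChartAt_target`); `A` bounds all these constants.  Generic levels `c i`, `c₀`
from `exists_generic_level` with `r k = A ρ k`.  `idx x` = the first `i` with `c i < b i x`,
`Φ x = (idx x, E (idx x) x)`, `F (j,v) = (i, E i (S x'))` with `x' = (e j).symm (toLp v)`,
`i = idx (S x')`; `lab (j,v) = decide (c₀ < b₀ x')`; `Am (j,v) r s` is
`fderiv ℝ (Ft j i) v (Pi.single s 1) r` clipped to `[-A, A]` (`measurable_fderiv_apply_const`).
For small `ρ`, `Φ x` is `ρ`-regular unless `|b i (S x) - c i| ≤ A ρ` for some `i`, or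
`|b₀ x - c₀| ≤ A ρ`, or `e j x` is within `d ρ` of the boundary (`hI` and the density bound);
the mean value inequality (`Convex.norm_image_sub_le_of_norm_hasFDerivWithin_le'`) gives the
second part of `Reg`.  The density is continuous on the compact `K j`, hence bounded. -/
theorem exists_chartSys {d : ℕ} {H : Type} [TopologicalSpace H]
    (I : ModelWithCorners ℝ (EuclideanSpace ℝ (Fin d)) H)
    (hI : ∀ R : ℝ, ∃ K : ℝ≥0, ∀ ρ : ℝ, 0 < ρ →
      volume {v : EuclideanSpace ℝ (Fin d) | ‖v‖ ≤ R ∧ v ∈ Set.range I ∧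
        ¬ Metric.closedBall v ρ ⊆ interior (Set.range I)} ≤ K * ENNReal.ofReal ρ)
    {M : Type} [TopologicalSpace M] [T2Space M] [CompactSpace M] [ChartedSpace H M]
    [IsManifold I ∞ M] [MeasurableSpace M] [BorelSpace M] (ν : Measure M)
    [IsProbabilityMeasure ν] (hν : Crest.AnalysisR.HasSmoothPositiveDensity I ν) (S : M → M)
    (hS : ContMDiff I I ∞ S) (hSν : MeasurePreserving S ν ν) (sym : M → Bool)
    (hsym : Measurable sym) {ε : ℝ} (hε : 0 < ε) (n : ℕ → ℕ) (hn : ∀ k, 1 ≤ n k) (ρ : ℕ → ℝ)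
    (hρ : ∀ k, 0 < ρ k) (hsum : Summable fun k => n k * ρ k) :
    ∃ (J : Type) (_ : Fintype J) (C : ChartSys d J) (Φ : M → J × (Fin d → ℝ)) (Bx : ℝ)
      (Cden : ℝ≥0),
      Measurable (fun x => C.lab (Φ x)) ∧ (∀ i j, Measurable fun x => C.Am (Φ x) i j) ∧
      (∀ x, Φ (S x) = C.F (Φ x)) ∧ (∀ x, ‖(Φ x).2‖ ≤ Bx) ∧
      (∀ j U, MeasurableSet U → ν {x | (Φ x).1 = j ∧ (Φ x).2 ∈ U} ≤ Cden * volume U) ∧
      ν {x | C.lab (Φ x) ≠ sym x} ≤ ENNReal.ofReal ε ∧
      Tendsto (fun k => (n k : ℝ≥0∞) * ν {x | ¬ C.Reg (Φ x) (ρ k)}) atTop (𝓝 0) := by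
  classical
  have c : ∀ p : M, LocChart I ν p := fun p => (exists_locChart I hI ν hν p).some
  obtain ⟨t, ht⟩ := CompactSpace.elim_nhds_subcover (fun p => {x | (c p).b x = 1})
    fun p => (c p).b_one
  have hcov : ∀ x : M, ∃ j : t, (c j).b x = 1 := fun x => by
    have : x ∈ ⋃ p ∈ t, {x | (c p).b x = 1} := ht ▸ Set.mem_univ x
    simp only [Set.mem_iUnion] at this
    obtain ⟨p, hp, h⟩ := this
    exact ⟨⟨p, hp⟩, h⟩
  have hM : Nonempty M := ν.nonempty_of_neZero
  have hJ : Nonempty t := ⟨(hcov hM.some).choose⟩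
  obtain ⟨b₀, hb₀, hlab⟩ := chB_label I ν sym hsym hε
  -- uniform bounds
  have sm : ∀ (j : t) {W : Type} [NormedAddCommGroup W] [NormedSpace ℝ W] (φ : M → W),
      ContMDiff I 𝓘(ℝ, W) ∞ φ → ContDiffOn ℝ ∞ (fun v => φ ((c j).g v)) (c j).s :=
    fun j _ _ _ φ hφ => contMDiffOn_iff_contDiffOn.1 (hφ.comp_contMDiffOn (c j).g_smooth)
  choose A₁ A₁0 hA₁ _ _ using fun j i : t => chB_bounds (c j).uniq (c j).sub (c j).cpt (c j).cvx
    (sm j (fun x => (c i).b (S x)) ((c i).b_smooth.comp hS))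
  choose A₂ A₂0 hA₂ _ _ using fun j : t => chB_bounds (c j).uniq (c j).sub (c j).cpt (c j).cvx
    (sm j b₀ hb₀)
  choose A₃ A₃0 _ hA₃ hA₃' using fun j i : t => chB_bounds (c j).uniq (c j).sub (c j).cpt (c j).cvx
    (sm j (fun x => (c i).E (S x)) ((c i).E_smooth.comp hS))
  obtain ⟨A, A1, hA⟩ : ∃ A : ℝ, 1 ≤ A ∧ ∀ j i, A₁ j i ≤ A ∧ A₂ j ≤ A ∧ A₃ j i ≤ A := by
    obtain ⟨B, hB⟩ := (Set.finite_range fun p : t × t => A₁ p.1 p.2 + A₂ p.1 + A₃ p.1 p.2).bddAbove
    refine ⟨max 1 B, le_max_left _ _, fun j i => ?_⟩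
    have h0 : A₁ j i + A₂ j + A₃ j i ≤ B := hB ⟨(j, i), rfl⟩
    have := le_max_right 1 B
    have := A₁0 j i
    have := A₂0 j
    have := A₃0 j i
    exact ⟨by linarith, by linarith, by linarith⟩
  have A0 : 0 ≤ A := zero_le_one.trans A1
  have hsA : Summable fun k => n k * (A * ρ k) := (hsum.mul_left A).congr fun k => by ring
  have hρA : ∀ k, 0 ≤ A * ρ k := fun k => mul_nonneg A0 (hρ k).le
  have bm : ∀ i : t, Measurable (c i).b := fun i => (c i).b_smooth.continuous.measurable
  choose lv lv0 lv1 hlv using fun i : t => exists_generic_level ν (bm i) n _ hρA hsA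
  obtain ⟨l₀, l₀0, l₀1, hl₀⟩ := exists_generic_level ν hb₀.continuous.measurable n _ hρA hsA
  let idx : M → t := fun x => Classical.epsilon fun i => lv i < (c i).b x
  have hidx : ∀ x, (c (idx x)).b x ≠ 0 := fun x => by
    have h1 : lv (idx x) < (c (idx x)).b x := Classical.epsilon_spec (p := fun i => lv i < (c i).b x)
      (by obtain ⟨j, hj⟩ := hcov x; exact ⟨j, by rw [hj]; linarith [lv1 j]⟩)
    have := lv0 (idx x)
    intro h0; linarith
  have idxm : ∀ i, MeasurableSet {x | idx x = i} := fun i => by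
    have h1 : Measurable fun (x : M) (i : t) => lv i < (c i).b x :=
      measurable_pi_iff.2 fun i => measurableSet_setOfPred.1 (measurableSet_lt measurable_const (bm i))
    exact h1 (MeasurableSet.of_discrete (s := {p : t → Prop | Classical.epsilon p = i}))
  let Ft : t → t → (Fin d → ℝ) → Fin d → ℝ := fun j i v => (c i).E (S ((c j).g v))
  let C : ChartSys d t :=
    { F := fun z => (idx (S ((c z.1).g z.2)), Ft z.1 (idx (S ((c z.1).g z.2))) z.2)
      lab := fun z => decide (l₀ < b₀ ((c z.1).g z.2))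
      Am := fun z => Matrix.of fun r s => max (-A) (min A
        (fderiv ℝ (Ft z.1 (idx (S ((c z.1).g z.2)))) z.2 (Pi.single s 1) r))
      A := A
      one_le_A := A1
      Am_le := fun z r s => abs_le.2 ⟨le_max_left _ _, max_le (by linarith) (min_le_left _ _)⟩ }
  let Φ : M → t × (Fin d → ℝ) := fun x => (idx x, (c (idx x)).E x)
  have hg : ∀ x, (c (idx x)).g ((c (idx x)).E x) = x := fun x => (c _).inv x (hidx x)
  have labΦ : ∀ x, C.lab (Φ x) = decide (l₀ < b₀ x) := fun x => by simp only [C, Φ, hg]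
  obtain ⟨Bx, hBx⟩ : ∃ Bx : ℝ, ∀ (j : t) x, ‖(c j).E x‖ ≤ Bx := by
    choose B hB using fun j : t => isCompact_univ.exists_bound_of_continuousOn
      (c j).E_smooth.continuous.continuousOn
    obtain ⟨B', hB'⟩ := (Set.finite_range B).bddAbove
    exact ⟨B', fun j x => (hB j x trivial).trans (hB' ⟨j, rfl⟩)⟩
  refine ⟨t, inferInstance, C, Φ, Bx, ∑ j : t, (c j).Cd, ?_, fun r s => ?_, fun x => ?_,
    fun x => hBx _ x, fun j U _ => ?_, ?_, ?_⟩
  · simp only [labΦ]
    refine measurable_to_countable' fun a => ?_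
    have h1 : MeasurableSet {x | l₀ < b₀ x} :=
      measurableSet_lt measurable_const hb₀.continuous.measurable
    cases a
    · convert h1.compl using 1; ext x; simp
    · convert h1 using 1; ext x; simp
  · have : (fun x => C.Am (Φ x) r s) = fun x => (fun (p : t × t) (x : M) => max (-A) (min A
        (fderiv ℝ (Ft p.1 p.2) ((c p.1).E x) (Pi.single s 1) r))) (idx x, idx (S x)) x := by
      funext x; simp only [C, Φ, hg, Matrix.of_apply]
    rw [this]
    refine chB_piece (fun x => (idx x, idx (S x))) (fun p => ?_) (fun (p : t × t) (x : M) =>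
      max (-A) (min A (fderiv ℝ (Ft p.1 p.2) ((c p.1).E x) (Pi.single s 1) r))) fun p => ?_
    · convert (idxm p.1).inter (hSν.measurable (idxm p.2)) using 1
      ext x; simp [Prod.ext_iff]
    · exact measurable_const.max (measurable_const.min ((measurable_pi_apply r).comp
        ((measurable_fderiv_apply_const ℝ _ _).comp (c p.1).E_smooth.continuous.measurable)))
  · simp only [C, Φ, Ft, hg]
  · refine le_trans (measure_mono fun x hx => ?_) (((c j).dens U).trans (mul_le_mul' ?_ le_rfl))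
    · obtain ⟨h1, h2⟩ := hx
      change idx x = j at h1
      subst h1
      exact ⟨hidx x, h2⟩
    · exact ENNReal.coe_le_coe.2
        (Finset.single_le_sum (f := fun j : t => (c j).Cd) (fun _ _ => zero_le) (mem_univ j))
  · simp only [labΦ]
    exact hlab l₀ (by linarith) (by linarith)
  · have key : ∀ r : ℝ, 0 < r → (∀ j : t, r ≤ (c j).δ) → ∀ x,
        (∀ i : t, ¬ |(c i).b (S x) - lv i| ≤ A * r) → ¬ |b₀ x - l₀| ≤ A * r →
        (∀ j : t, x ∉ (c j).bad r) → C.Reg (Φ x) r := by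
      intro r r0 hδ x h1 h2 h3
      have hreg := (c (idx x)).reg x (hidx x) r r0 (hδ _) (h3 _)
      have hv := hreg ((c (idx x)).E x) (by simpa using r0.le)
      have e1 : ∀ u, ‖u - (c (idx x)).E x‖ ≤ r → idx (S ((c (idx x)).g u)) = idx (S x) := by
        intro u hu
        refine congrArg Classical.epsilon (funext fun i => propext (chB_side (h1 i) ?_))
        have := hA₁ (idx x) i u (hreg u hu).1 _ hv.1
        rw [hg] at this
        exact this.trans (mul_le_mul (hA _ i).1 hu (norm_nonneg _) A0)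
      refine ⟨fun u hu => ⟨?_, ?_⟩, fun r' hr' u u' hu hu' => ?_⟩
      · simp only [C, Φ, hg]
        exact e1 u hu
      · rw [labΦ]
        refine decide_eq_decide.2 (chB_side h2 ?_)
        have := hA₂ (idx x) u (hreg u hu).1 _ hv.1
        rw [hg] at this
        exact this.trans (mul_le_mul (hA _ (idx x)).2.1 hu (norm_nonneg _) A0)
      · have h4 := hA₃' (idx x) (idx (S x)) _ r' (fun w hw => hreg w (hw.trans hr')) u u' hu hu'
        have h5 := chB_mulVec _ ((hA₃ (idx x) (idx (S x)) _ hv.1 hv.2).trans (hA _ _).2.2) (u - u')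
        simp only [C, Φ, hg, e1 u (hu.trans hr'), e1 u' (hu'.trans hr')]
        rw [h5]
        exact h4.trans (mul_le_mul_of_nonneg_right (mul_le_mul_of_nonneg_right (hA _ _).2.2
          ((norm_nonneg _).trans hu)) (norm_nonneg _))
    have hρ0 : Tendsto ρ atTop (𝓝 0) :=
      squeeze_zero (fun k => (hρ k).le) (fun k => le_mul_of_one_le_left (hρ k).le
        (by exact_mod_cast hn k)) hsum.tendsto_atTop_zero
    have hδ : ∀ᶠ k in atTop, ∀ j : t, ρ k ≤ (c j).δ :=
      eventually_all.2 fun j => hρ0.eventually_le_const (c j).δ_pos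
    have lim : Tendsto (fun k => (∑ i : t, (n k : ℝ≥0∞) * ν {x | |(c i).b x - lv i| ≤ A * ρ k}) +
        (n k : ℝ≥0∞) * ν {x | |b₀ x - l₀| ≤ A * ρ k} +
        ∑ j : t, ((c j).Cb : ℝ≥0∞) * ENNReal.ofReal (n k * ρ k)) atTop (𝓝 0) := by
      have h1 := tendsto_finsetSum univ fun (i : t) _ => hlv i
      have h2 := tendsto_finsetSum univ fun (j : t) _ =>
        ENNReal.Tendsto.const_mul (a := ((c j).Cb : ℝ≥0∞))
          (ENNReal.tendsto_ofReal hsum.tendsto_atTop_zero) (Or.inr ENNReal.coe_ne_top)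
      simpa using (h1.add hl₀).add h2
    refine tendsto_of_tendsto_of_tendsto_of_le_of_le' tendsto_const_nhds lim
      (Eventually.of_forall fun _ => zero_le) (hδ.mono fun k hk => ?_)
    have hsub : {x | ¬ C.Reg (Φ x) (ρ k)} ⊆
        ((⋃ i : t, S ⁻¹' {x | |(c i).b x - lv i| ≤ A * ρ k}) ∪ {x | |b₀ x - l₀| ≤ A * ρ k}) ∪
          ⋃ j : t, (c j).bad (ρ k) := fun x hx => by
      by_contra h
      simp only [Set.mem_union, Set.mem_iUnion, not_or, not_exists] at h
      exact hx (key _ (hρ k) hk x h.1.1 h.1.2 h.2)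
    have h1 : ν {x | ¬ C.Reg (Φ x) (ρ k)} ≤ (∑ i : t, ν {x | |(c i).b x - lv i| ≤ A * ρ k}) +
        ν {x | |b₀ x - l₀| ≤ A * ρ k} + ∑ j : t, ((c j).Cb : ℝ≥0∞) * ENNReal.ofReal (ρ k) :=
      (measure_mono hsub).trans ((measure_union_le _ _).trans (add_le_add
        ((measure_union_le _ _).trans (add_le_add ((measure_iUnion_fintype_le _ _).trans
          (Finset.sum_le_sum fun i _ => hSν.measure_preimage_le _)) le_rfl))
        ((measure_iUnion_fintype_le _ _).trans
          (Finset.sum_le_sum fun j _ => (c j).bad_le _ (hρ k)))))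
    refine (mul_le_mul' le_rfl h1).trans_eq ?_
    rw [mul_add, mul_add, Finset.mul_sum, Finset.mul_sum]
    congr 1
    refine Finset.sum_congr rfl fun j _ => ?_
    rw [ENNReal.ofReal_mul (Nat.cast_nonneg _), ENNReal.ofReal_natCast, mul_left_comm]

end

end Crest.Agent.R133
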