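import Crest.Agent.R133.Defs

/-!
# Row 133: generic levels and thin boundary layers
-/

open MeasureTheory Finset Filter
open scoped Matrix Topology ENNReal NNReal

namespace Crest.Agent.R133

noncomputable section

open scoped Manifold ContDiff

theorem ChartsA_lintegral_level {M : Type*} [MeasurableSpace M] (ν : Measure M)
    [IsProbabilityMeasure ν] {b : M → ℝ} (hb : Measurable b) (r : ℝ) :
    Measurable (fun c : ℝ => ν {x | |b x - c| ≤ r}) ∧
      ∫⁻ c : ℝ, ν {x | |b x - c| ≤ r} = ENNReal.ofReal (2 * r) := by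
  have hS : MeasurableSet {p : ℝ × M | |b p.2 - p.1| ≤ r} :=
    measurableSet_le (((hb.comp measurable_snd).sub measurable_fst).abs) measurable_const
  refine ⟨measurable_measure_prodMk_left hS, ?_⟩
  have h1 := Measure.prod_apply (μ := (volume : Measure ℝ)) (ν := ν) hS
  have h2 := Measure.prod_apply_symm (μ := (volume : Measure ℝ)) (ν := ν) hS
  have h3 : ∀ x : M, (volume : Measure ℝ) ((fun c => (c, x)) ⁻¹' {p : ℝ × M | |b p.2 - p.1| ≤ r}) =
      ENNReal.ofReal (2 * r) := by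
    intro x
    have : (fun c => (c, x)) ⁻¹' {p : ℝ × M | |b p.2 - p.1| ≤ r} = Metric.closedBall (b x) r := by
      ext c
      simp [Real.dist_eq, abs_sub_comm]
    rw [this, Real.volume_closedBall]
  simp only [h3, lintegral_const, measure_univ, mul_one] at h2
  rw [← h2, h1]
  rfl

/-- A generic level has thin neighbourhoods. -/
theorem exists_generic_level {M : Type*} [MeasurableSpace M] (ν : Measure M)
    [IsProbabilityMeasure ν] {b : M → ℝ} (hb : Measurable b) (n : ℕ → ℕ) (r : ℕ → ℝ)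
    (hr : ∀ k, 0 ≤ r k) (hsum : Summable fun k => n k * r k) :
    ∃ c : ℝ, 1 / 3 < c ∧ c < 2 / 3 ∧
      Tendsto (fun k => (n k : ℝ≥0∞) * ν {x | |b x - c| ≤ r k}) atTop (𝓝 0) := by
  have hm : ∀ k, Measurable fun c : ℝ => (n k : ℝ≥0∞) * ν {x | |b x - c| ≤ r k} := fun k =>
    (ChartsA_lintegral_level ν hb (r k)).1.const_mul _
  have hint : ∫⁻ c : ℝ, ∑' k, (n k : ℝ≥0∞) * ν {x | |b x - c| ≤ r k} ≠ ⊤ := by
    rw [lintegral_tsum fun k => (hm k).aemeasurable]
    have : ∀ k, ∫⁻ c : ℝ, (n k : ℝ≥0∞) * ν {x | |b x - c| ≤ r k} =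
        ENNReal.ofReal (2 * (n k * r k)) := by
      intro k
      rw [lintegral_const_mul _ (ChartsA_lintegral_level ν hb (r k)).1,
        (ChartsA_lintegral_level ν hb (r k)).2, ← ENNReal.ofReal_natCast,
        ← ENNReal.ofReal_mul (Nat.cast_nonneg _)]
      congr 1
      ring
    simp only [this]
    rw [← ENNReal.ofReal_tsum_of_nonneg (fun k => by have := hr k; positivity) (hsum.mul_left 2)]
    exact ENNReal.ofReal_ne_top
  have hae := ae_lt_top (Measurable.tsum hm) hint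
  have hpos : (volume : Measure ℝ) (Set.Ioo (1 / 3) (2 / 3)) ≠ 0 := by
    rw [Real.volume_Ioo]
    simp only [ne_eq, ENNReal.ofReal_eq_zero, not_le]
    norm_num
  obtain ⟨c, hc, hc'⟩ := Measure.exists_mem_of_measure_ne_zero_of_ae hpos (ae_restrict_of_ae hae)
  exact ⟨c, hc.1, hc.2, ENNReal.tendsto_atTop_zero_of_tsum_ne_top hc'.ne⟩

theorem thin_boundary_self (d : ℕ) (R : ℝ) : ∃ K : ℝ≥0, ∀ ρ : ℝ, 0 < ρ →
    volume {v : EuclideanSpace ℝ (Fin d) | ‖v‖ ≤ R ∧ v ∈ Set.range (𝓡 d) ∧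
      ¬ Metric.closedBall v ρ ⊆ interior (Set.range (𝓡 d))} ≤ K * ENNReal.ofReal ρ := by
  refine ⟨0, fun ρ _ => ?_⟩
  simp

/-- The set lies in the box `0 ≤ v 0 ≤ ρ`, `|v i| ≤ R`. -/
theorem thin_boundary_halfSpace (d : ℕ) (R : ℝ) : ∃ K : ℝ≥0, ∀ ρ : ℝ, 0 < ρ →
    volume {v : EuclideanSpace ℝ (Fin (d + 1)) | ‖v‖ ≤ R ∧ v ∈ Set.range (𝓡∂ (d + 1)) ∧
      ¬ Metric.closedBall v ρ ⊆ interior (Set.range (𝓡∂ (d + 1)))} ≤ K * ENNReal.ofReal ρ := by
  refine ⟨(Real.toNNReal (2 * R)) ^ d, fun ρ hρ => ?_⟩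
  let lo : Fin (d + 1) → ℝ := Fin.cons 0 fun _ => -R
  let hi : Fin (d + 1) → ℝ := Fin.cons ρ fun _ => R
  have hsub : {v : EuclideanSpace ℝ (Fin (d + 1)) | ‖v‖ ≤ R ∧ v ∈ Set.range (𝓡∂ (d + 1)) ∧
      ¬ Metric.closedBall v ρ ⊆ interior (Set.range (𝓡∂ (d + 1)))} ⊆
      WithLp.ofLp ⁻¹' Set.Icc lo hi := by
    rintro v ⟨h1, h2, h3⟩
    rw [range_modelWithCornersEuclideanHalfSpace] at h2
    rw [interior_range_modelWithCornersEuclideanHalfSpace, Set.not_subset] at h3
    obtain ⟨w, hw, hw'⟩ := h3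
    have hw0 : w 0 ≤ 0 := not_lt.1 hw'
    have hd : |w 0 - v 0| ≤ ρ := by
      have := PiLp.norm_apply_le (w - v) 0
      rw [Metric.mem_closedBall, dist_eq_norm] at hw
      exact (by simpa using this : |w 0 - v 0| ≤ ‖w - v‖).trans hw
    have hc : ∀ i, |v i| ≤ R := fun i =>
      (by simpa using PiLp.norm_apply_le v i : |v i| ≤ ‖v‖).trans h1
    constructor
    · intro i
      refine Fin.cases ?_ (fun j => ?_) i
      · exact h2
      · exact (abs_le.1 (hc j.succ)).1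
    · intro i
      refine Fin.cases ?_ (fun j => ?_) i
      · have := (abs_le.1 hd).1
        change v 0 ≤ ρ
        linarith
      · exact (abs_le.1 (hc j.succ)).2
  refine (measure_mono hsub).trans (le_of_eq ?_)
  rw [(PiLp.volume_preserving_ofLp (Fin (d + 1))).measure_preimage
    measurableSet_Icc.nullMeasurableSet, Real.volume_Icc_pi, Fin.prod_univ_succ]
  simp only [lo, hi, Fin.cons_zero, Fin.cons_succ, sub_zero, sub_neg_eq_add, Finset.prod_const,
    Finset.card_univ, Fintype.card_fin, ENNReal.coe_pow]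
  rw [mul_comm, ← two_mul]
  rfl

end

end Crest.Agent.R133
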