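import Mathlib
import Crest.Prelude.Def_SmoothModel

/-!
# Row 133: a zero-entropy ergodic system without smooth model — definitions

Outline of the proof.

* `Blocks`/`Tower`: the system `T` is an odometer-based block system.  Level `k` has `q k` words
  of length `N k`; a word of level `k+1` is a balanced concatenation of `M k` words of level `k`.
  The rates `h k = log (q k) / N k` decrease slowly to `0` (`h k ≈ k^(-1/2)`), and the words of
  level `k+1` are chosen at random among balanced concatenations (`exists_design`).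
* Suppose `T` is conjugate to a smooth map.  In charts (`ChartSys`, `exists_chartSys`) it is a
  piecewise `C²` map with a label `lab` that approximates the symbol of `T`.
* `phi a n = log det ∑_{s<n} (Df^s)ᵀ Df^s` is subadditive; where it is almost additive, the
  linearised orbit equation has a bounded right inverse (`Green`, `exists_green_const`).  On such
  orbit segments the law of the label word is dominated by the law of a noisy finite Markov model
  with few states (`tube_le`, `exists_model`), one of a small family `Mod` fixed in advance.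
* A log-score `Λ w y` measures how well the label word `y` predicts the word `w` of `T`.  The
  random choice of the words makes the score per unit time non-decreasing from level `k` to
  `k+1` on dominated segments; on the others it drops by at most `h k - h (k+1)`.  The proportion
  of bad segments is at most `O(a k - a (k+1)) / h (k+1)`, where `a k` is the mean of `phi` per
  unit time, so the total drop after level `k₁` is `O(1 / k₁) ≪ h k₁`.  But the score at level
  `k₁` is at least `h k₁ / 8`, and at level `K` at most `h K → 0`.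
-/

open MeasureTheory Finset
open scoped Matrix

namespace Crest.Agent.R133

noncomputable section

/-! ### Block systems -/

/-- Combinatorial data of the block system. -/
structure Blocks where
  /-- length of the words of level `k` -/
  N : ℕ → ℕ
  /-- number of words of level `k` -/
  q : ℕ → ℕ
  /-- number of level-`k` blocks in a word of level `k+1` -/
  M : ℕ → ℕ
  /-- `word k w i` is the `i`-th level-`k` block of the word `w` of level `k+1` -/
  word : ℕ → ℕ → ℕ → ℕ
  N_zero_pos : 0 < N 0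
  q_pos : ∀ k, 0 < q k
  two_le_M : ∀ k, 2 ≤ M k
  N_succ : ∀ k, N (k + 1) = M k * N k
  word_lt : ∀ k w i, word k w i < q k
  balanced : ∀ k w a, w < q (k + 1) → a < q k →
    #{i ∈ range (M k) | word k w i = a} * q k = M k

theorem Blocks.N_pos (B : Blocks) : ∀ k, 0 < B.N k
  | 0 => B.N_zero_pos
  | k + 1 => by
    rw [B.N_succ]
    exact Nat.mul_pos (lt_of_lt_of_le two_pos (B.two_le_M k)) (B.N_pos k)

theorem Blocks.two_pow_le_N (B : Blocks) : ∀ k, 2 ^ k ≤ B.N k
  | 0 => B.N_zero_pos
  | k + 1 => by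
    rw [B.N_succ, pow_succ, mul_comm]
    exact Nat.mul_le_mul (B.two_le_M k) (B.two_pow_le_N k)

/-- The binary name of the word `w` of level `k`. -/
def Blocks.name (B : Blocks) : ℕ → ℕ → ℕ → Bool
  | 0, w, t => w.testBit t
  | k + 1, w, t => B.name k (B.word k w (t / B.N k)) (t % B.N k)

/-- Logarithm of the number of words. -/
def Blocks.L (B : Blocks) (k : ℕ) : ℝ := Real.log (B.q k)

/-- The entropy rate of level `k`. -/
def Blocks.h (B : Blocks) (k : ℕ) : ℝ := B.L k / B.N k

/-- A realisation of the block system: `W k x` is the level-`k` word that `x` is reading and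
`P k x` is the position of `x` in it. -/
structure Tower (B : Blocks) {X : Type} [mX : MeasurableSpace X] (μ : Measure X)
    (T : X → X) where
  W : ℕ → X → ℕ
  P : ℕ → X → ℕ
  meas_W : ∀ k, Measurable (W k)
  meas_P : ∀ k, Measurable (P k)
  W_lt : ∀ k x, W k x < B.q k
  P_lt : ∀ k x, P k x < B.N k
  law : ∀ k w t, w < B.q k → t < B.N k →
    μ {x | W k x = w ∧ P k x = t} = ((B.q k * B.N k : ℕ) : ENNReal)⁻¹
  P_compat : ∀ k x, P k x = P (k + 1) x % B.N k
  W_compat : ∀ k x, W k x = B.word k (W (k + 1) x) (P (k + 1) x / B.N k)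
  P_step : ∀ k x, P k (T x) = (P k x + 1) % B.N k
  W_step : ∀ k x, P k x + 1 < B.N k → W k (T x) = W k x
  gen : mX = MeasurableSpace.generateFrom {s | ∃ k w t, s = {x | W k x = w ∧ P k x = t}}

/-! ### Label words and finite Markov models -/

/-- The `i`-th block of length `N` of a label word. -/
def sub (N : ℕ) {N' : ℕ} (y : Fin N' → Bool) (i : ℕ) : Fin N → Bool :=
  fun t => if h : i * N + t < N' then y ⟨i * N + t, h⟩ else false

/-- Hamming distance. -/
def ham {N : ℕ} (u : ℕ → Bool) (y : Fin N → Bool) : ℕ := #{t : Fin N | u t ≠ y t}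

/-- Paths of a relation. -/
def IsPath {σ : Type*} {N : ℕ} (Rel : σ → σ → Prop) (π : Fin N → σ) : Prop :=
  ∀ s t : Fin N, (t : ℕ) = s + 1 → Rel (π s) (π t)

open Classical in
/-- The law of the label word of a uniformly random path. -/
def modelLaw (N : ℕ) {m : ℕ} (Rel : Fin m → Fin m → Bool) (lab : Fin m → Bool)
    (y : Fin N → Bool) : ℝ :=
  (#{π : Fin N → Fin m | IsPath (fun a b => Rel a b = true) π ∧ ∀ t, lab (π t) = y t} : ℝ) /
    (#{π : Fin N → Fin m | IsPath (fun a b => Rel a b = true) π} : ℝ)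

open Classical in
/-- All models with `m` states. -/
def Mod (N m : ℕ) : Finset ((Fin N → Bool) → ℝ) :=
  univ.image fun p : (Fin m → Fin m → Bool) × (Fin m → Bool) => modelLaw N p.1 p.2

/-- The properties of the random block system that the main argument uses.  `fam k` is a family
of log-scores. -/
structure Design (B : Blocks) where
  m : ℕ → ℕ
  fam : ∀ k, Set (ℕ → (Fin (B.N k) → Bool) → ℝ)
  h_zero_pos : 0 < B.h 0
  h_succ : ∀ k : ℕ, (2 * k + 3) * (B.h k - B.h (k + 1)) = B.h (k + 1)
  growth : ∀ k : ℕ, (k + 1) * (B.N k + Real.log (B.N (k + 1)) + k + 1) ≤ B.L (k + 1)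
  le_m : ∀ k, Real.exp (B.L k / 4) ≤ m k
  top : ∀ k, ∀ Λ ∈ fam k, ∀ w < B.q k, ∀ y, Λ w y ≤ B.L k
  init : ∀ k, ∃ Λ ∈ fam k, ∀ w < B.q k, ∀ y,
    B.h k * ((B.N k : ℝ) / 6 - ham (B.name k w) y) ≤ Λ w y
  step : ∀ k, ∀ Λ ∈ fam k, ∀ ν ∈ Mod (B.N (k + 1)) (m (k + 1)),
    ∃ Λ' ∈ fam (k + 1), ∃ (Bad : Finset ℕ) (Z : (Fin (B.N (k + 1)) → Bool) → ℝ),
      #Bad * (k + 1) ≤ 3 * B.q (k + 1) ∧ (∀ y, 0 ≤ Z y) ∧ ∑ y, ν y * Z y ≤ 1 ∧
      ∀ w < B.q (k + 1), ∀ y,
        (∑ i ∈ range (B.M k), Λ (B.word k w i) (sub (B.N k) y i)) - 4 * B.M k -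
            (B.h k - B.h (k + 1)) * B.N (k + 1) ≤ Λ' w y ∧
        (w ∉ Bad → (∑ i ∈ range (B.M k), Λ (B.word k w i) (sub (B.N k) y i)) - 4 * B.M k -
            Z y / B.N (k + 1) ≤ Λ' w y)

/-! ### Linear cocycles -/

/-- `prop a n = a (n-1) * ⋯ * a 0`. -/
def prop {d : ℕ} (a : ℕ → Matrix (Fin d) (Fin d) ℝ) : ℕ → Matrix (Fin d) (Fin d) ℝ
  | 0 => 1
  | n + 1 => a n * prop a n

/-- The Gram matrix `∑_{s<n} (prop a s)ᵀ (prop a s)`. -/
def gram {d : ℕ} (a : ℕ → Matrix (Fin d) (Fin d) ℝ) (n : ℕ) : Matrix (Fin d) (Fin d) ℝ :=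
  ∑ s ∈ range n, (prop a s)ᵀ * prop a s

/-- The linearised information of an orbit segment with `n` points. -/
def phi {d : ℕ} (a : ℕ → Matrix (Fin d) (Fin d) ℝ) (n : ℕ) : ℝ := Real.log (gram a n).det

/-- The linearised orbit equation on `n` steps has a right inverse of norm at most `Γ`. -/
def Green {d : ℕ} (a : ℕ → Matrix (Fin d) (Fin d) ℝ) (n : ℕ) (Γ : ℝ) : Prop :=
  ∃ G : (Fin n → Fin d → ℝ) →ₗ[ℝ] (Fin (n + 1) → Fin d → ℝ),
    (∀ w, ‖G w‖ ≤ Γ * ‖w‖) ∧ ∀ w (t : Fin n), G w t.succ = a t *ᵥ G w t.castSucc + w t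

/-- The orbit of `p` under a sequence of maps. -/
def orb {V : Type*} (g : ℕ → V → V) (p : V) : ℕ → V
  | 0 => p
  | t + 1 => g t (orb g p t)

/-! ### Piecewise smooth systems -/

/-- A map in finitely many charts, with a label and a bounded "derivative". -/
structure ChartSys (d : ℕ) (J : Type) where
  F : J × (Fin d → ℝ) → J × (Fin d → ℝ)
  lab : J × (Fin d → ℝ) → Bool
  Am : J × (Fin d → ℝ) → Matrix (Fin d) (Fin d) ℝ
  A : ℝ
  one_le_A : 1 ≤ A
  Am_le : ∀ z i j, |Am z i j| ≤ A

/-- On the ball of radius `ρ` around `z` the next chart and the label are constant and the map is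
`C^{1,1}`-close to its linear part. -/
def ChartSys.Reg {d : ℕ} {J : Type} (C : ChartSys d J) (z : J × (Fin d → ℝ)) (ρ : ℝ) : Prop :=
  (∀ u, ‖u - z.2‖ ≤ ρ → (C.F (z.1, u)).1 = (C.F z).1 ∧ C.lab (z.1, u) = C.lab z) ∧
  ∀ r, r ≤ ρ → ∀ u u', ‖u - z.2‖ ≤ r → ‖u' - z.2‖ ≤ r →
    ‖(C.F (z.1, u)).2 - (C.F (z.1, u')).2 - C.Am z *ᵥ (u - u')‖ ≤ C.A * r * ‖u - u'‖

/-- A good orbit segment with `N` points. -/
def ChartSys.Good {d : ℕ} {J : Type} (C : ChartSys d J) (Bx : ℝ) (N : ℕ) (Γ : ℝ)
    (z : J × (Fin d → ℝ)) : Prop :=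
  (∀ t < N, ‖(C.F^[t] z).2‖ ≤ Bx ∧ C.Reg (C.F^[t] z) Γ⁻¹) ∧
    Green (fun s => C.Am (C.F^[s] z)) (N - 1) Γ

end

end Crest.Agent.R133
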