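import Crest.Agent.R133.Sample

/-!
# Row 133: the random construction
-/

open MeasureTheory Finset Filter
open scoped Matrix Topology ENNReal NNReal

namespace Crest.Agent.R133

noncomputable section

/-- A word `Fin M → Fin q` as a function on `ℕ`. -/
def desExt {M q : ℕ} (a : Fin M → Fin q) (i : ℕ) : ℕ := if h : i < M then a ⟨i, h⟩ else 0

lemma desExt_lt {M q : ℕ} (hq : 0 < q) (a : Fin M → Fin q) (i : ℕ) : desExt a i < q := by
  unfold desExt
  split_ifs with h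
  · exact (a ⟨i, h⟩).2
  · exact hq

@[simp] lemma desExt_fin {M q : ℕ} (a : Fin M → Fin q) (i : Fin M) : desExt a i = a i := by
  simp [desExt]

lemma desExt_balanced {M q : ℕ} {a : Fin M → Fin q} (ha : a ∈ pool M q) {c : ℕ} (hc : c < q) :
    #{i ∈ range M | desExt a i = c} * q = M := by
  have h := (mem_filter.1 ha).2 ⟨c, hc⟩
  have : #{i ∈ range M | desExt a i = c} = #{i : Fin M | a i = ⟨c, hc⟩} := by
    rw [card_filter, card_filter, ← Fin.sum_univ_eq_sum_range (fun i => if desExt a i = c then 1 else 0)]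
    refine sum_congr rfl fun i _ => ?_
    simp [Fin.ext_iff]
  rw [this, h]

lemma des_sum_exp {M q : ℕ} (f : ℕ → ℕ → ℝ) :
    ∑ a : Fin M → Fin q, Real.exp (∑ i ∈ range M, f i (desExt a i)) =
      ∏ i ∈ range M, ∑ c ∈ range q, Real.exp (f i c) := by
  rw [← Fin.prod_univ_eq_prod_range (fun i => ∑ c ∈ range q, Real.exp (f i c))]
  simp_rw [← Fin.sum_univ_eq_sum_range (fun c => Real.exp (f _ c)) q]
  rw [prod_univ_sum, Fintype.piFinset_univ]
  refine sum_congr rfl fun a _ => ?_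
  rw [← Fin.sum_univ_eq_sum_range (fun i => f i (desExt a i)), Real.exp_sum]
  simp

lemma des_sum_exp_le {M q : ℕ} (f : ℕ → ℕ → ℝ) {c : ℝ}
    (h : ∀ i, ∑ w ∈ range q, Real.exp (f i w) ≤ c) :
    ∑ a : Fin M → Fin q, Real.exp (∑ i ∈ range M, f i (desExt a i)) ≤ c ^ M := by
  rw [des_sum_exp]
  calc _ ≤ ∏ _i ∈ range M, c :=
        prod_le_prod (fun i _ => sum_nonneg fun _ _ => (Real.exp_pos _).le) fun i _ => h i
    _ = c ^ M := by simp

lemma des_ham_concat {M N : ℕ} (hN : 0 < N) (name : ℕ → ℕ → Bool) (word : ℕ → ℕ)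
    (y : Fin (M * N) → Bool) :
    ham (fun t => name (word (t / N)) (t % N)) y =
      ∑ i ∈ range M, ham (name (word i)) (sub N y i) := by
  unfold ham
  rw [← Fin.sum_univ_eq_sum_range (fun i => #{t : Fin N | name (word i) t ≠ sub N y i t})]
  simp only [card_filter]
  rw [← Fintype.sum_prod_type', ← (finProdFinEquiv (m := M) (n := N)).sum_comp]
  refine sum_congr rfl fun p _ => ?_
  obtain ⟨i, t⟩ := p
  have h1 : ((finProdFinEquiv (i, t) : Fin (M * N)) : ℕ) = i * N + t := by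
    simp [finProdFinEquiv, mul_comm, add_comm]
  have h2 : (i : ℕ) * N + t < M * N := h1 ▸ (finProdFinEquiv (i, t)).2
  have h3 : sub N y i t = y (finProdFinEquiv (i, t)) := by
    unfold sub
    rw [dif_pos h2]
    congr 1
    exact Fin.ext h1.symm
  have h4 : ((i : ℕ) * N + t) / N = i := by
    rw [add_comm, Nat.add_mul_div_right _ _ hN, Nat.div_eq_of_lt t.2, zero_add]
  have h5 : ((i : ℕ) * N + t) % N = t := by
    rw [add_comm, Nat.add_mul_mod_self_right, Nat.mod_eq_of_lt t.2]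
  simp only [h3, h1, h4, h5]

lemma des_pool_nonempty (R q : ℕ) (hq : 0 < q) : (pool (R * q) q).Nonempty := by
  rw [← card_pos]
  by_contra h
  have h0 : #(pool (R * q) q) = 0 := by omega
  have := card_pool R q hq
  rw [h0, Nat.cast_zero, mul_zero] at this
  exact absurd this (not_le.2 (by positivity))

lemma des_pool_avg {R q : ℕ} (hq : 0 < q) {g : (Fin (R * q) → Fin q) → ℝ} (hg : ∀ a, 0 ≤ g a)
    {c : ℝ} (h : ∑ a, g a ≤ c * (q : ℝ) ^ (R * q)) :
    (∑ a ∈ pool (R * q) q, g a) / #(pool (R * q) q) ≤ Real.exp (R * q : ℕ) * c := by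
  have hp : (0 : ℝ) < #(pool (R * q) q) := Nat.cast_pos.2 (des_pool_nonempty R q hq).card_pos
  have hc : 0 ≤ c := by
    have h1 : 0 ≤ c * (q : ℝ) ^ (R * q) := (sum_nonneg fun a _ => hg a).trans h
    exact nonneg_of_mul_nonneg_left h1 (by positivity)
  rw [div_le_iff₀ hp]
  calc ∑ a ∈ pool (R * q) q, g a ≤ ∑ a, g a :=
        sum_le_sum_of_subset_of_nonneg (subset_univ _) fun a _ _ => hg a
    _ ≤ c * (q : ℝ) ^ (R * q) := h
    _ ≤ c * (Real.exp (R * q : ℕ) * #(pool (R * q) q)) :=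
        mul_le_mul_of_nonneg_left (card_pool R q hq) hc
    _ = _ := by ring

/-- Passing from the rate `h` to a smaller rate. -/
lemma des_jensen {q : ℕ} (u : ℕ → ℝ) {s θ : ℝ} (h0 : 0 ≤ θ) (h1 : θ ≤ 1)
    (h : ∑ w ∈ range q, Real.exp (u w) ≤ q * Real.exp s) :
    ∑ w ∈ range q, Real.exp (θ * u w) ≤ q * Real.exp (θ * s) := by
  have key : ∀ w, Real.exp (θ * u w) ≤
      Real.exp (θ * s) * (1 - θ) + Real.exp (θ * s) * θ * Real.exp (-s) * Real.exp (u w) := by
    intro w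
    have := convexOn_exp.2 (Set.mem_univ (0 : ℝ)) (Set.mem_univ (u w - s)) (sub_nonneg.2 h1) h0
      (by ring)
    simp only [smul_eq_mul, mul_zero, zero_add, Real.exp_zero, mul_one] at this
    have e1 : Real.exp (θ * u w) = Real.exp (θ * s) * Real.exp (θ * (u w - s)) := by
      rw [← Real.exp_add]; congr 1; ring
    have e2 : Real.exp (u w - s) = Real.exp (-s) * Real.exp (u w) := by
      rw [← Real.exp_add]; congr 1; ring
    rw [e1]
    rw [e2] at this
    nlinarith [Real.exp_pos (θ * s)]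
  calc _ ≤ ∑ w ∈ range q, (Real.exp (θ * s) * (1 - θ) +
        Real.exp (θ * s) * θ * Real.exp (-s) * Real.exp (u w)) := sum_le_sum fun w _ => key w
    _ = q * (Real.exp (θ * s) * (1 - θ)) +
        Real.exp (θ * s) * θ * Real.exp (-s) * ∑ w ∈ range q, Real.exp (u w) := by
        rw [sum_add_distrib, sum_const, card_range, nsmul_eq_mul, ← mul_sum]
    _ ≤ q * (Real.exp (θ * s) * (1 - θ)) +
        Real.exp (θ * s) * θ * Real.exp (-s) * (q * Real.exp s) := by gcongr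
    _ = q * (Real.exp (θ * s) * (1 - θ)) +
        Real.exp (θ * s) * θ * q * (Real.exp (-s) * Real.exp s) := by ring
    _ = _ := by rw [← Real.exp_add, neg_add_cancel, Real.exp_zero]; ring

/-- The new log-score. -/
lemma des_score {Y : Type} [Fintype Y] (S : ℕ → Y → ℝ) (ν : Y → ℝ) {q' : ℕ}
    (hq' : 0 < q') {K θ n : ℝ} (hK : 0 < K) (hθ : 0 < θ) (hn : 0 < n)
    (hS : ∀ y, ∑ w ∈ range q', Real.exp (S w y) ≤ K) (Bad : Finset ℕ)
    (hBad : ∀ w < q', w ∉ Bad → ∑ y, ν y * Real.exp (S w y) ≤ θ) :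
    ∃ (Λ' : ℕ → Y → ℝ) (Z : Y → ℝ), (∀ y, ∑ w ∈ range q', Real.exp (Λ' w y) ≤ q') ∧
      (∀ y, 0 ≤ Z y) ∧ ∑ y, ν y * Z y ≤ 1 ∧ ∀ w y, S w y - Real.log (2 * K / q') ≤ Λ' w y ∧
        (w ∉ Bad → S w y - Real.log (2 * n * θ) - Z y / n ≤ Λ' w y) := by
  have hq : (0 : ℝ) < q' := Nat.cast_pos.2 hq'
  set Z₀ : Y → ℝ := fun y => (∑ w ∈ range q' with w ∉ Bad, Real.exp (S w y)) / q' with hZ₀
  have hZ : ∀ y, 0 ≤ Z₀ y := fun y =>
    div_nonneg (sum_nonneg fun _ _ => (Real.exp_pos _).le) hq.le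
  have hpos : ∀ w y, 0 < Real.exp (S w y) * (q' / (2 * K)) := fun w y => by positivity
  have hnn : ∀ w y, 0 ≤ if w ∈ Bad then 0 else Real.exp (S w y) / (2 * (Z₀ y + n * θ)) :=
    fun w y => by
      have := hZ y
      split_ifs
      · exact le_rfl
      · positivity
  refine ⟨fun w y => Real.log (Real.exp (S w y) * (q' / (2 * K)) +
    if w ∈ Bad then 0 else Real.exp (S w y) / (2 * (Z₀ y + n * θ))), fun y => Z₀ y / θ,
    fun y => ?_, fun y => div_nonneg (hZ y) hθ.le, ?_, fun w y => ⟨?_, fun hw => ?_⟩⟩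
  · have hy := hZ y
    rw [sum_congr rfl fun w _ => Real.exp_log (add_pos_of_pos_of_nonneg (hpos w y) (hnn w y)),
      sum_add_distrib, ← sum_mul]
    have h1 : (∑ w ∈ range q', Real.exp (S w y)) * (q' / (2 * K)) ≤ q' / 2 := by
      calc _ ≤ K * (q' / (2 * K)) := mul_le_mul_of_nonneg_right (hS y) (by positivity)
        _ = _ := by field_simp
    have h2 : ∑ w ∈ range q', (if w ∈ Bad then 0 else Real.exp (S w y) / (2 * (Z₀ y + n * θ))) =
        q' * Z₀ y / (2 * (Z₀ y + n * θ)) := by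
      have e : q' * Z₀ y = ∑ w ∈ range q' with w ∉ Bad, Real.exp (S w y) :=
        mul_div_cancel₀ _ hq.ne'
      rw [e, sum_div, sum_filter]
      refine sum_congr rfl fun w _ => ?_
      by_cases h : w ∈ Bad <;> simp [h]
    have h3 : q' * Z₀ y / (2 * (Z₀ y + n * θ)) ≤ q' / 2 := by
      rw [div_le_div_iff₀ (by positivity) (by norm_num)]
      nlinarith [mul_pos hq (mul_pos hn hθ)]
    rw [h2]
    linarith
  · have h1 : ∑ y, ν y * (Z₀ y / θ) =
        (∑ w ∈ range q' with w ∉ Bad, ∑ y, ν y * Real.exp (S w y)) / (q' * θ) := by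
      rw [sum_comm, sum_div]
      refine sum_congr rfl fun y _ => ?_
      rw [← mul_sum, hZ₀]
      field_simp
    rw [h1, div_le_one (by positivity)]
    calc _ ≤ ∑ w ∈ range q' with w ∉ Bad, θ := sum_le_sum fun w hw =>
          hBad w (mem_range.1 (mem_filter.1 hw).1) (mem_filter.1 hw).2
      _ ≤ ∑ _w ∈ range q', θ :=
          sum_le_sum_of_subset_of_nonneg (filter_subset _ _) fun _ _ _ => hθ.le
      _ = q' * θ := by simp
  · refine le_trans (le_of_eq ?_) (Real.log_le_log (hpos w y) (le_add_of_nonneg_right (hnn w y)))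
    rw [Real.log_mul (Real.exp_pos _).ne' (by positivity), Real.log_exp, ← inv_div (2 * K),
      Real.log_inv]
    ring
  · have hy := hZ y
    simp only [if_neg hw]
    refine le_trans ?_ (Real.log_le_log (x := Real.exp (S w y) / (2 * (Z₀ y + n * θ)))
      (by positivity) (le_add_of_nonneg_left (hpos w y).le))
    have e : 2 * (Z₀ y + n * θ) = (2 * n * θ) * (1 + Z₀ y / θ / n) := by field_simp; ring
    rw [Real.log_div (Real.exp_pos _).ne' (by positivity), Real.log_exp, e,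
      Real.log_mul (x := 2 * n * θ) (by positivity) (by positivity)]
    have := Real.log_le_sub_one_of_pos (x := 1 + Z₀ y / θ / n) (by positivity)
    linarith

/-- Three kinds of tests. -/
lemma des_sample3 {Ω I₁ I₂ I₃ : Type} [Fintype I₁] [Fintype I₂] [Fintype I₃] (s : Finset Ω)
    (hs : s.Nonempty) (φ₁ : I₁ → Ω → ℝ) (φ₂ : I₂ → Ω → ℝ) (φ₃ : I₃ → Ω → ℝ)
    (h₁ : ∀ i ω, 0 ≤ φ₁ i ω ∧ φ₁ i ω ≤ 1) (h₂ : ∀ i ω, 0 ≤ φ₂ i ω ∧ φ₂ i ω ≤ 1)
    (h₃ : ∀ i ω, 0 ≤ φ₃ i ω ∧ φ₃ i ω ≤ 1) {T₁ T₂ T₃ : ℝ}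
    (c₁ : (Fintype.card I₁ : ℝ) ≤ Real.exp T₁) (c₂ : (Fintype.card I₂ : ℝ) ≤ Real.exp T₂)
    (c₃ : (Fintype.card I₃ : ℝ) ≤ Real.exp T₃) (q : ℕ) :
    ∃ x : ℕ → Ω, (∀ w, x w ∈ s) ∧
      (∀ i, ∑ w ∈ range q, φ₁ i (x w) ≤ 2 * q * ((∑ ω ∈ s, φ₁ i ω) / #s) + (T₁ + 2)) ∧
      (∀ i, ∑ w ∈ range q, φ₂ i (x w) ≤ 2 * q * ((∑ ω ∈ s, φ₂ i ω) / #s) + (T₂ + 2)) ∧
      (∀ i, ∑ w ∈ range q, φ₃ i (x w) ≤ 2 * q * ((∑ ω ∈ s, φ₃ i ω) / #s) + (T₃ + 2)) := by
  have key : ∀ (c T : ℝ), c ≤ Real.exp T → c * Real.exp (-(T + 2)) ≤ 1 / 4 := by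
    intro c T h
    have h2 : (4 : ℝ) ≤ Real.exp 2 := by
      have := Real.add_one_le_exp (1 : ℝ)
      rw [show (2 : ℝ) = 1 + 1 by norm_num, Real.exp_add]
      nlinarith
    calc c * Real.exp (-(T + 2)) ≤ Real.exp T * Real.exp (-(T + 2)) :=
          mul_le_mul_of_nonneg_right h (Real.exp_pos _).le
      _ = (Real.exp 2)⁻¹ := by rw [← Real.exp_add, ← Real.exp_neg]; congr 1; ring
      _ ≤ 1 / 4 := by rw [one_div]; exact inv_anti₀ (by norm_num) h2
  obtain ⟨x, hx, h⟩ := exists_sample (I := I₁ ⊕ I₂ ⊕ I₃) s hs (Sum.elim φ₁ (Sum.elim φ₂ φ₃))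
    (by rintro (i | i | i) ω; exacts [(h₁ i ω).1, (h₂ i ω).1, (h₃ i ω).1])
    (by rintro (i | i | i) ω; exacts [(h₁ i ω).2, (h₂ i ω).2, (h₃ i ω).2])
    (Sum.elim (fun _ => T₁ + 2) (Sum.elim (fun _ => T₂ + 2) fun _ => T₃ + 2))
    (by
      simp only [Fintype.sum_sum_type, Sum.elim_inl, Sum.elim_inr, sum_const, card_univ,
        nsmul_eq_mul]
      linarith [key _ _ c₁, key _ _ c₂, key _ _ c₃]) q
  exact ⟨x, hx, fun i => h (Sum.inl i), fun i => h (Sum.inr (Sum.inl i)),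
    fun i => h (Sum.inr (Sum.inr i))⟩

lemma des_two_pow_le_exp (n : ℕ) : (2 : ℝ) ^ n ≤ Real.exp n := by
  rw [← Real.exp_one_pow]
  exact pow_le_pow_left₀ (by norm_num) (by linarith [Real.add_one_le_exp (1 : ℝ)]) n

lemma des_exists_u (A B : ℕ) {c : ℕ} (hc : 2 ≤ c) : ∃ u, B ≤ u ∧ 1 ≤ u ∧ A * u + B ≤ 2 ^ (c * u) := by
  refine ⟨A + B + 1, by omega, by omega, ?_⟩
  set u := A + B + 1 with hu
  have h1 : u < 2 ^ u := Nat.lt_two_pow_self
  calc A * u + B ≤ u * u := by nlinarith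
    _ ≤ 2 ^ u * 2 ^ u := Nat.mul_le_mul h1.le h1.le
    _ = 2 ^ (2 * u) := by rw [← pow_add, two_mul]
    _ ≤ 2 ^ (c * u) := Nat.pow_le_pow_right two_pos (Nat.mul_le_mul_right _ hc)

/-- The robustness exponent. -/
def desSig (k : ℕ) : ℝ := 1 / 6 + 1 / (6 * (k + 1))

/-- The data of one level. -/
structure DesData where
  N : ℕ
  β : ℕ
  name : ℕ → ℕ → Bool
  fam : Finset (ℕ → (Fin N → Bool) → ℝ)

namespace DesData

/-- number of words -/
def q (D : DesData) : ℕ := 2 ^ (4 * D.β)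

/-- its logarithm -/
def L (D : DesData) : ℝ := Real.log D.q

/-- the rate -/
def h (D : DesData) : ℝ := D.L / D.N

lemma q_pos (D : DesData) : 0 < D.q := Nat.two_pow_pos _

lemma L_eq (D : DesData) : D.L = 4 * D.β * Real.log 2 := by
  simp [L, q]

lemma exp_L (D : DesData) : Real.exp D.L = D.q := Real.exp_log (Nat.cast_pos.2 D.q_pos)

lemma exp_L_div (D : DesData) : Real.exp (D.L / 4) = (2 ^ D.β : ℕ) := by
  rw [L_eq, show 4 * (D.β : ℝ) * Real.log 2 / 4 = D.β * Real.log 2 by ring, Real.exp_nat_mul,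
    Real.exp_log two_pos]
  simp

/-- The invariants of level `k`. -/
structure Inv (k : ℕ) (D : DesData) : Prop where
  β_le : 4 * D.β ≤ D.N
  le_β : 10 * (k + 1) * (k + 2) ≤ D.β
  robust : ∀ y : Fin D.N → Bool, ∑ w ∈ range D.q, Real.exp (-(D.h * ham (D.name w) y)) ≤
    D.q * Real.exp (-(desSig k * D.L))
  norm : ∀ Λ ∈ D.fam, ∀ y, ∑ w ∈ range D.q, Real.exp (Λ w y) ≤ D.q
  gibbs : (fun w y => D.h * ((D.N : ℝ) / 6 - ham (D.name w) y)) ∈ D.fam

/-- The relation between consecutive levels. -/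
structure Step (k : ℕ) (D D' : DesData) (M : ℕ) (word : ℕ → ℕ → ℕ) : Prop where
  two_le_M : 2 ≤ M
  N_succ : D'.N = M * D.N
  word_lt : ∀ w i, word w i < D.q
  balanced : ∀ w a, a < D.q → #{i ∈ range M | word w i = a} * D.q = M
  name_eq : ∀ w t, D'.name w t = D.name (word w (t / D.N)) (t % D.N)
  h_succ : (2 * k + 3) * (D.h - D'.h) = D'.h
  growth : (k + 1) * (D.N + Real.log D'.N + k + 1) ≤ D'.L
  step : ∀ Λ ∈ D.fam, ∀ ν ∈ Mod D'.N (2 ^ D'.β),
    ∃ Λ' ∈ D'.fam, ∃ (Bad : Finset ℕ) (Z : (Fin D'.N → Bool) → ℝ),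
      #Bad * (k + 1) ≤ 3 * D'.q ∧ (∀ y, 0 ≤ Z y) ∧ ∑ y, ν y * Z y ≤ 1 ∧
      ∀ w < D'.q, ∀ y,
        (∑ i ∈ range M, Λ (word w i) (sub D.N y i)) - 4 * M - (D.h - D'.h) * D'.N ≤ Λ' w y ∧
        (w ∉ Bad → (∑ i ∈ range M, Λ (word w i) (sub D.N y i)) - 4 * M - Z y / D'.N ≤ Λ' w y)

lemma Inv.N_pos {k : ℕ} {D : DesData} (hD : D.Inv k) : 0 < D.N := by
  have h1 := hD.β_le
  have h2 := hD.le_β
  have : 0 < 10 * (k + 1) * (k + 2) := by positivity
  omega

lemma le_L {k : ℕ} {D : DesData} (h : 10 * (k + 1) * (k + 2) ≤ D.β) :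
    27 * ((k + 1) * (k + 2) : ℝ) ≤ D.L := by
  have h1 : (10 * (k + 1) * (k + 2) : ℝ) ≤ D.β := by exact_mod_cast h
  have h2 := Real.log_two_gt_d9
  have h3 : (0 : ℝ) < (k + 1) * (k + 2) := by positivity
  rw [L_eq]
  nlinarith

/-- The Gibbs score is normalised. -/
lemma gibbs_norm {k : ℕ} {D : DesData} (hN : 0 < D.N) (hL : 0 ≤ D.L) (y : Fin D.N → Bool)
    (h : ∑ w ∈ range D.q, Real.exp (-(D.h * ham (D.name w) y)) ≤
      D.q * Real.exp (-(desSig k * D.L))) :
    ∑ w ∈ range D.q, Real.exp (D.h * ((D.N : ℝ) / 6 - ham (D.name w) y)) ≤ D.q := by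
  have hN' : (0 : ℝ) < D.N := Nat.cast_pos.2 hN
  have e : ∀ w, Real.exp (D.h * ((D.N : ℝ) / 6 - ham (D.name w) y)) =
      Real.exp (D.L / 6) * Real.exp (-(D.h * ham (D.name w) y)) := fun w => by
    rw [← Real.exp_add, DesData.h]; congr 1; field_simp; ring
  simp only [e, ← mul_sum]
  have h6 : D.L / 6 ≤ desSig k * D.L := by
    have : 0 ≤ 1 / (6 * ((k : ℝ) + 1)) * D.L := by positivity
    rw [desSig]; linarith
  calc _ ≤ Real.exp (D.L / 6) * (D.q * Real.exp (-(desSig k * D.L))) :=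
        mul_le_mul_of_nonneg_left h (Real.exp_pos _).le
    _ = D.q * Real.exp (D.L / 6 - desSig k * D.L) := by
        rw [Real.exp_sub, Real.exp_neg]; ring
    _ ≤ D.q * 1 := mul_le_mul_of_nonneg_left (Real.exp_le_one_iff.2 (by linarith))
        (Nat.cast_nonneg _)
    _ = D.q := mul_one _

end DesData

lemma des_sum_testBit (n : ℕ) (y : Fin n → Bool) (r : ℝ) :
    ∑ w ∈ range (2 ^ n), r ^ ham (fun t => w.testBit t) y = (1 + r) ^ n := by
  have h1 : ∀ u : Fin n → Bool, ∏ t, (if u t ≠ y t then r else 1) = r ^ #{t | u t ≠ y t} :=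
    fun u => by rw [prod_ite, prod_const, prod_const_one, mul_one]
  have h2 : ∑ u : Fin n → Bool, ∏ t, (if u t ≠ y t then r else 1) = (1 + r) ^ n := by
    rw [← Fintype.piFinset_univ, ← prod_univ_sum (fun _ => univ)
      (fun t (b : Bool) => if b ≠ y t then r else 1)]
    have : ∀ t, ∑ b : Bool, (if b ≠ y t then r else 1) = 1 + r := fun t => by
      cases y t <;> simp [add_comm]
    simp only [this, prod_const, card_univ, Fintype.card_fin]
  rw [← h2]
  refine sum_bij (fun w _ => fun t : Fin n => w.testBit t) (fun _ _ => mem_univ _)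
    (fun w hw w' hw' h => ?_) (fun u _ => ?_) (fun w _ => by rw [h1]; rfl)
  · refine Nat.eq_of_testBit_eq fun t => ?_
    by_cases ht : t < n
    · exact congrFun h ⟨t, ht⟩
    · have hp : 2 ^ n ≤ 2 ^ t := Nat.pow_le_pow_right two_pos (not_lt.1 ht)
      rw [Nat.testBit_eq_false_of_lt ((mem_range.1 hw).trans_le hp),
        Nat.testBit_eq_false_of_lt ((mem_range.1 hw').trans_le hp)]
  · exact ⟨Nat.ofBits u, mem_range.2 (Nat.ofBits_lt_two_pow u),
      funext fun t => Nat.testBit_ofBits_lt u t t.2⟩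

lemma des_zero_aux (β : ℕ) (hβ : 20 ≤ β) : ∃ D : DesData, D.Inv 0 ∧ ∀ w t, D.name w t = w.testBit t := by
  let D₀ : DesData := ⟨4 * β, β, fun w t => w.testBit t, ∅⟩
  have hβ' : (0 : ℝ) < β := by exact_mod_cast (by omega : 0 < β)
  have hh : D₀.h = Real.log 2 := by
    rw [DesData.h, DesData.L_eq]; simp only [D₀]; push_cast; field_simp
  have hL : D₀.L = (4 * β : ℕ) * Real.log 2 := by
    rw [DesData.L_eq]; simp only [D₀]; push_cast; ring
  have hl := Real.log_two_gt_d9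
  have rob : ∀ y : Fin D₀.N → Bool, ∑ w ∈ range D₀.q, Real.exp (-(D₀.h * ham (D₀.name w) y)) ≤
      D₀.q * Real.exp (-(desSig 0 * D₀.L)) := fun y => by
    have e : ∀ n : ℕ, Real.exp (-(D₀.h * n)) = (1 / 2 : ℝ) ^ n := fun n => by
      rw [hh, Real.exp_neg, mul_comm, Real.exp_nat_mul, Real.exp_log two_pos]; simp
    simp only [e]
    have h1 := des_sum_testBit (4 * β) y (1 / 2)
    have h2 : (3 / 4 : ℝ) ≤ Real.exp (-(Real.log 2 / 3)) := by
      refine (pow_le_pow_iff_left₀ (by norm_num) (Real.exp_pos _).le three_ne_zero).1 ?_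
      rw [← Real.exp_nat_mul, show ((3 : ℕ) : ℝ) * -(Real.log 2 / 3) = -Real.log 2 by
        push_cast; ring, Real.exp_neg, Real.exp_log two_pos]
      norm_num
    have h3 : Real.exp (-(desSig 0 * D₀.L)) = Real.exp (-(Real.log 2 / 3)) ^ (4 * β) := by
      rw [← Real.exp_nat_mul, hL, desSig]; congr 1; push_cast; ring
    have h4 : (D₀.q : ℝ) = 2 ^ (4 * β) := by simp [DesData.q, D₀]
    calc _ = (1 + 1 / 2 : ℝ) ^ (4 * β) := h1
      _ = 2 ^ (4 * β) * (3 / 4) ^ (4 * β) := by rw [← mul_pow]; norm_num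
      _ ≤ _ := by rw [h3, h4]; gcongr
  refine ⟨⟨4 * β, β, fun w t => w.testBit t,
    {fun w y => D₀.h * ((D₀.N : ℝ) / 6 - ham (D₀.name w) y)}⟩, ⟨le_rfl, hβ, rob, ?_,
    mem_singleton_self _⟩, fun _ _ => rfl⟩
  intro Λ hΛ y
  rw [mem_singleton.1 hΛ]
  exact DesData.gibbs_norm (D := D₀) (k := 0) (by simp only [D₀]; omega)
    (by rw [hL]; positivity) y (rob y)

/-- Level `0`. -/
lemma des_zero : ∃ D : DesData, D.Inv 0 ∧ ∀ w t, D.name w t = w.testBit t :=
  des_zero_aux 20 le_rfl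

open Classical in
/-- The random choice of the words. -/
lemma des_words {k : ℕ} {D : DesData} (hD : D.Inv k) (R m' q' : ℕ) {θ₀ : ℝ} (h0 : 0 ≤ θ₀)
    (h1 : θ₀ ≤ 1) {M : ℕ} (hM : M = R * D.q) :
    ∃ x : ℕ → (Fin M → Fin D.q), (∀ w, x w ∈ pool M D.q) ∧
      (∀ Λ ∈ D.fam, ∀ ν ∈ Mod (M * D.N) m',
        (#{w ∈ range q' | Real.exp (M : ℕ) * (k + 1) < ∑ y, ν y *
          Real.exp (∑ i ∈ range M, Λ (desExt (x w) i) (sub D.N y i))} : ℝ) ≤
          2 * q' * (1 / (k + 1)) + (#D.fam + (m' * m' + m' : ℕ) + 2)) ∧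
      (∀ y : Fin (M * D.N) → Bool, ∑ w ∈ range q', Real.exp (∑ i ∈ range M,
          θ₀ * -(D.h * ham (D.name (desExt (x w) i)) (sub D.N y i))) ≤
        2 * q' * (Real.exp (M : ℕ) * Real.exp (θ₀ * -(desSig k * D.L)) ^ M) +
          ((M * D.N : ℕ) + 2)) ∧
      (∀ a₀, (#{w ∈ range q' | x w = a₀} : ℝ) ≤
        2 * q' * (Real.exp (M : ℕ) * ((D.q : ℝ) ^ M)⁻¹) +
          ((M * D.N : ℕ) + 2)) := by
  subst hM
  have hq := D.q_pos
  have hq' : (0 : ℝ) < D.q := Nat.cast_pos.2 hq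
  have hL : 0 ≤ D.L := le_trans (by positivity) (DesData.le_L hD.le_β)
  have hh : 0 ≤ D.h := div_nonneg hL (Nat.cast_nonneg _)
  set M := R * D.q with hM
  set θ : ℝ := Real.exp (M : ℕ) * (k + 1) with hθ
  have hθ0 : 0 < θ := by positivity
  let ψ : (ℕ → (Fin D.N → Bool) → ℝ) → ((Fin (M * D.N) → Bool) → ℝ) → (Fin M → Fin D.q) → ℝ :=
    fun Λ ν a => ∑ y, ν y * Real.exp (∑ i ∈ range M, Λ (desExt a i) (sub D.N y i))
  obtain ⟨x, hx, H1, H2, H3⟩ := des_sample3 (I₁ := D.fam × Mod (M * D.N) m')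
    (I₂ := Fin (M * D.N) → Bool) (I₃ := Fin M → Fin D.q) (pool M D.q) (des_pool_nonempty R _ hq)
    (fun i a => if θ < ψ i.1 i.2 a then 1 else 0)
    (fun y a => Real.exp (∑ i ∈ range M, θ₀ * -(D.h * ham (D.name (desExt a i)) (sub D.N y i))))
    (fun a₀ a => if a = a₀ then 1 else 0)
    (fun i a => by split_ifs <;> norm_num)
    (fun y a => ⟨(Real.exp_pos _).le, Real.exp_le_one_iff.2 (sum_nonpos fun i _ =>
      mul_nonpos_of_nonneg_of_nonpos h0 (neg_nonpos.2 (mul_nonneg hh (Nat.cast_nonneg _))))⟩)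
    (fun i a => by split_ifs <;> norm_num)
    (T₁ := #D.fam + (m' * m' + m' : ℕ)) (T₂ := (M * D.N : ℕ)) (T₃ := (M * D.N : ℕ))
    (by
      rw [Fintype.card_prod, Fintype.card_coe, Fintype.card_coe, Nat.cast_mul, Real.exp_add]
      refine mul_le_mul (by linarith [Real.add_one_le_exp (#D.fam : ℝ)]) ?_ (Nat.cast_nonneg _)
        (Real.exp_pos _).le
      refine le_trans ?_ (des_two_pow_le_exp _)
      exact_mod_cast card_mod_le _ _)
    (by simpa using des_two_pow_le_exp (M * D.N))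
    (by
      refine le_trans ?_ (des_two_pow_le_exp _)
      rw [Fintype.card_fun, Fintype.card_fin, Fintype.card_fin, DesData.q, ← pow_mul]
      exact_mod_cast Nat.pow_le_pow_right two_pos
        (by rw [mul_comm]; exact Nat.mul_le_mul_left _ hD.β_le)) q'
  refine ⟨x, hx, fun Λ hΛ ν hν => ?_, fun y => (H2 y).trans ?_, fun a₀ => ?_⟩
  · have h := H1 (⟨Λ, hΛ⟩, ⟨ν, hν⟩)
    rw [sum_boole] at h
    refine h.trans ?_
    have hψ0 : ∀ a, 0 ≤ ψ Λ ν a := fun a =>
      sum_nonneg fun y _ => mul_nonneg (mod_nonneg hν y) (Real.exp_pos _).le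
    have hψ : ∑ a, ψ Λ ν a ≤ (D.q : ℝ) ^ M := by
      rw [sum_comm]
      calc _ ≤ ∑ y, ν y * (D.q : ℝ) ^ M := sum_le_sum fun y _ => by
            rw [← mul_sum]
            exact mul_le_mul_of_nonneg_left (des_sum_exp_le (fun i c => Λ c (sub D.N y i))
              fun i => hD.norm Λ hΛ _) (mod_nonneg hν y)
        _ ≤ 1 * (D.q : ℝ) ^ M := by
            rw [← sum_mul]
            exact mul_le_mul_of_nonneg_right (sum_mod_le hν) (by positivity)
        _ = _ := one_mul _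
    have havg := des_pool_avg (R := R) hq (g := fun a => if θ < ψ Λ ν a then 1 else 0)
      (fun a => by split_ifs <;> norm_num) (c := θ⁻¹) (by
        refine le_trans (sum_le_sum fun a _ => ?_)
          ((mul_sum _ _ _).ge.trans (mul_le_mul_of_nonneg_left hψ (inv_nonneg.2 hθ0.le)))
        split_ifs with h
        · rw [← div_eq_inv_mul, le_div_iff₀ hθ0, one_mul]; exact h.le
        · exact mul_nonneg (inv_nonneg.2 hθ0.le) (hψ0 a))
    have e : Real.exp (R * D.q : ℕ) * θ⁻¹ = 1 / (k + 1) := by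
      rw [hθ, ← hM]; field_simp
    rw [e] at havg
    gcongr
  · have havg := des_pool_avg (R := R) hq (g := fun a => Real.exp (∑ i ∈ range M,
        θ₀ * -(D.h * ham (D.name (desExt a i)) (sub D.N y i))))
      (fun a => (Real.exp_pos _).le) (c := Real.exp (θ₀ * -(desSig k * D.L)) ^ M) (by
        rw [← mul_pow, mul_comm (Real.exp _)]
        exact des_sum_exp_le (fun i c => θ₀ * -(D.h * ham (D.name c) (sub D.N y i)))
          fun i => des_jensen _ h0 h1 (hD.robust _))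
    gcongr
  · have h := H3 a₀
    rw [sum_boole] at h
    refine h.trans ?_
    have havg := des_pool_avg (R := R) hq (g := fun a => if a = a₀ then 1 else 0)
      (fun a => by split_ifs <;> norm_num) (c := ((D.q : ℝ) ^ M)⁻¹) (by
        rw [inv_mul_cancel₀ (by positivity)]
        simp)
    gcongr

lemma des_two_mul_le_exp (x : ℝ) (hx : 0 ≤ x) : 2 * x ≤ Real.exp x := by
  have h := Real.add_one_le_exp (x / 2)
  have e : Real.exp x = Real.exp (x / 2) * Real.exp (x / 2) := by rw [← Real.exp_add]; congr 1; ring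
  rw [e]
  nlinarith [sq_nonneg (x / 2 - 1)]

lemma des_log_le₁ {M n : ℝ} (hM : 2 ≤ M) (hn : 0 ≤ n) (h : n ≤ M * M) :
    Real.log (2 * (n + 4)) ≤ 4 * M := by
  rw [Real.log_le_iff_le_exp (by positivity), show 4 * M = (4 : ℕ) * M by norm_num,
    Real.exp_nat_mul]
  have h1 := pow_le_pow_left₀ (by positivity) (des_two_mul_le_exp M (by linarith)) 4
  have h2 : 4 ≤ M * M := by nlinarith
  nlinarith

lemma des_log_le₂ {M n κ : ℝ} (hM : 2 ≤ M) (hn : 0 < n) (h : n ≤ M * M) (hκ : 0 < κ)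
    (hκM : κ ≤ M) : Real.log (2 * n * (Real.exp M * κ)) ≤ 4 * M := by
  rw [Real.log_le_iff_le_exp (by positivity), show 4 * M = M + (3 : ℕ) * M by push_cast; ring,
    Real.exp_add, Real.exp_nat_mul]
  have h1 := pow_le_pow_left₀ (by positivity) (des_two_mul_le_exp M (by linarith)) 3
  have h2 : n * κ ≤ M * M * M := mul_le_mul h hκM hκ.le (by positivity)
  have h3 : 2 * n * κ ≤ Real.exp M ^ 3 := by nlinarith [mul_pos hn hκ]
  nlinarith [Real.exp_pos M]

/-- The numerical inequality behind the robustness of the next level. -/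
lemma des_robust_num {k M : ℕ} {L' n : ℝ} (hM : 2 ≤ M)
    (hL : 20 * ((k + 1) * (k + 2) : ℝ) * M ≤ L') (hn : 2 * (n + 2) ≤ Real.exp (L' / 4)) :
    2 * Real.exp L' * (Real.exp M * Real.exp (-(desSig k * L'))) + (n + 2) ≤
      Real.exp L' * Real.exp (-(desSig (k + 1) * L')) := by
  have hM' : (2 : ℝ) ≤ M := by exact_mod_cast hM
  have hk : (0 : ℝ) ≤ k := Nat.cast_nonneg k
  have hL0 : 0 ≤ L' := le_trans (by positivity) hL
  have e1 : desSig k * L' = desSig (k + 1) * L' + L' / (6 * ((k + 1) * (k + 2))) := by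
    simp only [desSig]; push_cast; field_simp; ring
  have h1 : M + 2 ≤ L' / (6 * ((k + 1) * (k + 2))) := by
    rw [le_div_iff₀ (by positivity)]
    have : (0 : ℝ) < (k + 1) * (k + 2) := by positivity
    nlinarith
  have h2 : (4 : ℝ) ≤ Real.exp 2 := by linarith [des_two_mul_le_exp 2 (by norm_num)]
  have h3 : 4 * (Real.exp M * Real.exp (-(desSig k * L'))) ≤ Real.exp (-(desSig (k + 1) * L')) := by
    calc _ ≤ Real.exp 2 * (Real.exp M * Real.exp (-(desSig k * L'))) := by gcongr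
      _ = Real.exp (2 + (M + -(desSig k * L'))) := by rw [Real.exp_add, Real.exp_add]
      _ ≤ _ := Real.exp_le_exp.2 (by linarith)
  have h4 : desSig (k + 1) ≤ 3 / 4 := by
    have : 1 / (6 * (((k + 1 : ℕ) : ℝ) + 1)) ≤ 1 / 6 :=
      one_div_le_one_div_of_le (by norm_num) (by push_cast; linarith)
    rw [desSig]; linarith
  have h5 : Real.exp (L' / 4) ≤ Real.exp L' * Real.exp (-(desSig (k + 1) * L')) := by
    rw [← Real.exp_add]
    exact Real.exp_le_exp.2 (by nlinarith)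
  nlinarith [Real.exp_pos L']

/-- The recursive step. -/
lemma des_step {k : ℕ} {D : DesData} (hD : D.Inv k) :
    ∃ (D' : DesData) (M : ℕ) (word : ℕ → ℕ → ℕ), D'.Inv (k + 1) ∧ D.Step k D' M word := by
  classical
  have hq := D.q_pos
  have hN := hD.N_pos
  have hβ := hD.le_β
  have hβ2 : 20 ≤ D.β := le_trans (by nlinarith) hβ
  obtain ⟨u, hu1, hu2, hu3⟩ := des_exists_u (2 * ((2 * k + 4) * D.q * D.N))
    (D.N + k + #D.fam + 4) (c := D.β * (2 * k + 3) * D.q) (by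
      have : 1 ≤ (2 * k + 3) * D.q := Nat.mul_pos (by omega) hq
      nlinarith)
  set R := (2 * k + 4) * u with hR
  set β' := D.β * (2 * k + 3) * D.q * u with hβ'
  set m' := 2 ^ β' with hm'
  set q' := 2 ^ (4 * β') with hq'
  have hq'm : q' = m' ^ 4 := by rw [hq', hm', ← pow_mul, mul_comm]
  have hq'0 : 0 < q' := Nat.two_pow_pos _
  have hk : (0 : ℝ) ≤ k := Nat.cast_nonneg k
  set θ₀ : ℝ := (2 * k + 3) / (2 * k + 4) with hθ₀
  have h0 : 0 ≤ θ₀ := by positivity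
  have h1 : θ₀ ≤ 1 := by rw [hθ₀, div_le_one (by positivity)]; linarith
  obtain ⟨M, hM⟩ : ∃ M, M = R * D.q := ⟨_, rfl⟩
  obtain ⟨x, hx, P1, P2, P3⟩ := des_words hD R m' q' h0 h1 hM
  have huM : u ≤ M := by
    have : 1 ≤ (2 * k + 4) * D.q := Nat.mul_pos (by omega) hq
    calc u = 1 * u := (one_mul u).symm
      _ ≤ (2 * k + 4) * D.q * u := Nat.mul_le_mul_right _ this
      _ = M := by rw [hM, hR]; ring
  have hM2 : 2 ≤ M := by omega
  have hNM : D.N ≤ M := by omega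
  have hkM : k + 1 ≤ M := by omega
  have hm1 : 2 * (M * D.N + 2) ≤ m' := by
    have : 2 * ((2 * k + 4) * D.q * D.N) * u = 2 * (M * D.N) := by rw [hM, hR]; ring
    omega
  have hm2 : (k + 1) * (#D.fam + (m' * m' + m') + 2) ≤ q' := by
    have a1 : k + 1 ≤ m' := by omega
    have a2 : #D.fam + 2 ≤ m' := by omega
    have a3 : 2 ≤ m' := by omega
    have a4 : #D.fam + (m' * m' + m') + 2 ≤ m' ^ 3 := by
      have : m' * (m' + 2) ≤ m' * (m' * m') := Nat.mul_le_mul_left _ (by nlinarith)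
      nlinarith
    rw [hq'm, pow_succ', pow_succ' m' 2] at *
    exact Nat.mul_le_mul a1 a4
  -- real quantities
  have hN' : (0 : ℝ) < D.N := Nat.cast_pos.2 hN
  have hM' : (2 : ℝ) ≤ M := by exact_mod_cast hM2
  have hNM' : (D.N : ℝ) ≤ M := by exact_mod_cast hNM
  have hkM' : (k + 1 : ℝ) ≤ M := by exact_mod_cast hkM
  have hL := DesData.le_L hβ
  let name' : ℕ → ℕ → Bool := fun w t => D.name (desExt (x w) (t / D.N)) (t % D.N)
  let D₀ : DesData := ⟨M * D.N, β', name', ∅⟩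
  have hq₀ : D₀.q = q' := rfl
  have hL' : D₀.L = M * θ₀ * D.L := by
    rw [DesData.L_eq, DesData.L_eq, hθ₀]
    simp only [D₀, hβ', hM, hR]
    push_cast
    field_simp
  have hh' : D₀.h = θ₀ * D.h := by
    rw [DesData.h, DesData.h, hL']
    simp only [D₀]
    push_cast
    field_simp
  have hθ34 : 3 / 4 ≤ θ₀ := by rw [hθ₀, le_div_iff₀ (by positivity)]; linarith
  have hkk : (0 : ℝ) < (k + 1) * (k + 2) := by positivity
  have hL'le : 20 * ((k + 1) * (k + 2) : ℝ) * M ≤ D₀.L := by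
    rw [hL']
    have : 20 * ((k + 1) * (k + 2) : ℝ) ≤ θ₀ * D.L := by nlinarith
    nlinarith
  have hexp : Real.exp D₀.L = q' := D₀.exp_L
  have hqM : ((D.q : ℝ)) ^ M = Real.exp (M * D.L) := by rw [Real.exp_nat_mul, D.exp_L]
  have hdiff : (D.h - D₀.h) * (M * D.N : ℕ) = M * D.L - D₀.L := by
    rw [hh', hL', DesData.h]; push_cast; field_simp
  have hgap : (M : ℝ) ≤ M * D.L - D₀.L := by
    rw [hL', hθ₀]
    have : (M : ℝ) * D.L - M * ((2 * k + 3) / (2 * k + 4)) * D.L = M * (D.L / (2 * k + 4)) := by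
      field_simp; ring
    rw [this]
    refine le_mul_of_one_le_right (by linarith) ?_
    rw [le_div_iff₀ (by positivity)]
    nlinarith
  -- robustness
  have rob : ∀ y : Fin D₀.N → Bool, ∑ w ∈ range D₀.q, Real.exp (-(D₀.h * ham (D₀.name w) y)) ≤
      D₀.q * Real.exp (-(desSig (k + 1) * D₀.L)) := fun y => by
    have e : ∀ w, -(D₀.h * ham (D₀.name w) y) = ∑ i ∈ range M,
        θ₀ * -(D.h * ham (D.name (desExt (x w) i)) (sub D.N y i)) := fun w => by
      have := des_ham_concat (M := M) hN D.name (desExt (x w)) y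
      rw [hh', show ham (D₀.name w) y = _ from this, Nat.cast_sum, mul_sum, ← sum_neg_distrib]
      exact sum_congr rfl fun i _ => by ring
    simp only [e]
    refine (P2 y).trans ?_
    have e2 : Real.exp (θ₀ * -(desSig k * D.L)) ^ M = Real.exp (-(desSig k * D₀.L)) := by
      rw [← Real.exp_nat_mul, hL']; congr 1; ring
    rw [e2, hq₀, ← hexp]
    refine des_robust_num hM2 hL'le ?_
    rw [D₀.exp_L_div]
    exact_mod_cast hm1
  -- multiplicities
  have mult : ∀ a₀, (#{w ∈ range q' | x w = a₀} : ℝ) ≤ (M * D.N : ℕ) + 4 := fun a₀ => by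
    refine (P3 a₀).trans ?_
    have : (q' : ℝ) * (Real.exp M * ((D.q : ℝ) ^ M)⁻¹) ≤ 1 := by
      rw [hqM, ← hexp, ← Real.exp_neg, ← Real.exp_add, ← Real.exp_add, Real.exp_le_one_iff]
      linarith
    linarith
  -- the new scores
  have score : ∀ (Λ : ℕ → (Fin D.N → Bool) → ℝ) (ν : (Fin (M * D.N) → Bool) → ℝ),
      ∃ Λ' : ℕ → (Fin (M * D.N) → Bool) → ℝ, Λ ∈ D.fam → ν ∈ Mod (M * D.N) m' →
      (∀ y, ∑ w ∈ range q', Real.exp (Λ' w y) ≤ q') ∧
      ∃ (Bad : Finset ℕ) (Z : (Fin (M * D.N) → Bool) → ℝ),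
      #Bad * (k + 1) ≤ 3 * q' ∧ (∀ y, 0 ≤ Z y) ∧ ∑ y, ν y * Z y ≤ 1 ∧ ∀ w < q', ∀ y,
        (∑ i ∈ range M, Λ (desExt (x w) i) (sub D.N y i)) - 4 * M -
          (D.h - D₀.h) * (M * D.N : ℕ) ≤ Λ' w y ∧
        (w ∉ Bad → (∑ i ∈ range M, Λ (desExt (x w) i) (sub D.N y i)) - 4 * M -
          Z y / (M * D.N : ℕ) ≤ Λ' w y) := by
    intro Λ ν
    by_cases hΛ : Λ ∈ D.fam
    swap
    · exact ⟨0, fun h => absurd h hΛ⟩
    by_cases hν : ν ∈ Mod (M * D.N) m'
    swap
    · exact ⟨0, fun _ h => absurd h hν⟩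
    have hn : (0 : ℝ) < (M * D.N : ℕ) := by push_cast; positivity
    have hnM : ((M * D.N : ℕ) : ℝ) ≤ M * M := by push_cast; gcongr
    obtain ⟨Λ', Z, a1, a2, a3, a4⟩ := des_score
      (fun w y => ∑ i ∈ range M, Λ (desExt (x w) i) (sub D.N y i)) ν hq'0
      (K := ((M * D.N : ℕ) + 4) * (D.q : ℝ) ^ M) (θ := Real.exp M * (k + 1))
      (n := (M * D.N : ℕ)) (by positivity) (by positivity) hn
      (fun y => by
        rw [← sum_fiberwise_of_maps_to (g := x) (t := univ) (fun _ _ => mem_univ _)]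
        calc _ ≤ ∑ a : Fin M → Fin D.q, ((M * D.N : ℕ) + 4) *
              Real.exp (∑ i ∈ range M, Λ (desExt a i) (sub D.N y i)) := by
              refine sum_le_sum fun a _ => ?_
              rw [sum_congr rfl (g := fun _ =>
                Real.exp (∑ i ∈ range M, Λ (desExt a i) (sub D.N y i)))
                (fun w hw => by rw [(mem_filter.1 hw).2]), sum_const, nsmul_eq_mul]
              exact mul_le_mul_of_nonneg_right (mult a) (Real.exp_pos _).le
          _ ≤ _ := by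
              rw [← mul_sum]
              exact mul_le_mul_of_nonneg_left (des_sum_exp_le (fun i c => Λ c (sub D.N y i))
                fun i => hD.norm Λ hΛ _) (by positivity))
      {w ∈ range q' | Real.exp M * (k + 1) < ∑ y, ν y *
          Real.exp (∑ i ∈ range M, Λ (desExt (x w) i) (sub D.N y i))}
      (fun w hw hb => not_lt.1 fun h => hb (mem_filter.2 ⟨mem_range.2 hw, h⟩))
    refine ⟨Λ', fun _ _ => ⟨a1, _, Z, ?_, a2, a3, fun w _ y => ⟨le_trans ?_ (a4 w y).1,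
      fun hw => le_trans ?_ ((a4 w y).2 hw)⟩⟩⟩
    · have b1 := mul_le_mul_of_nonneg_right (P1 Λ hΛ ν hν) (by positivity : (0 : ℝ) ≤ k + 1)
      have b2 : ((k + 1 : ℝ)) * (#D.fam + (m' * m' + m' : ℕ) + 2) ≤ q' := by exact_mod_cast hm2
      have b3 : (2 * q' * (1 / (k + 1)) + (#D.fam + (m' * m' + m' : ℕ) + 2) : ℝ) * (k + 1) =
          2 * q' + (k + 1 : ℝ) * (#D.fam + (m' * m' + m' : ℕ) + 2) := by field_simp
      rw [b3] at b1
      have b4 := b1.trans (add_le_add le_rfl b2)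
      rw [show (2 * q' + q' : ℝ) = 3 * q' by ring] at b4
      exact_mod_cast b4
    · have e : 2 * ((((M * D.N : ℕ) : ℝ) + 4) * (D.q : ℝ) ^ M) / q' =
          2 * ((M * D.N : ℕ) + 4) * Real.exp (M * D.L - D₀.L) := by
        rw [Real.exp_sub, hqM, hexp]; ring
      rw [e, Real.log_mul (by positivity) (Real.exp_pos _).ne', Real.log_exp, hdiff]
      linarith [des_log_le₁ hM' hn.le hnM]
    · linarith [des_log_le₂ hM' hn hnM (by positivity : (0 : ℝ) < k + 1) hkM']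
  choose F hF using score
  let G : ℕ → (Fin (M * D.N) → Bool) → ℝ :=
    fun w y => D₀.h * ((D₀.N : ℝ) / 6 - ham (D₀.name w) y)
  refine ⟨⟨M * D.N, β', name',
    insert G ((D.fam ×ˢ Mod (M * D.N) m').image fun p => F p.1 p.2)⟩, M,
    fun w i => desExt (x w) i, ⟨?_, ?_, rob, ?_, mem_insert_self _ _⟩,
    ⟨hM2, rfl, fun w i => desExt_lt hq _ _, fun w a ha => desExt_balanced (hx w) ha,
      fun _ _ => rfl, ?_, ?_, fun Λ hΛ ν hν => ?_⟩⟩
  · change 4 * β' ≤ M * D.N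
    calc 4 * β' = (2 * k + 3) * u * D.q * (4 * D.β) := by rw [hβ']; ring
      _ ≤ (2 * k + 4) * u * D.q * D.N :=
        Nat.mul_le_mul (Nat.mul_le_mul_right _ (Nat.mul_le_mul_right _ (by omega))) hD.β_le
      _ = M * D.N := by rw [hM]
  · change 10 * (k + 1 + 1) * (k + 1 + 2) ≤ β'
    have : 1 ≤ D.q * u := Nat.mul_pos hq hu2
    calc 10 * (k + 1 + 1) * (k + 1 + 2) ≤ 10 * (k + 1) * (k + 2) * (2 * k + 3) * 1 := by
          nlinarith [Nat.zero_le (k * k * k), Nat.zero_le (k * k)]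
      _ ≤ D.β * (2 * k + 3) * (D.q * u) := Nat.mul_le_mul (Nat.mul_le_mul_right _ hβ) this
      _ = β' := by rw [hβ']; ring
  · intro Λ' hΛ' y
    rcases mem_insert.1 hΛ' with rfl | h
    · exact DesData.gibbs_norm (D := D₀) (Nat.mul_pos (by omega) hN)
        (le_trans (by positivity) hL'le) y (rob y)
    · obtain ⟨p, hp, rfl⟩ := mem_image.1 h
      exact (hF p.1 p.2 (mem_product.1 hp).1 (mem_product.1 hp).2).1 y
  · change (2 * k + 3) * (D.h - D₀.h) = D₀.h
    rw [hh', hθ₀]; field_simp; ring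
  · change (k + 1) * (D.N + Real.log (M * D.N : ℕ) + k + 1) ≤ D₀.L
    have a1 : Real.log (M * D.N : ℕ) ≤ 2 * M := by
      push_cast
      rw [Real.log_mul (by positivity) hN'.ne']
      linarith [Real.log_le_sub_one_of_pos (by linarith : (0 : ℝ) < M),
        Real.log_le_sub_one_of_pos hN']
    have a2 : (k + 1) * (D.N + Real.log (M * D.N : ℕ) + k + 1) ≤ (k + 1) * (4 * M) :=
      mul_le_mul_of_nonneg_left (by linarith) (by positivity)
    refine a2.trans (le_trans ?_ hL'le)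
    have : (0 : ℝ) ≤ (k + 1) * M := by positivity
    nlinarith
  · exact ⟨F Λ ν, mem_insert_of_mem (mem_image.2 ⟨(Λ, ν), mem_product.2 ⟨hΛ, hν⟩, rfl⟩),
      (hF Λ ν hΛ hν).2⟩

/-- Recipe.  Recursive construction of levels `(N, b, name, fam)` with `q = 2^b`, `4 ∣ b`,
`m = 2^(b/4)`, `fam` a finite set of log-scores; level `0`: `N = b = 80`, `name w t = w.testBit t`.
Invariants at level `k` (`h = b log 2 / N`, `σ k = 1/6 + 1/(6(k+1))`): `b ≤ N`,
`40 (k+1) (k+2) ≤ b`; robustness `∀ y, ∑_{w<q} exp (-h * ham (name w) y) ≤ q * exp (-σ k * h * N)`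
(level `0`: the average is `(3/4)^80`, `(3/4)^3 ≤ 1/2`); normalisation
`∀ Λ ∈ fam, ∀ y, ∑_{w<q} exp (Λ w y) ≤ q` (gives `top`); the Gibbs score
`h * (N / 6 - ham (name w) y)` is in `fam` (gives `init`).
Step: `R = (2k+4) u`, `M = R q`, `N' = M N`, `b' = b (2k+3) q u` with `4 ∣ u` large, so
`h' = h (2k+3)/(2k+4)`.  The words `word w : Fin M → Fin q` (`w < q'`) are a sample from
`pool M q` (`exists_sample`; by `card_pool` an average over the pool of a nonnegative function is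
at most `exp M` times its average over all words) passing three kinds of tests, each kind with
`T = log (number of tests of the kind) + 2`:
(1) for `Λ ∈ fam`, `ν ∈ Mod N' m'`: the indicator of `ψ a > θ`, where
`ψ a = ∑ y, ν y * s a y`, `s a y = exp (∑ i, Λ (a i) (sub N y i))`, `θ = exp M * (k+1)`
(the average of `ψ` over all words is `≤ 1` by `Finset.prod_univ_sum`; Markov);
(2) for `y`: `exp (-h' * ∑ i, ham (name (a i)) (sub N y i))` (use
`exp (θ u) ≤ exp (θ s) (1 - θ + θ exp (u - s))`, `θ = h'/h`, to pass from `h` to `h'`; then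
`2 exp M exp (-σ k h' N') ≤ exp (-σ (k+1) h' N') / 2` because `b ≥ 40 (k+1)(k+2)`);
(3) for `a₀`: the indicator of `a = a₀`, giving multiplicity `≤ N' + 4` (`q' exp M ≤ q^M`).
`Bad = {w < q' | ψ (word w) > θ}`, `Z₀ y = (∑_{w<q', w ∉ Bad} s (word w) y) / q'`, `Z = Z₀ / θ`,
`Λ' w y = log (s q' / (2 (N'+4) q^M) + if w ∈ Bad then 0 else s / (2 (Z₀ y + N' θ)))`,
`fam' = {Gibbs} ∪ {Λ'(Λ, ν)}`.  `u` is large enough for `N ≤ M`, `k + 1 ≤ M`,
`2 (N' + 2) ≤ q'^(2/3)`, `(k+1) (log #fam + m'^2 + m' + 2) ≤ q'`, `40 (k+2)(k+3) ≤ b'` and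
`growth`. -/
theorem exists_design : ∃ B : Blocks, Nonempty (Design B) := by
  obtain ⟨D₀, hD₀, hname⟩ := des_zero
  choose nx M word hinv hstep using fun (k : ℕ) (D : {D : DesData // D.Inv k}) => des_step D.2
  let lev : ∀ k : ℕ, {D : DesData // D.Inv k} := fun k =>
    Nat.rec ⟨D₀, hD₀⟩ (fun k D => ⟨nx k D, hinv k D⟩) k
  have hs : ∀ k, (lev k).1.Step k (lev (k + 1)).1 (M k (lev k)) (word k (lev k)) :=
    fun k => hstep k (lev k)
  let B : Blocks :=
    { N := fun k => (lev k).1.N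
      q := fun k => (lev k).1.q
      M := fun k => M k (lev k)
      word := fun k => word k (lev k)
      N_zero_pos := (lev 0).2.N_pos
      q_pos := fun k => (lev k).1.q_pos
      two_le_M := fun k => (hs k).two_le_M
      N_succ := fun k => (hs k).N_succ
      word_lt := fun k => (hs k).word_lt
      balanced := fun k w a _ ha => (hs k).balanced w a ha }
  have hn : ∀ k w t, B.name k w t = (lev k).1.name w t := by
    intro k
    induction k with
    | zero => exact fun w t => (hname w t).symm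
    | succ k ih => exact fun w t => by rw [(hs k).name_eq, ← ih]; rfl
  refine ⟨B, ⟨
    { m := fun k => 2 ^ (lev k).1.β
      fam := fun k => (lev k).1.fam
      h_zero_pos := div_pos (lt_of_lt_of_le (by positivity) (DesData.le_L (lev 0).2.le_β))
        (Nat.cast_pos.2 (lev 0).2.N_pos)
      h_succ := fun k => (hs k).h_succ
      growth := fun k => (hs k).growth
      le_m := fun k => (lev k).1.exp_L_div.le
      top := fun k Λ hΛ w hw y => ?_
      init := fun k => ⟨_, (lev k).2.gibbs, fun w _ y => ?_⟩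
      step := fun k Λ hΛ ν hν => (hs k).step Λ hΛ ν hν }⟩⟩
  · refine (Real.le_log_iff_exp_le (Nat.cast_pos.2 (lev k).1.q_pos)).2
      (le_trans ?_ ((lev k).2.norm Λ hΛ y))
    exact single_le_sum (f := fun w => Real.exp (Λ w y)) (fun _ _ => (Real.exp_pos _).le)
      (mem_range.2 hw)
  · rw [show B.name k w = (lev k).1.name w from funext (hn k w)]
    exact le_rfl

end

end Crest.Agent.R133
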