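import Crest.Agent.R133.Defs

/-!
# Row 133: ergodicity and standardness
-/

open MeasureTheory Finset Filter
open scoped Matrix Topology ENNReal NNReal

namespace Crest.Agent.R133

noncomputable section

variable {B : Blocks} {X : Type} [MeasurableSpace X] {μ : Measure X} {T : X → X}

/-- Recipe: `{x} ⊆ {W k = W k x ∧ P k = P k x}` has measure `≤ 1 / N k ≤ 2⁻ᵏ`. -/
theorem Tower.measure_singleton (τ : Tower B μ T) (x : X) : μ {x} = 0 := by
  refine le_antisymm (ge_of_tendsto' (ENNReal.tendsto_pow_atTop_nhds_zero_of_lt_one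
    ENNReal.one_half_lt_one) fun k => ?_) bot_le
  refine (measure_mono (Set.singleton_subset_iff.2 (by exact ⟨rfl, rfl⟩))).trans
    ((τ.law k _ _ (τ.W_lt k x) (τ.P_lt k x)).le.trans ?_)
  rw [← ENNReal.inv_pow, ENNReal.inv_le_inv]
  exact_mod_cast (B.two_pow_le_N k).trans (Nat.le_mul_of_pos_left _ (B.q_pos k))

/-- The cells of level `k`. -/
def Tower.cell (τ : Tower B μ T) (k w t : ℕ) : Set X := {x | τ.W k x = w ∧ τ.P k x = t}

theorem Tower.meas_cell (τ : Tower B μ T) (k w t : ℕ) : MeasurableSet (τ.cell k w t) :=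
  (τ.meas_W k (measurableSet_singleton w)).inter (τ.meas_P k (measurableSet_singleton t))

theorem Tower.measure_eq_sum (τ : Tower B μ T) {ν : Measure X} (k : ℕ) (A : Set X)
    (D : Finset (ℕ × ℕ)) (h : ∀ x, x ∈ A ↔ (τ.W k x, τ.P k x) ∈ D) :
    ν A = ∑ p ∈ D, ν (τ.cell k p.1 p.2) := by
  have e : ∀ p : ℕ × ℕ, τ.cell k p.1 p.2 = (fun x => (τ.W k x, τ.P k x)) ⁻¹' {p} := fun p => by
    ext x; simp [Tower.cell, Prod.ext_iff]
  simp only [e]
  rw [sum_measure_preimage_singleton D fun p _ => e p ▸ τ.meas_cell k _ _]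
  exact congrArg ν (Set.ext h)

theorem Tower.isPiSystem (τ : Tower B μ T) :
    IsPiSystem {s | ∃ k w t, s = {x | τ.W k x = w ∧ τ.P k x = t}} := by
  have key : ∀ k k', k ≤ k' → ∀ x y, τ.W k' x = τ.W k' y ∧ τ.P k' x = τ.P k' y →
      τ.W k x = τ.W k y ∧ τ.P k x = τ.P k y := by
    intro k k' hk x y
    induction hk with
    | refl => exact id
    | step _ ih => exact fun h => ih ⟨by rw [τ.W_compat, τ.W_compat _ y, h.1, h.2],
        by rw [τ.P_compat, τ.P_compat _ y, h.2]⟩
  rintro _ ⟨k, w, t, rfl⟩ _ ⟨k', w', t', rfl⟩ ⟨y, ⟨rfl, rfl⟩, rfl, rfl⟩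
  rcases le_total k k' with h | h
  · exact ⟨k', _, _, Set.inter_eq_right.2 fun x hx => key k k' h x y hx⟩
  · exact ⟨k, _, _, Set.inter_eq_left.2 fun x hx => key k' k h x y hx⟩

/-- Recipe: let `s` be invariant, `cell k w t = {W k = w ∧ P k = t}`.  For `t + 1 < N k`,
`cell k w t ⊆ T⁻¹ (cell k w (t+1))` and both have the same measure, so they are a.e. equal and
`μ (s ∩ cell k w t)` does not depend on `t`.  `cell k c 0` is the disjoint union of the
`cell (k+1) w (i * N k)` with `word k w i = c`, `w < q (k+1)`, `i < M k`; by `balanced`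
`μ (s ∩ cell k c 0)` does not depend on `c` either.  Hence `μ (s ∩ cell) = μ s * μ cell` for all
cells (sum over the partition of level `k`); cells and `∅` form a π-system generating the
σ-algebra (`gen`; by `P_compat`, `W_compat` a cell of level `k' ≥ k` is inside or outside a cell of
level `k`), so `μ.restrict s = μ s • μ` (`ext_of_generate_finite`) and `μ s = μ s * μ s`. -/
theorem Tower.ergodic (τ : Tower B μ T) [IsProbabilityMeasure μ] (hT : MeasurePreserving T μ μ) :
    Ergodic T μ := by
  refine ⟨hT, ⟨fun s hs hinv => ?_⟩⟩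
  have h1 : ∀ k w t, w < B.q k → t < B.N k → μ.restrict s (τ.cell k w t) =
      μ.restrict s (τ.cell k w 0) := by
    intro k w t hw ht
    induction t with
    | zero => rfl
    | succ t ih =>
      rw [← ih (by omega), Measure.restrict_apply (τ.meas_cell _ _ _),
        Measure.restrict_apply (τ.meas_cell _ _ _),
        ← hT.measure_preimage ((τ.meas_cell _ _ _).inter hs).nullMeasurableSet,
        Set.preimage_inter, hinv]
      refine measure_congr ((ae_eq_of_subset_of_measure_ge (fun x hx => ?_) (le_of_eq ?_)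
        (τ.meas_cell _ _ _).nullMeasurableSet (measure_ne_top _ _)).symm.inter .rfl)
      · obtain ⟨rfl, rfl⟩ := hx
        exact ⟨τ.W_step k x ht, (τ.P_step k x).trans (Nat.mod_eq_of_lt ht)⟩
      · rw [hT.measure_preimage (τ.meas_cell _ _ _).nullMeasurableSet]
        exact (τ.law k w _ hw ht).trans (τ.law k w t hw (by omega)).symm
  have h2 : ∀ k c, c < B.q k → μ.restrict s (τ.cell k c 0) =
      ∑ w ∈ range (B.q (k + 1)), (B.M k / B.q k : ℕ) * μ.restrict s (τ.cell (k + 1) w 0) := by
    intro k c hc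
    rw [τ.measure_eq_sum (k + 1) _ {p ∈ range (B.q (k + 1)) ×ˢ range (B.N (k + 1)) |
      B.word k p.1 (p.2 / B.N k) = c ∧ p.2 % B.N k = 0} fun x => by
        simp [Tower.cell, τ.W_lt, τ.P_lt, ← τ.W_compat, ← τ.P_compat], Finset.sum_filter,
      Finset.sum_product]
    refine Finset.sum_congr rfl fun w hw => ?_
    rw [← Finset.sum_filter, Finset.sum_congr rfl fun t ht => h1 _ w t (mem_range.1 hw)
      (mem_range.1 (mem_filter.1 ht).1), Finset.sum_const, nsmul_eq_mul,
      Nat.div_eq_of_eq_mul_left (B.q_pos k) (B.balanced k w c (mem_range.1 hw) hc).symm]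
    congr 2
    have hN := B.N_pos k
    refine Finset.card_nbij' (· / B.N k) (· * B.N k) (fun t ht => ?_) (fun i hi => ?_)
      (fun t ht => ?_) fun i _ => Nat.mul_div_cancel _ hN
    · simp only [coe_filter, mem_range, Set.mem_ofPred_eq, B.N_succ] at ht ⊢
      exact ⟨(Nat.div_lt_iff_lt_mul hN).2 ht.1, ht.2.1⟩
    · simp only [coe_filter, mem_range, Set.mem_ofPred_eq, B.N_succ] at hi ⊢
      exact ⟨Nat.mul_lt_mul_of_pos_right hi.1 hN, by rw [Nat.mul_div_cancel _ hN, hi.2], by simp⟩
    · exact Nat.div_mul_cancel (Nat.dvd_of_mod_eq_zero (mem_filter.1 ht).2.2)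
  have h3 : μ.restrict s = μ s • μ := by
    refine ext_of_generate_finite _ τ.gen τ.isPiSystem ?_ (by simp)
    rintro _ ⟨k, w, t, rfl⟩
    by_cases h : w < B.q k ∧ t < B.N k
    · have h4 := τ.measure_eq_sum (ν := μ.restrict s) k Set.univ (range (B.q k) ×ˢ range (B.N k))
        fun x => by simp [τ.W_lt, τ.P_lt]
      rw [Finset.sum_congr rfl fun p hp => (h1 k p.1 p.2 (mem_range.1 (mem_product.1 hp).1)
        (mem_range.1 (mem_product.1 hp).2)).trans ((h2 k p.1 (mem_range.1
          (mem_product.1 hp).1)).trans ((h1 k w t h.1 h.2).trans (h2 k w h.1)).symm),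
        Finset.sum_const, card_product, card_range, card_range, nsmul_eq_mul,
        Measure.restrict_apply_univ] at h4
      rw [Measure.smul_apply, τ.law k w t h.1 h.2, h4, smul_eq_mul, mul_right_comm,
        ENNReal.mul_inv_cancel (by simpa using ⟨(B.q_pos k).ne', (B.N_pos k).ne'⟩) (by finiteness),
        one_mul]
      rfl
    · rw [Set.eq_empty_of_forall_notMem (s := {x | τ.W k x = w ∧ τ.P k x = t})
        fun x hx => h ⟨hx.1 ▸ τ.W_lt k x, hx.2 ▸ τ.P_lt k x⟩]
      simp
  have h4 := congrArg (· sᶜ) h3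
  simp only [Measure.restrict_apply hs.compl, Set.compl_inter_self, measure_empty,
    Measure.smul_apply, smul_eq_mul, zero_eq_mul] at h4
  exact eventuallyConst_set.2 (h4.symm.imp id measure_eq_zero_iff_ae_notMem.1)

theorem measure_cdf_le (ρ : Measure ℝ) [IsProbabilityMeasure ρ] (h0 : ∀ a, ρ {a} = 0) {u : ℝ}
    (hu0 : 0 ≤ u) (hu1 : u ≤ 1) : ρ {x | ProbabilityTheory.cdf ρ x ≤ u} = ENNReal.ofReal u := by
  have hm := ProbabilityTheory.monotone_cdf ρ
  have hc : Continuous (ProbabilityTheory.cdf ρ) := continuous_iff_continuousAt.2 fun a => by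
    have := (ProbabilityTheory.cdf ρ).measure_singleton a
    rw [ProbabilityTheory.measure_cdf, h0, eq_comm, ENNReal.ofReal_eq_zero, sub_nonpos] at this
    rw [hm.continuousAt_iff_leftLim_eq_rightLim, StieltjesFunction.rightLim_eq]
    exact le_antisymm (hm.leftLim_le le_rfl) this
  rcases hu1.eq_or_lt with rfl | hu1
  · simp [ProbabilityTheory.cdf_le_one]
  rcases {x | ProbabilityTheory.cdf ρ x ≤ u}.eq_empty_or_nonempty with h | h
  · rw [h, measure_empty, eq_comm, ENNReal.ofReal_eq_zero]
    exact ge_of_tendsto' (ProbabilityTheory.tendsto_cdf_atBot ρ) fun x =>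
      (not_le.1 (Set.eq_empty_iff_forall_notMem.1 h x)).le
  have hb : BddAbove {x | ProbabilityTheory.cdf ρ x ≤ u} := by
    obtain ⟨b, hb⟩ := ((ProbabilityTheory.tendsto_cdf_atTop ρ).eventually (lt_mem_nhds hu1)).exists
    exact ⟨b, fun x hx => (hm.reflect_lt (hx.trans_lt hb)).le⟩
  have ha := (isClosed_le hc continuous_const).csSup_mem h hb
  rw [show {x | ProbabilityTheory.cdf ρ x ≤ u} = Set.Iic _ from
    Set.Subset.antisymm (fun x hx => le_csSup hb hx) fun x hx => (hm hx).trans ha,
    ← ProbabilityTheory.ofReal_cdf]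
  exact congrArg _ (le_antisymm ha (ge_of_tendsto (hc.continuousAt.tendsto.mono_left
    (nhdsWithin_le_nhds (s := Set.Ioi _))) (eventually_nhdsWithin_of_forall fun x hx =>
      (not_le.1 fun h => (Set.mem_Ioi.1 hx).not_ge (le_csSup hb h)).le)))

/-- Recipe: take a measurable embedding `ι : X → ℝ` (`exists_measurableEmbedding_real`),
`ρ = μ.map ι` is an atomless probability, `F = cdf ρ` is continuous and monotone with limits `0`
and `1`, so `ρ {F ≤ u} = u` for `u ∈ [0,1]` and `ρ.map F` is Lebesgue measure on `[0,1]`.  The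
set `D` of values that `F` takes more than once is countable (each fibre contains a rational),
hence null; `X₀ = (F ∘ ι)⁻¹ Dᶜ`, `Y₀` its image, measurable by
`MeasurableSet.image_of_measurable_injOn`; the inverse is `Function.extend` along the
measurable embedding `X₀.restrict (F ∘ ι)` (`Measurable.measurableEmbedding`,
`MeasurableEmbedding.measurable_extend`). -/
theorem isStandardProbability_of_measure_singleton [StandardBorelSpace X] (μ : Measure X)
    [IsProbabilityMeasure μ] (h : ∀ x, μ {x} = 0) :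
    Crest.AnalysisR.IsStandardProbability μ := by
  obtain ⟨ι, hι⟩ := exists_measurableEmbedding_real X
  have : IsProbabilityMeasure (μ.map ι) := Measure.isProbabilityMeasure_map hι.measurable.aemeasurable
  have h0 : ∀ a, μ.map ι {a} = 0 := fun a => by
    rw [hι.map_apply]
    exact (Set.subsingleton_singleton.preimage hι.injective).induction_on (p := (μ · = 0))
      measure_empty h
  have hm := ProbabilityTheory.monotone_cdf (μ.map ι)
  let F : X → unitInterval := fun x => ⟨ProbabilityTheory.cdf (μ.map ι) (ι x),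
    ProbabilityTheory.cdf_nonneg _ _, ProbabilityTheory.cdf_le_one _ _⟩
  have hF : Measurable F := (hm.measurable.comp hι.measurable).subtype_mk
  have hmap : μ.map F = volume := by
    have := Measure.isProbabilityMeasure_map (μ := μ) hF.aemeasurable
    refine Measure.ext_of_Iic _ _ fun u => ?_
    rw [unitInterval.volume_Iic, Measure.map_apply hF measurableSet_Iic,
      ← measure_cdf_le _ h0 u.2.1 u.2.2, hι.map_apply]
    rfl
  set D : Set unitInterval := Subtype.val ⁻¹' {c | ∃ x y, x < y ∧
    ProbabilityTheory.cdf (μ.map ι) x = c ∧ ProbabilityTheory.cdf (μ.map ι) y = c}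
  have hD : D.Countable := hm.countable_setOfPred_two_preimages.preimage Subtype.val_injective
  have hX : MeasurableSet (F ⁻¹' Dᶜ) := hF hD.measurableSet.compl
  have hX0 : μ (F ⁻¹' Dᶜ)ᶜ = 0 := by
    rw [← Set.preimage_compl, compl_compl, ← Measure.map_apply hF hD.measurableSet, hmap]
    exact hD.measure_zero _
  have hinj : Set.InjOn F (F ⁻¹' Dᶜ) := fun x hx y _ e => hι.injective (by
    have e' := congrArg Subtype.val e
    rcases lt_trichotomy (ι x) (ι y) with h | h | h
    exacts [absurd ⟨_, _, h, rfl, e'.symm⟩ hx, h, absurd ⟨_, _, h, e'.symm, rfl⟩ hx])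
  have hY := hX.image_of_measurable_injOn hF hinj
  have := hX.standardBorel
  have hemb := (hF.comp (measurable_subtype_coe (p := (· ∈ F ⁻¹' Dᶜ)))).measurableEmbedding
    fun x y e => Subtype.ext (hinj x.2 y.2 e)
  obtain ⟨G, hG, hG'⟩ := hemb.exists_measurable_extend measurable_subtype_coe
    fun _ => nonempty_of_isProbabilityMeasure μ
  refine ⟨_, _, F, G, hX, hY, hX0, ?_, hF, hG, hinj.bijOn_image, fun x hx =>
    congrFun hG' ⟨x, hx⟩, hmap⟩
  rw [← hmap, Measure.map_apply hF hY.compl]
  exact measure_mono_null (fun x hx hx' => hx ⟨x, hx', rfl⟩) hX0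

end

end Crest.Agent.R133
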