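import Crest.Agent.R133.Defs

/-!
# Row 133: Gram determinants and the Green operator
-/

open MeasureTheory Finset Filter
open scoped Matrix Topology ENNReal NNReal

namespace Crest.Agent.R133

noncomputable section

theorem GreenAux.abs_det_le {d : ℕ} {S : Matrix (Fin d) (Fin d) ℝ} {x : ℝ}
    (h : ∀ i j, |S i j| ≤ x) : |S.det| ≤ (d.factorial : ℝ) * x ^ d := by
  have := Matrix.det_le (abv := AbsoluteValue.abs) (A := S) (x := x) h
  simpa using this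

theorem measurable_phi {d : ℕ} {X : Type*} [MeasurableSpace X]
    (a : X → ℕ → Matrix (Fin d) (Fin d) ℝ) (ha : ∀ s i j, Measurable fun x => a x s i j)
    (n : ℕ) : Measurable fun x => phi (a x) n := by
  have hp : ∀ s i j, Measurable fun x => prop (a x) s i j := by
    intro s
    induction s with
    | zero => intro i j; exact measurable_const
    | succ s ih =>
      intro i j
      simp only [prop, Matrix.mul_apply]
      exact Finset.measurable_sum _ fun k _ => (ha s i k).mul (ih k j)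
  have hg : ∀ i j, Measurable fun x => gram (a x) n i j := by
    intro i j
    simp only [gram, Matrix.sum_apply, Matrix.mul_apply, Matrix.transpose_apply]
    exact Finset.measurable_sum _ fun s _ => Finset.measurable_sum _ fun k _ =>
      (hp s k i).mul (hp s k j)
  unfold phi
  refine Real.measurable_log.comp ?_
  simp only [Matrix.det_apply']
  exact Finset.measurable_sum _ fun σ _ =>
    measurable_const.mul (Finset.measurable_prod _ fun i _ => hg _ _)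

/-- `det` of a matrix with bounded entries is bounded (`Matrix.det_le`). -/
theorem exists_phi_le (d : ℕ) (A : ℝ) (n : ℕ) : ∃ U : ℝ,
    ∀ a : ℕ → Matrix (Fin d) (Fin d) ℝ, (∀ s i j, |a s i j| ≤ A) → phi a n ≤ U := by
  have hp : ∀ s, ∃ C : ℝ, 0 ≤ C ∧ ∀ a : ℕ → Matrix (Fin d) (Fin d) ℝ, (∀ s i j, |a s i j| ≤ A) →
      ∀ i j, |prop a s i j| ≤ C := by
    intro s
    induction s with
    | zero =>
      refine ⟨1, zero_le_one, fun a _ i j => ?_⟩
      simp only [prop, Matrix.one_apply]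
      split_ifs <;> simp
    | succ s ih =>
      obtain ⟨C, hC0, hC⟩ := ih
      refine ⟨∑ _k : Fin d, |A| * C, Finset.sum_nonneg fun _ _ => by positivity, fun a ha i j => ?_⟩
      simp only [prop, Matrix.mul_apply]
      refine (Finset.abs_sum_le_sum_abs _ _).trans (Finset.sum_le_sum fun k _ => ?_)
      rw [abs_mul]
      exact mul_le_mul ((ha s i k).trans (le_abs_self A)) (hC a ha k j) (abs_nonneg _)
        (abs_nonneg _)
  choose C hC0 hC using hp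
  refine ⟨(d.factorial : ℝ) * (∑ s ∈ range n, ∑ _k : Fin d, C s * C s) ^ d, fun a ha => ?_⟩
  unfold phi
  rw [← Real.log_abs]
  refine (Real.log_le_self (abs_nonneg _)).trans (GreenAux.abs_det_le fun i j => ?_)
  simp only [gram, Matrix.sum_apply, Matrix.mul_apply, Matrix.transpose_apply]
  refine (Finset.abs_sum_le_sum_abs _ _).trans (Finset.sum_le_sum fun s _ => ?_)
  refine (Finset.abs_sum_le_sum_abs _ _).trans (Finset.sum_le_sum fun k _ => ?_)
  rw [abs_mul]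
  exact mul_le_mul (hC s a ha k i) (hC s a ha k j) (abs_nonneg _) (hC0 s)

theorem Green.mono {d : ℕ} {a : ℕ → Matrix (Fin d) (Fin d) ℝ} {n : ℕ} {Γ Γ' : ℝ}
    (h : Green a n Γ) (hΓ : Γ ≤ Γ') : Green a n Γ' := by
  obtain ⟨G, h1, h2⟩ := h
  exact ⟨G, fun w => (h1 w).trans (mul_le_mul_of_nonneg_right hΓ (norm_nonneg _)), h2⟩

namespace GreenAux

open Matrix

variable {d : ℕ}

theorem dot_nonneg (v : Fin d → ℝ) : 0 ≤ v ⬝ᵥ v :=
  Finset.sum_nonneg fun i _ => mul_self_nonneg (v i)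

theorem dot_sq_le (u v : Fin d → ℝ) : (u ⬝ᵥ v) ^ 2 ≤ (u ⬝ᵥ u) * (v ⬝ᵥ v) := by
  have := Finset.sum_mul_sq_le_sq_mul_sq univ u v
  simpa only [dotProduct, sq] using this

theorem norm_le_of_dot {v : Fin d → ℝ} {c : ℝ} (hc : 0 ≤ c) (h : v ⬝ᵥ v ≤ c ^ 2) : ‖v‖ ≤ c := by
  refine (pi_norm_le_iff_of_nonneg hc).2 fun i => ?_
  rw [Real.norm_eq_abs]
  refine abs_le_of_sq_le_sq' ?_ hc |> abs_le.2
  refine le_trans ?_ h
  rw [sq]
  exact Finset.single_le_sum (f := fun i => v i * v i) (fun i _ => mul_self_nonneg _) (mem_univ i)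

theorem mulVec_dot_le {a : Matrix (Fin d) (Fin d) ℝ} {A : ℝ} (ha : ∀ i j, |a i j| ≤ A)
    (y : Fin d → ℝ) : (a *ᵥ y) ⬝ᵥ (a *ᵥ y) ≤ (d * A) ^ 2 * (y ⬝ᵥ y) := by
  have h1 : ∀ i, (a *ᵥ y) i * (a *ᵥ y) i ≤ d * A ^ 2 * (y ⬝ᵥ y) := fun i => by
    have h2 := dot_sq_le (a i) y
    have h3 : a i ⬝ᵥ a i ≤ d * A ^ 2 := by
      calc a i ⬝ᵥ a i ≤ ∑ _j : Fin d, A ^ 2 := Finset.sum_le_sum fun j _ => by
            rw [← sq, ← sq_abs]
            exact pow_le_pow_left₀ (abs_nonneg _) (ha i j) 2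
        _ = d * A ^ 2 := by simp
    rw [← sq]
    exact h2.trans (mul_le_mul_of_nonneg_right h3 (dot_nonneg y))
  calc (a *ᵥ y) ⬝ᵥ (a *ᵥ y) ≤ ∑ _i : Fin d, d * A ^ 2 * (y ⬝ᵥ y) := Finset.sum_le_sum fun i _ => h1 i
    _ = (d * A) ^ 2 * (y ⬝ᵥ y) := by
      simp only [Finset.sum_const, Finset.card_univ, Fintype.card_fin, nsmul_eq_mul]
      ring

theorem norm_mulVec_le {a : Matrix (Fin d) (Fin d) ℝ} {A : ℝ} (hA : 0 ≤ A)
    (ha : ∀ i j, |a i j| ≤ A) (y : Fin d → ℝ) : ‖a *ᵥ y‖ ≤ d * A * ‖y‖ := by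
  refine (pi_norm_le_iff_of_nonneg (by positivity)).2 fun i => ?_
  rw [Real.norm_eq_abs]
  calc |(a *ᵥ y) i| ≤ ∑ j, |a i j * y j| :=
        Finset.abs_sum_le_sum_abs (fun j => a i j * y j) univ
    _ ≤ ∑ _j : Fin d, A * ‖y‖ := Finset.sum_le_sum fun j _ => by
        rw [abs_mul]
        exact mul_le_mul (ha i j) (norm_le_pi_norm y j) (abs_nonneg _) hA
    _ = d * A * ‖y‖ := by
      simp only [Finset.sum_const, Finset.card_univ, Fintype.card_fin, nsmul_eq_mul]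
      ring

theorem dot_mulVec_le {S : Matrix (Fin d) (Fin d) ℝ} {x : ℝ} (hx : 0 ≤ x) (h : ∀ i j, |S i j| ≤ x)
    (z : Fin d → ℝ) : (S *ᵥ z) ⬝ᵥ z ≤ d ^ 2 * x * ‖z‖ ^ 2 := by
  have h1 := norm_mulVec_le hx h z
  calc (S *ᵥ z) ⬝ᵥ z ≤ ∑ _i : Fin d, d * x * ‖z‖ * ‖z‖ := Finset.sum_le_sum fun i _ => by
        refine (le_abs_self _).trans ?_
        rw [abs_mul]
        exact mul_le_mul ((norm_le_pi_norm (S *ᵥ z) i).trans h1) (norm_le_pi_norm z i)
          (abs_nonneg _) (by positivity)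
    _ = d ^ 2 * x * ‖z‖ ^ 2 := by
      simp only [Finset.sum_const, Finset.card_univ, Fintype.card_fin, nsmul_eq_mul]
      ring

/-- entries of a symmetric matrix with `0 ≤ S ≤ κ` -/
theorem abs_entry_le {S : Matrix (Fin d) (Fin d) ℝ} {κ : ℝ} (hs : Sᵀ = S)
    (h0 : ∀ ζ, 0 ≤ ζ ⬝ᵥ S *ᵥ ζ) (h1 : ∀ ζ, ζ ⬝ᵥ S *ᵥ ζ ≤ κ * (ζ ⬝ᵥ ζ)) (i j : Fin d) :
    |S i j| ≤ κ := by
  have hd : ∀ i, S i i ≤ κ := fun i => by simpa using h1 (Pi.single i 1)
  have hij : S j i = S i j := by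
    conv_lhs => rw [← hs]
    rfl
  have h2 := h0 (Pi.single i 1 + Pi.single j 1)
  have h3 := h0 (Pi.single i 1 - Pi.single j 1)
  simp only [mulVec_add, mulVec_sub, add_dotProduct, dotProduct_add, sub_dotProduct,
    dotProduct_sub, single_dotProduct, mulVec_single, MulOpposite.op_one, one_smul, one_mul,
    col_apply, hij] at h2 h3
  rw [abs_le]
  constructor <;> linarith [hd i, hd j]

theorem prop_add (a : ℕ → Matrix (Fin d) (Fin d) ℝ) (m s : ℕ) :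
    prop a (m + s) = prop (fun s => a (m + s)) s * prop a m := by
  induction s with
  | zero => simp [prop]
  | succ s ih =>
    rw [← add_assoc]
    simp only [prop, ih, Matrix.mul_assoc]

theorem gram_add (a : ℕ → Matrix (Fin d) (Fin d) ℝ) (m n : ℕ) :
    gram a (m + n) = gram a m + (prop a m)ᵀ * (gram (fun s => a (m + s)) n * prop a m) := by
  unfold gram
  rw [Finset.sum_range_add, Finset.sum_mul, Finset.mul_sum]
  congr 1
  refine Finset.sum_congr rfl fun s _ => ?_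
  rw [prop_add, transpose_mul]
  simp only [Matrix.mul_assoc]

theorem gram_transpose (a : ℕ → Matrix (Fin d) (Fin d) ℝ) (n : ℕ) : (gram a n)ᵀ = gram a n := by
  simp only [gram, transpose_sum, transpose_mul, transpose_transpose]

theorem dot_gram (a : ℕ → Matrix (Fin d) (Fin d) ℝ) (n : ℕ) (v : Fin d → ℝ) :
    v ⬝ᵥ gram a n *ᵥ v = ∑ s ∈ range n, (prop a s *ᵥ v) ⬝ᵥ (prop a s *ᵥ v) := by
  unfold gram
  rw [Matrix.sum_mulVec, dotProduct_sum]
  refine Finset.sum_congr rfl fun s _ => ?_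
  rw [← mulVec_mulVec, dotProduct_mulVec, vecMul_transpose]

theorem le_dot_gram (a : ℕ → Matrix (Fin d) (Fin d) ℝ) {n s : ℕ} (hs : s < n) (v : Fin d → ℝ) :
    (prop a s *ᵥ v) ⬝ᵥ (prop a s *ᵥ v) ≤ v ⬝ᵥ gram a n *ᵥ v := by
  rw [dot_gram]
  exact Finset.single_le_sum (f := fun s => (prop a s *ᵥ v) ⬝ᵥ (prop a s *ᵥ v))
    (fun s _ => dot_nonneg _) (mem_range.2 hs)

theorem self_le_dot_gram (a : ℕ → Matrix (Fin d) (Fin d) ℝ) {n : ℕ} (hn : 1 ≤ n)
    (v : Fin d → ℝ) : v ⬝ᵥ v ≤ v ⬝ᵥ gram a n *ᵥ v := by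
  simpa [prop] using le_dot_gram a (s := 0) hn v

theorem det_pos_of {S : Matrix (Fin d) (Fin d) ℝ} (hs : Sᵀ = S)
    (h : ∀ v, v ≠ 0 → 0 < v ⬝ᵥ S *ᵥ v) : 0 < S.det := by
  refine PosDef.det_pos (PosDef.of_dotProduct_mulVec_pos ?_ fun v hv => by simpa using h v hv)
  simpa [IsHermitian] using hs

theorem dot_pos {v : Fin d → ℝ} (hv : v ≠ 0) : 0 < v ⬝ᵥ v :=
  lt_of_le_of_ne (dot_nonneg v) fun h => hv (dotProduct_self_eq_zero.1 h.symm)

theorem det_gram_pos (a : ℕ → Matrix (Fin d) (Fin d) ℝ) {n : ℕ} (hn : 1 ≤ n) :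
    0 < (gram a n).det :=
  det_pos_of (gram_transpose a n) fun v hv => (dot_pos hv).trans_le (self_le_dot_gram a hn v)

theorem gram_inv (a : ℕ → Matrix (Fin d) (Fin d) ℝ) {n : ℕ} (hn : 1 ≤ n) (ζ : Fin d → ℝ) :
    gram a n *ᵥ ((gram a n)⁻¹ *ᵥ ζ) = ζ := by
  rw [mulVec_mulVec, mul_nonsing_inv _ (det_gram_pos a hn).ne'.isUnit, one_mulVec]

theorem gram_inv_transpose (a : ℕ → Matrix (Fin d) (Fin d) ℝ) (n : ℕ) :
    ((gram a n)⁻¹)ᵀ = (gram a n)⁻¹ := by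
  rw [transpose_nonsing_inv, gram_transpose]

theorem le_dot_inv (a : ℕ → Matrix (Fin d) (Fin d) ℝ) {n s : ℕ} (hs : s < n) (ζ : Fin d → ℝ) :
    (prop a s *ᵥ ((gram a n)⁻¹ *ᵥ ζ)) ⬝ᵥ (prop a s *ᵥ ((gram a n)⁻¹ *ᵥ ζ))
      ≤ ζ ⬝ᵥ (gram a n)⁻¹ *ᵥ ζ := by
  have := le_dot_gram a hs ((gram a n)⁻¹ *ᵥ ζ)
  rwa [gram_inv a (by omega), dotProduct_comm _ ζ] at this

theorem dot_inv_nonneg (a : ℕ → Matrix (Fin d) (Fin d) ℝ) {n : ℕ} (hn : 1 ≤ n) (ζ : Fin d → ℝ) :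
    0 ≤ ζ ⬝ᵥ (gram a n)⁻¹ *ᵥ ζ := (dot_nonneg _).trans (le_dot_inv a (s := 0) hn ζ)

theorem le_of_sq_le_mul {Q c : ℝ} (hc : 0 ≤ c) (h : Q ^ 2 ≤ c * Q) : Q ≤ c := by
  by_contra hlt
  rw [not_le] at hlt
  nlinarith

theorem dot_inv_le (a : ℕ → Matrix (Fin d) (Fin d) ℝ) {n : ℕ} (hn : 1 ≤ n) (ζ : Fin d → ℝ) :
    ζ ⬝ᵥ (gram a n)⁻¹ *ᵥ ζ ≤ ζ ⬝ᵥ ζ := by
  have h1 := le_dot_inv a (s := 0) hn ζ
  simp only [prop, one_mulVec] at h1
  exact le_of_sq_le_mul (dot_nonneg ζ)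
    ((dot_sq_le _ _).trans (mul_le_mul_of_nonneg_left h1 (dot_nonneg ζ)))

/-- the Schur complement -/
def Sig (a : ℕ → Matrix (Fin d) (Fin d) ℝ) (m n : ℕ) : Matrix (Fin d) (Fin d) ℝ :=
  (gram (fun s => a (m + s)) n)⁻¹ + prop a m * (gram a m)⁻¹ * (prop a m)ᵀ

theorem Sig_transpose (a : ℕ → Matrix (Fin d) (Fin d) ℝ) (m n : ℕ) : (Sig a m n)ᵀ = Sig a m n := by
  simp only [Sig, transpose_add, transpose_mul, transpose_transpose, gram_inv_transpose,
    Matrix.mul_assoc]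

theorem dot_Sig (a : ℕ → Matrix (Fin d) (Fin d) ℝ) (m n : ℕ) (ζ : Fin d → ℝ) :
    ζ ⬝ᵥ Sig a m n *ᵥ ζ = ζ ⬝ᵥ (gram (fun s => a (m + s)) n)⁻¹ *ᵥ ζ
      + ((prop a m)ᵀ *ᵥ ζ) ⬝ᵥ (gram a m)⁻¹ *ᵥ ((prop a m)ᵀ *ᵥ ζ) := by
  rw [Sig, add_mulVec, dotProduct_add, ← mulVec_mulVec, ← mulVec_mulVec,
    dotProduct_mulVec ζ (prop a m), ← mulVec_transpose]

theorem det_Sig_pos (a : ℕ → Matrix (Fin d) (Fin d) ℝ) {m n : ℕ} (hm : 1 ≤ m) (hn : 1 ≤ n) :
    0 < (Sig a m n).det := by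
  refine det_pos_of (Sig_transpose a m n) fun ζ hζ => ?_
  rw [dot_Sig]
  refine add_pos_of_pos_of_nonneg ?_ (dot_inv_nonneg a hm _)
  have h1 := le_dot_inv (fun s => a (m + s)) (s := 0) hn ζ
  simp only [prop, one_mulVec] at h1
  refine (dot_pos fun h => hζ ?_).trans_le h1
  rw [← gram_inv (fun s => a (m + s)) hn ζ, h, mulVec_zero]

theorem phi_add (a : ℕ → Matrix (Fin d) (Fin d) ℝ) {m n : ℕ} (hm : 1 ≤ m) (hn : 1 ≤ n) :
    phi a (m + n) = phi a m + phi (fun s => a (m + s)) n + Real.log (Sig a m n).det := by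
  have h1 := det_gram_pos a hm
  have h2 := det_gram_pos (fun s => a (m + s)) hn
  have h3 := det_Sig_pos a hm hn
  have e : 1 + gram (fun s => a (m + s)) n * prop a m * (gram a m)⁻¹ * (prop a m)ᵀ
      = gram (fun s => a (m + s)) n * Sig a m n := by
    rw [Sig, Matrix.mul_add, mul_nonsing_inv _ h2.ne'.isUnit]
    simp only [Matrix.mul_assoc]
  unfold phi
  rw [gram_add, det_add_mul _ _ h1.ne'.isUnit, e, det_mul, Real.log_mul h1.ne' (by positivity),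
    Real.log_mul h2.ne' h3.ne', add_assoc]

theorem abs_Sig_le {a : ℕ → Matrix (Fin d) (Fin d) ℝ} {A : ℝ} (ha : ∀ s i j, |a s i j| ≤ A)
    {m n : ℕ} (hm : 1 ≤ m) (hn : 1 ≤ n) (i j : Fin d) : |Sig a m n i j| ≤ 1 + (d * A) ^ 2 := by
  refine abs_entry_le (Sig_transpose a m n) (fun ζ => ?_) (fun ζ => ?_) i j
  · rw [dot_Sig]
    exact add_nonneg (dot_inv_nonneg _ hn _) (dot_inv_nonneg _ hm _)
  · rw [dot_Sig, add_mul, one_mul]
    refine add_le_add (dot_inv_le _ hn _) ?_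
    obtain ⟨m, rfl⟩ : ∃ k, m = k + 1 := ⟨m - 1, by omega⟩
    have h1 := le_dot_inv a (s := m) (n := m + 1) (by omega) ((prop a (m + 1))ᵀ *ᵥ ζ)
    obtain ⟨u, hu⟩ : ∃ u, u = (gram a (m + 1))⁻¹ *ᵥ ((prop a (m + 1))ᵀ *ᵥ ζ) := ⟨_, rfl⟩
    rw [← hu] at h1 ⊢
    have h2 : ((prop a (m + 1))ᵀ *ᵥ ζ) ⬝ᵥ u = ζ ⬝ᵥ a m *ᵥ (prop a m *ᵥ u) := by
      rw [mulVec_transpose, ← dotProduct_mulVec, mulVec_mulVec]
      rfl
    refine le_of_sq_le_mul (mul_nonneg (sq_nonneg _) (dot_nonneg _)) ?_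
    calc (((prop a (m + 1))ᵀ *ᵥ ζ) ⬝ᵥ u) ^ 2
        ≤ (ζ ⬝ᵥ ζ) * ((a m *ᵥ (prop a m *ᵥ u)) ⬝ᵥ (a m *ᵥ (prop a m *ᵥ u))) := by
          rw [h2]
          exact dot_sq_le _ _
      _ ≤ (ζ ⬝ᵥ ζ) * ((d * A) ^ 2 * (((prop a (m + 1))ᵀ *ᵥ ζ) ⬝ᵥ u)) :=
          mul_le_mul_of_nonneg_left ((mulVec_dot_le (ha m) _).trans
            (mul_le_mul_of_nonneg_left h1 (sq_nonneg _))) (dot_nonneg _)
      _ = _ := by ring

theorem abs_inv_le {S : Matrix (Fin d) (Fin d) ℝ} {κ Δ : ℝ} (hκ : 1 ≤ κ) (h : ∀ i j, |S i j| ≤ κ)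
    (hS : 0 < S.det) (hΔ : -Δ ≤ Real.log S.det) (i j : Fin d) :
    |S⁻¹ i j| ≤ Real.exp Δ * ((d.factorial : ℝ) * κ ^ d) := by
  rw [Matrix.inv_def, Ring.inverse_eq_inv', Matrix.smul_apply, smul_eq_mul, abs_mul, abs_of_pos (inv_pos.2 hS),
    adjugate_apply]
  refine mul_le_mul ?_ (abs_det_le fun k l => ?_) (abs_nonneg _) (Real.exp_pos _).le
  · rw [← Real.exp_log hS, ← Real.exp_neg]
    exact Real.exp_le_exp.2 (by linarith)
  · rw [updateRow_apply]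
    split_ifs
    · rw [Pi.single_apply]
      split_ifs
      · simpa using hκ
      · simpa using zero_le_one.trans hκ
    · exact h k l

/-- splitting into a backward bounded and a forward bounded part -/
theorem exists_split (a : ℕ → Matrix (Fin d) (Fin d) ℝ) {m n : ℕ} (hm : 1 ≤ m) (hn : 1 ≤ n)
    {x : ℝ} (hx : 0 ≤ x) (h : ∀ i j, |(Sig a m n)⁻¹ i j| ≤ x ^ 2) (z : Fin d → ℝ) :
    ∃ u, (∀ s < m, ‖prop a s *ᵥ u‖ ≤ d * x * ‖z‖) ∧
      ∀ s < n, ‖prop (fun s => a (m + s)) s *ᵥ (z - prop a m *ᵥ u)‖ ≤ d * x * ‖z‖ := by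
  obtain ⟨ζ, hζ⟩ : ∃ ζ, ζ = (Sig a m n)⁻¹ *ᵥ z := ⟨_, rfl⟩
  have hz : Sig a m n *ᵥ ζ = z := by
    rw [hζ, mulVec_mulVec, mul_nonsing_inv _ (det_Sig_pos a hm hn).ne'.isUnit, one_mulVec]
  have h1 : ζ ⬝ᵥ Sig a m n *ᵥ ζ ≤ (d * x * ‖z‖) ^ 2 := by
    rw [hz, hζ]
    exact (dot_mulVec_le (sq_nonneg x) h z).trans_eq (by ring)
  rw [dot_Sig] at h1
  have h2 := dot_inv_nonneg (fun s => a (m + s)) hn ζ
  have h3 := dot_inv_nonneg a hm ((prop a m)ᵀ *ᵥ ζ)
  refine ⟨(gram a m)⁻¹ *ᵥ ((prop a m)ᵀ *ᵥ ζ), fun s hs => ?_, fun s hs => ?_⟩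
  · exact norm_le_of_dot (by positivity) ((le_dot_inv a hs _).trans (by linarith))
  · have e : z - prop a m *ᵥ ((gram a m)⁻¹ *ᵥ ((prop a m)ᵀ *ᵥ ζ))
        = (gram (fun s => a (m + s)) n)⁻¹ *ᵥ ζ := by
      rw [← hz, Sig, add_mulVec, ← mulVec_mulVec, ← mulVec_mulVec, add_sub_cancel_right]
    rw [e]
    exact norm_le_of_dot (by positivity) ((le_dot_inv _ hs _).trans (by linarith))

/-- the forward solution with source `w` at step `t` -/
def fwd (a : ℕ → Matrix (Fin d) (Fin d) ℝ) (t : ℕ) (w : Fin d → ℝ) : ℕ → Fin d → ℝ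
  | 0 => 0
  | s + 1 => a s *ᵥ fwd a t w s + if s = t then w else 0

theorem fwd_eq_zero (a : ℕ → Matrix (Fin d) (Fin d) ℝ) (t : ℕ) (w : Fin d → ℝ) :
    ∀ s ≤ t, fwd a t w s = 0
  | 0, _ => rfl
  | s + 1, hs => by
    rw [fwd, fwd_eq_zero a t w s (by omega), if_neg (by omega), mulVec_zero, add_zero]

theorem norm_fwd_le {a : ℕ → Matrix (Fin d) (Fin d) ℝ} {B : ℝ} (hB : 1 ≤ B)
    (ha : ∀ s y, ‖a s *ᵥ y‖ ≤ B * ‖y‖) (t : ℕ) (w : Fin d → ℝ) :
    ∀ s, ‖fwd a t w s‖ ≤ B ^ (s - t) * ‖w‖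
  | 0 => by
    rw [fwd, norm_zero]
    positivity
  | s + 1 => by
    rcases lt_trichotomy s t with h | h | h
    · rw [fwd_eq_zero a t w _ h, norm_zero]
      positivity
    · rw [fwd, fwd_eq_zero a t w _ h.le, if_pos h, mulVec_zero, zero_add]
      exact le_mul_of_one_le_left (norm_nonneg _) (one_le_pow₀ hB)
    · rw [fwd, if_neg h.ne', add_zero, show s + 1 - t = (s - t) + 1 by omega, pow_succ',
        mul_assoc]
      exact (ha s _).trans (mul_le_mul_of_nonneg_left (norm_fwd_le hB ha t w s) (by linarith))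

theorem fwd_add (a : ℕ → Matrix (Fin d) (Fin d) ℝ) {t m : ℕ} (h : t < m) (w : Fin d → ℝ) :
    ∀ r, fwd a t w (m + r) = prop (fun s => a (m + s)) r *ᵥ fwd a t w m
  | 0 => by simp [prop]
  | r + 1 => by
    rw [← add_assoc, fwd, if_neg (by omega), add_zero, fwd_add a h w r, mulVec_mulVec]
    rfl

theorem green_of_sol {a : ℕ → Matrix (Fin d) (Fin d) ℝ} {n : ℕ} {C : ℝ} (hC : 0 ≤ C)
    (h : ∀ t < n, ∀ i : Fin d, ∃ x : ℕ → Fin d → ℝ,
      (∀ s, x (s + 1) = a s *ᵥ x s + if s = t then Pi.single i 1 else 0) ∧ ∀ s ≤ n, ‖x s‖ ≤ C) :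
    Green a n (n * d * C) := by
  choose x hx1 hx2 using fun (t : Fin n) (i : Fin d) => h t t.2 i
  let G : (Fin n → Fin d → ℝ) →ₗ[ℝ] (Fin (n + 1) → Fin d → ℝ) :=
    { toFun := fun w s => ∑ t, ∑ i, w t i • x t i s
      map_add' := fun w w' => by
        funext s
        simp only [Pi.add_apply, add_smul, Finset.sum_add_distrib]
      map_smul' := fun c w => by
        funext s
        simp only [Pi.smul_apply, smul_eq_mul, mul_smul, Finset.smul_sum, RingHom.id_apply] }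
  have hG : ∀ w s, G w s = ∑ t, ∑ i, w t i • x t i s := fun _ _ => rfl
  refine ⟨G, fun w => ?_, fun w t₀ => ?_⟩
  · refine (pi_norm_le_iff_of_nonneg (by positivity)).2 fun s => ?_
    rw [hG]
    calc ‖∑ t, ∑ i, w t i • x t i s‖ ≤ ∑ _t : Fin n, ∑ _i : Fin d, ‖w‖ * C := by
          refine (norm_sum_le _ _).trans (Finset.sum_le_sum fun t _ => ?_)
          refine (norm_sum_le _ _).trans (Finset.sum_le_sum fun i _ => ?_)
          rw [norm_smul]
          exact mul_le_mul ((norm_le_pi_norm (w t) i).trans (norm_le_pi_norm w t))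
            (hx2 t i s (Nat.lt_succ_iff.1 s.2)) (norm_nonneg _) (norm_nonneg _)
      _ = n * d * C * ‖w‖ := by
          simp only [Finset.sum_const, Finset.card_univ, Fintype.card_fin, nsmul_eq_mul]
          ring
  · rw [hG, hG]
    simp only [Fin.val_succ, Fin.val_castSucc, hx1, smul_add, Finset.sum_add_distrib,
      mulVec_sum, mulVec_smul]
    congr 1
    rw [Finset.sum_eq_single t₀ (fun t _ ht => ?_) (by simp)]
    · funext k
      simp [Finset.sum_apply, Pi.single_apply]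
    · simp [Fin.val_injective.ne ht.symm]

theorem phi_mul_le {c : ℝ} {n : ℕ} (hn : 1 ≤ n) {a : ℕ → Matrix (Fin d) (Fin d) ℝ}
    (h : ∀ m, 1 ≤ m → Real.log (Sig a m n).det ≤ c) (M : ℕ) :
    phi a ((M + 1) * n) ≤ ∑ i ∈ range (M + 1), phi (fun s => a (i * n + s)) n + M * c := by
  induction M with
  | zero => simp
  | succ M ih =>
    have hm : 1 ≤ (M + 1) * n := Nat.mul_pos (by omega) hn
    rw [add_mul (M + 1) 1, one_mul, phi_add a hm hn, Finset.sum_range_succ _ (M + 1)]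
    have := h _ hm
    push_cast
    linarith

end GreenAux

open GreenAux in
/-- Recipe.  For `n ≥ 1`, `H = gram a n` is symmetric with `v ⬝ H v = ∑ |prop a s v|² ≥ |v|²`, so
it is positive definite, `H⁻¹` has entries `≤ 1` in absolute value, `det H⁻¹ ≤ d !`.
For `n₁, n₂ ≥ 1`, `a' s = a (n₁ + s)`, `P = prop a n₁`, `H₁ = gram a n₁`, `H₂ = gram a' n₂`:
`prop a (n₁ + s) = prop a' s * P`, `gram a (n₁ + n₂) = H₁ + Pᵀ H₂ P`, and by `Matrix.det_add_mul`
`det (H₁ + Pᵀ H₂ P) = det H₁ * det H₂ * det Σ` with `Σ = H₂⁻¹ + P H₁⁻¹ Pᵀ`.  The entries of `Σ`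
are bounded by a constant `κ(d, A)`: for `u = H₁⁻¹ Pᵀ ζ`, `Q = ζ ⬝ P u = u ⬝ H₁ u ≥
|prop a (n₁ - 1) u|²` and `P = a (n₁ - 1) * prop a (n₁ - 1)`, so `Q ≤ (d A)² |ζ|²`; polarise.
So `det Σ ≤ exp c` (`Matrix.det_le`), which is subadditivity with constant `c`; induction gives
the second claim, and applied on both sides of a grid point `j n` (`0 < j < M`) it gives
`det Σ ≥ exp (-Δ)` for `n₁ = j n`, `n₂ = (M - j) n`.  Then `Σ⁻¹ = det⁻¹ • adjugate` has entries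
`≤ κ' exp Δ`.  Every `z` splits: `ζ = Σ⁻¹ z`, `u = H₁⁻¹ Pᵀ ζ`, `z - P u = H₂⁻¹ ζ`,
`|prop a s u|² ≤ u ⬝ H₁ u ≤ ζ ⬝ z` for `s < n₁` and `|prop a' s (H₂⁻¹ ζ)|² ≤ ζ ⬝ H₂⁻¹ ζ ≤ ζ ⬝ z`
for `s < n₂`.  For a source `w` at step `t` let `p` be the solution that is `0` up to time `t`
and `w` at time `t + 1`; let `t'` be the least multiple of `n` with `t + 1 ≤ t'`.  If
`t' ≥ M n` keep `p` (growth at most `(d A)^n`); otherwise take `z = p t'` and `p s - prop a s u`.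
Finally `G w = ∑ t i, w t i • sol t (Pi.single i 1)`. -/
theorem exists_green_const (d : ℕ) {A : ℝ} (hA : 1 ≤ A) : ∃ c K : ℝ, 0 ≤ c ∧ 1 ≤ K ∧
    ∀ a : ℕ → Matrix (Fin d) (Fin d) ℝ, (∀ s i j, |a s i j| ≤ A) →
      (∀ n, 1 ≤ n → -c ≤ phi a n) ∧
      ∀ n M : ℕ, 1 ≤ n → 1 ≤ M →
        phi a (M * n) ≤ ∑ i ∈ range M, phi (fun s => a (i * n + s)) n + (M - 1) * c ∧
        ∀ Δ : ℝ, ∑ i ∈ range M, phi (fun s => a (i * n + s)) n + (M - 1) * c - phi a (M * n) ≤ Δ →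
          Green a (M * n - 1) (M * n * K ^ (n + 1) * Real.exp (Δ / 2)) := by
  obtain ⟨κ, hκ⟩ : ∃ κ : ℝ, κ = 1 + (d * A) ^ 2 := ⟨_, rfl⟩
  have hκ1 : 1 ≤ κ := by rw [hκ]; exact le_add_of_nonneg_right (sq_nonneg _)
  obtain ⟨D, hD⟩ : ∃ D : ℝ, D = (d.factorial : ℝ) * κ ^ d := ⟨_, rfl⟩
  have hf1 : (1 : ℝ) ≤ d.factorial := by exact_mod_cast d.factorial_pos
  have hD1 : 1 ≤ D := by rw [hD]; exact one_le_mul_of_one_le_of_one_le hf1 (one_le_pow₀ hκ1)
  obtain ⟨B, hB⟩ : ∃ B : ℝ, B = 1 + d * A := ⟨_, rfl⟩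
  have hA0 : 0 ≤ A := by linarith
  have hB1 : 1 ≤ B := by rw [hB]; exact le_add_of_nonneg_right (by positivity)
  have hlog : ∀ S : Matrix (Fin d) (Fin d) ℝ, 0 < S.det → (∀ i j, |S i j| ≤ κ) →
      Real.log S.det ≤ Real.log D := fun S hS h =>
    Real.log_le_log hS ((le_abs_self _).trans (hD ▸ abs_det_le h))
  have hSig : ∀ a : ℕ → Matrix (Fin d) (Fin d) ℝ, (∀ s i j, |a s i j| ≤ A) → ∀ m n, 1 ≤ m →
      1 ≤ n → Real.log (Sig a m n).det ≤ Real.log D := fun a ha m n hm hn =>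
    hlog _ (det_Sig_pos a hm hn) (hκ ▸ abs_Sig_le ha hm hn)
  have hc0 : 0 ≤ Real.log D := Real.log_nonneg hD1
  have hsub : ∀ a : ℕ → Matrix (Fin d) (Fin d) ℝ, (∀ s i j, |a s i j| ≤ A) → ∀ n M : ℕ, 1 ≤ n →
      1 ≤ M → phi a (M * n) ≤ ∑ i ∈ range M, phi (fun s => a (i * n + s)) n
        + (M - 1) * Real.log D := by
    intro a ha n M hn hM
    obtain ⟨M, rfl⟩ : ∃ k, M = k + 1 := ⟨M - 1, by omega⟩
    have := phi_mul_le hn (fun m hm => hSig a ha m n hm hn) M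
    push_cast
    rwa [add_sub_cancel_right]
  have hK0 : 0 ≤ d * (1 + d * D) := by positivity
  refine ⟨Real.log D, B + d * (1 + d * D), hc0, by linarith, fun a ha => ⟨fun n hn => ?_,
    fun n M hn hM => ⟨hsub a ha n M hn hM, fun Δ hΔ => ?_⟩⟩⟩
  · have h1 := det_gram_pos a hn
    have h2 := hlog (gram a n)⁻¹ (by rw [Matrix.det_nonsing_inv, Ring.inverse_eq_inv']; positivity)
      fun i j => (abs_entry_le (κ := 1) (gram_inv_transpose a n) (dot_inv_nonneg a hn)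
        (fun ζ => by simpa using dot_inv_le a hn ζ) i j).trans hκ1
    rw [Matrix.det_nonsing_inv, Ring.inverse_eq_inv', Real.log_inv] at h2
    unfold phi
    linarith
  · have hΔ0 : 0 ≤ Δ := by linarith [hsub a ha n M hn hM]
    have he1 : 1 ≤ Real.exp (Δ / 2) := Real.one_le_exp (by linarith)
    have haB : ∀ s y, ‖a s *ᵥ y‖ ≤ B * ‖y‖ := fun s y =>
      (norm_mulVec_le hA0 (ha s) y).trans
        (mul_le_mul_of_nonneg_right (by linarith) (norm_nonneg _))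
    have hBn : 0 ≤ B ^ n := by positivity
    have hx0 : 0 ≤ D * Real.exp (Δ / 2) := by positivity
    refine (green_of_sol (C := B ^ n * ((1 + d * D) * Real.exp (Δ / 2))) (by positivity)
      fun t ht i => ?_).mono ?_
    · have hw : ‖(Pi.single i 1 : Fin d → ℝ)‖ = 1 := by simp [Pi.norm_single]
      have hfw : ∀ s ≤ t + n, ‖fwd a t (Pi.single i 1) s‖ ≤ B ^ n := fun s hs => by
        have := norm_fwd_le hB1 haB t (Pi.single i 1) s
        rw [hw, mul_one] at this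
        exact this.trans (pow_le_pow_right₀ hB1 (by omega))
      obtain ⟨j, hj⟩ : ∃ j, j = t / n + 1 := ⟨_, rfl⟩
      have hj1 : t < j * n := by
        rw [hj, mul_comm]
        exact Nat.lt_mul_div_succ t hn
      have hj2 : j * n ≤ t + n := by
        rw [hj, add_mul, one_mul]
        exact Nat.add_le_add_right (Nat.div_mul_le_self t n) n
      have hj0 : 1 ≤ j := hj ▸ Nat.le_add_left 1 _
      have hone : 1 ≤ (1 + d * D) * Real.exp (Δ / 2) :=
        one_le_mul_of_one_le_of_one_le (le_add_of_nonneg_right (by positivity)) he1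
      rcases le_or_gt M j with hjM | hjM
      · refine ⟨fwd a t (Pi.single i 1), fun s => rfl, fun s hs => ?_⟩
        have : M * n ≤ j * n := Nat.mul_le_mul_right n hjM
        exact (hfw s (by omega)).trans (le_mul_of_one_le_right hBn hone)
      · obtain ⟨l, rfl⟩ : ∃ l, M = j + l := ⟨M - j, by omega⟩
        have hl : 1 ≤ l := by omega
        have hm : 1 ≤ j * n := Nat.mul_pos hj0 hn
        have hm' : 1 ≤ l * n := Nat.mul_pos hl hn
        have hdet : -Δ ≤ Real.log (Sig a (j * n) (l * n)).det := by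
          have h1 := hsub a ha n j hn hj0
          have h2 := hsub (fun s => a (j * n + s)) (fun s => ha _) n l hn hl
          rw [add_mul, phi_add a hm hm', Finset.sum_range_add] at hΔ
          simp only [add_mul, add_assoc] at hΔ
          push_cast at hΔ
          linarith
        obtain ⟨u, hu1, hu2⟩ := exists_split a hm hm' hx0 (fun k l' => by
          refine (abs_inv_le hκ1 (hκ ▸ abs_Sig_le ha hm hm') (det_Sig_pos a hm hm') hdet
            k l').trans ?_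
          rw [← hD, mul_pow, ← Real.exp_nat_mul, mul_comm,
            show ((2 : ℕ) : ℝ) * (Δ / 2) = Δ by push_cast; ring]
          refine mul_le_mul_of_nonneg_right ?_ (Real.exp_pos _).le
          nlinarith) (fwd a t (Pi.single i 1) (j * n))
        have hz : d * (D * Real.exp (Δ / 2)) * ‖fwd a t (Pi.single i 1) (j * n)‖
            ≤ d * (D * Real.exp (Δ / 2)) * B ^ n :=
          mul_le_mul_of_nonneg_left (hfw _ hj2) (by positivity)
        have hBe : B ^ n ≤ B ^ n * Real.exp (Δ / 2) := le_mul_of_one_le_right hBn he1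
        refine ⟨fun s => fwd a t (Pi.single i 1) s - prop a s *ᵥ u, fun s => ?_, fun s hs => ?_⟩
        · simp only [fwd, prop, Matrix.mulVec_sub, Matrix.mulVec_mulVec]
          abel
        · rcases lt_or_ge s (j * n) with h | h
          · refine (norm_sub_le _ _).trans ?_
            have h1 := hfw s (by omega)
            have h2 := hu1 s h
            nlinarith
          · obtain ⟨r, rfl⟩ : ∃ r, s = j * n + r := ⟨s - j * n, by omega⟩
            have hr : r < l * n := by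
              rw [add_mul] at hs
              omega
            have h2 := hu2 r hr
            simp only
            rw [fwd_add a hj1, prop_add, ← Matrix.mulVec_mulVec, ← Matrix.mulVec_sub]
            nlinarith
    · have h1 : ((M * n - 1 : ℕ) : ℝ) ≤ M * n := by exact_mod_cast Nat.sub_le _ _
      have h2 : B ^ n ≤ (B + d * (1 + d * D)) ^ n := pow_le_pow_left₀ (by linarith) (by linarith) n
      calc ((M * n - 1 : ℕ) : ℝ) * d * (B ^ n * ((1 + d * D) * Real.exp (Δ / 2)))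
          = ((M * n - 1 : ℕ) : ℝ) * (B ^ n * (d * (1 + d * D))) * Real.exp (Δ / 2) := by ring
        _ ≤ M * n * ((B + d * (1 + d * D)) ^ n * (B + d * (1 + d * D))) * Real.exp (Δ / 2) := by
          gcongr
          linarith
        _ = _ := by ring

end

end Crest.Agent.R133
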