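import Crest.Agent.R133.Defs

/-!
# Row 133: random choices, balanced words, models
-/

open MeasureTheory Finset Filter
open scoped Matrix Topology ENNReal NNReal

namespace Crest.Agent.R133

noncomputable section

/-- A random sample passes all tests.  Recipe: average over `x : Fin q → Ω` of
`∑ i, exp (∑ w, φ i (x w) - 2 q avg (φ i) - T i)`; `exp φ ≤ 1 + 2 φ` on `[0,1]` (convexity,
`e ≤ 3`), `Finset.prod_univ_sum`/`Fintype.piFinset`, `1 + 2 a ≤ exp (2 a)`.  So some `x` has the
sum `< 1` and every exponent is negative. -/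
theorem exists_sample {Ω I : Type*} [Fintype I] (s : Finset Ω) (hs : s.Nonempty)
    (φ : I → Ω → ℝ) (h0 : ∀ i ω, 0 ≤ φ i ω) (h1 : ∀ i ω, φ i ω ≤ 1) (T : I → ℝ)
    (hT : ∑ i, Real.exp (-T i) < 1) (q : ℕ) :
    ∃ x : ℕ → Ω, (∀ w, x w ∈ s) ∧
      ∀ i, ∑ w ∈ range q, φ i (x w) ≤ 2 * q * ((∑ ω ∈ s, φ i ω) / #s) + T i := by
  classical
  have hs0 : (0 : ℝ) < #s := by exact_mod_cast hs.card_pos
  set av : I → ℝ := fun i => (∑ ω ∈ s, φ i ω) / #s with hav
  set S : Finset (Fin q → Ω) := Fintype.piFinset fun _ => s with hS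
  have hScard : (#S : ℝ) = (#s : ℝ) ^ q := by
    rw [hS, Fintype.card_piFinset]; simp
  have hSne : S.Nonempty := by
    rw [hS]; exact Fintype.piFinset_nonempty.2 fun _ => hs
  set F : (Fin q → Ω) → ℝ :=
    fun x => ∑ i, Real.exp (∑ w, φ i (x w) - 2 * q * av i - T i) with hF
  have hexp : ∀ t : ℝ, 0 ≤ t → t ≤ 1 → Real.exp t ≤ 1 + 2 * t := by
    intro t ht0 ht1
    have h := convexOn_exp.2 (Set.mem_univ (0 : ℝ)) (Set.mem_univ (1 : ℝ))
      (show 0 ≤ 1 - t by linarith) ht0 (by ring)
    simp only [smul_eq_mul, mul_zero, mul_one, zero_add, Real.exp_zero] at h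
    have he : Real.exp 1 ≤ 3 := by
      have := Real.exp_one_lt_d9
      linarith
    nlinarith
  have hone : ∀ i, ∑ ω ∈ s, Real.exp (φ i ω) ≤ #s * Real.exp (2 * av i) := by
    intro i
    calc ∑ ω ∈ s, Real.exp (φ i ω) ≤ ∑ ω ∈ s, (1 + 2 * φ i ω) :=
          Finset.sum_le_sum fun ω _ => hexp _ (h0 i ω) (h1 i ω)
      _ = #s * (1 + 2 * av i) := by
          rw [Finset.sum_add_distrib, ← Finset.mul_sum, hav]
          simp only [Finset.sum_const, nsmul_eq_mul, mul_one]
          field_simp
      _ ≤ #s * Real.exp (2 * av i) := by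
          have := Real.add_one_le_exp (2 * av i)
          exact mul_le_mul_of_nonneg_left (by linarith) hs0.le
  have hsum : ∑ x ∈ S, F x < ∑ _x ∈ S, (1 : ℝ) := by
    have hA : ∀ i, ∑ x ∈ S, Real.exp (∑ w, φ i (x w) - 2 * q * av i - T i) ≤
        (#s : ℝ) ^ q * Real.exp (-T i) := by
      intro i
      have e1 : ∀ x : Fin q → Ω, Real.exp (∑ w, φ i (x w) - 2 * q * av i - T i) =
          (∏ w, Real.exp (φ i (x w))) * (Real.exp (-(2 * q * av i)) * Real.exp (-T i)) := by
        intro x
        rw [← Real.exp_sum, ← Real.exp_add, ← Real.exp_add]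
        congr 1
        ring
      simp only [e1]
      rw [← Finset.sum_mul, hS,
        ← Finset.prod_univ_sum (fun _ : Fin q => s) (fun _ ω => Real.exp (φ i ω))]
      simp only [Finset.prod_const, Finset.card_univ, Fintype.card_fin]
      have e2 : (∑ ω ∈ s, Real.exp (φ i ω)) ^ q ≤ (#s * Real.exp (2 * av i)) ^ q :=
        pow_le_pow_left₀ (Finset.sum_nonneg fun _ _ => (Real.exp_pos _).le) (hone i) q
      calc (∑ ω ∈ s, Real.exp (φ i ω)) ^ q * (Real.exp (-(2 * q * av i)) * Real.exp (-T i))
          ≤ (#s * Real.exp (2 * av i)) ^ q * (Real.exp (-(2 * q * av i)) * Real.exp (-T i)) :=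
            mul_le_mul_of_nonneg_right e2 (by positivity)
        _ = (#s : ℝ) ^ q * Real.exp (-T i) := by
            rw [mul_pow, ← Real.exp_nat_mul]
            have : Real.exp (q * (2 * av i)) * Real.exp (-(2 * q * av i)) = 1 := by
              rw [← Real.exp_add]
              have : (q : ℝ) * (2 * av i) + -(2 * q * av i) = 0 := by ring
              rw [this, Real.exp_zero]
            calc (#s : ℝ) ^ q * Real.exp (q * (2 * av i)) *
                  (Real.exp (-(2 * q * av i)) * Real.exp (-T i))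
                = (#s : ℝ) ^ q * (Real.exp (q * (2 * av i)) * Real.exp (-(2 * q * av i))) *
                    Real.exp (-T i) := by ring
              _ = _ := by rw [this, mul_one]
    calc ∑ x ∈ S, F x = ∑ i, ∑ x ∈ S, Real.exp (∑ w, φ i (x w) - 2 * q * av i - T i) := by
          rw [hF, Finset.sum_comm]
      _ ≤ ∑ i, (#s : ℝ) ^ q * Real.exp (-T i) := Finset.sum_le_sum fun i _ => hA i
      _ = (#s : ℝ) ^ q * ∑ i, Real.exp (-T i) := by rw [Finset.mul_sum]
      _ < (#s : ℝ) ^ q * 1 := mul_lt_mul_of_pos_left hT (by positivity)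
      _ = ∑ _x ∈ S, (1 : ℝ) := by simp [hScard]
  obtain ⟨x, hxS, hx⟩ := Finset.exists_lt_of_sum_lt hsum
  obtain ⟨ω₀, hω₀⟩ := hs
  refine ⟨fun w => if h : w < q then x ⟨w, h⟩ else ω₀, fun w => ?_, fun i => ?_⟩
  · by_cases h : w < q
    · simp only [h, dite_true]
      exact Fintype.mem_piFinset.1 hxS _
    · simp only [h, dite_false]
      exact hω₀
  · have e : ∑ w ∈ range q, φ i (if h : w < q then x ⟨w, h⟩ else ω₀) = ∑ w, φ i (x w) := by
      rw [Finset.sum_range]
      refine Finset.sum_congr rfl fun w _ => ?_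
      simp [w.2]
    rw [e]
    have h2 : Real.exp (∑ w, φ i (x w) - 2 * q * av i - T i) ≤ F x :=
      Finset.single_le_sum (f := fun i => Real.exp (∑ w, φ i (x w) - 2 * q * av i - T i))
        (fun _ _ => (Real.exp_pos _).le) (Finset.mem_univ i)
    have h3 : ∑ w, φ i (x w) - 2 * q * av i - T i < 0 := by
      have := lt_of_le_of_lt h2 hx
      rwa [Real.exp_lt_one_iff] at this
    change _ ≤ 2 * q * av i + T i
    linarith

/-- The balanced words. -/
def pool (M q : ℕ) : Finset (Fin M → Fin q) :=
  {a | ∀ c : Fin q, #{i : Fin M | a i = c} * q = M}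

/-- Recipe: `(π : Fin R → Equiv.Perm (Fin q)) ↦ (i ↦ π (i / q) (i % q))` (`finProdFinEquiv`) is an
injection into the pool, so `#pool ≥ (q !)^R`, and `q^q ≤ exp q * q !`
(`Real.pow_div_factorial_le_exp`). -/
theorem card_pool (R q : ℕ) (hq : 0 < q) :
    (q : ℝ) ^ (R * q) ≤ Real.exp (R * q : ℕ) * #(pool (R * q) q) := by
  classical
  let f : (Fin R → Equiv.Perm (Fin q)) → (Fin (R * q) → Fin q) :=
    fun π i => π (finProdFinEquiv.symm i).1 (finProdFinEquiv.symm i).2
  have hinj : Function.Injective f := by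
    intro π π' h
    funext r
    ext j
    have := congrFun h (finProdFinEquiv (r, j))
    simp only [f, Equiv.symm_apply_apply] at this
    rw [this]
  have hmem : ∀ π, f π ∈ pool (R * q) q := by
    intro π
    simp only [pool, Finset.mem_filter, Finset.mem_univ, true_and]
    intro c
    congr 1
    have : #{i : Fin (R * q) | f π i = c} = #(univ : Finset (Fin R)) := by
      symm
      refine Finset.card_bij (fun r _ => finProdFinEquiv (r, (π r).symm c)) ?_ ?_ ?_
      · intro r _
        simp only [Finset.mem_filter, Finset.mem_univ, true_and, f, Equiv.symm_apply_apply,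
          Equiv.apply_symm_apply]
      · intro r _ r' _ h
        have := finProdFinEquiv.injective h
        exact congrArg Prod.fst this
      · intro i hi
        simp only [Finset.mem_filter, Finset.mem_univ, true_and, f] at hi
        refine ⟨(finProdFinEquiv.symm i).1, Finset.mem_univ _, ?_⟩
        rw [← hi, Equiv.symm_apply_apply]
        exact finProdFinEquiv.apply_symm_apply i
    rw [this]
    simp
  have hcard : (q.factorial) ^ R ≤ #(pool (R * q) q) := by
    have h := Finset.card_le_card_of_injOn (s := (univ : Finset (Fin R → Equiv.Perm (Fin q))))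
      (t := pool (R * q) q) f (fun π _ => hmem π) hinj.injOn
    simpa [Fintype.card_perm] using h
  have hq1 : (q : ℝ) ^ q ≤ Real.exp q * q.factorial := by
    have h := Real.pow_div_factorial_le_exp (q : ℝ) (Nat.cast_nonneg q) q
    have hf : (0 : ℝ) < q.factorial := by exact_mod_cast q.factorial_pos
    rwa [div_le_iff₀ hf] at h
  calc (q : ℝ) ^ (R * q) = ((q : ℝ) ^ q) ^ R := by rw [← pow_mul, mul_comm]
    _ ≤ (Real.exp q * q.factorial) ^ R := pow_le_pow_left₀ (by positivity) hq1 R
    _ = Real.exp (R * q : ℕ) * ((q.factorial ^ R : ℕ) : ℝ) := by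
        rw [mul_pow, ← Real.exp_nat_mul]
        push_cast
        ring
    _ ≤ Real.exp (R * q : ℕ) * #(pool (R * q) q) :=
        mul_le_mul_of_nonneg_left (by exact_mod_cast hcard) (Real.exp_pos _).le

theorem mod_nonneg {N m : ℕ} {ν : (Fin N → Bool) → ℝ} (hν : ν ∈ Mod N m) (y : Fin N → Bool) :
    0 ≤ ν y := by
  classical
  simp only [Mod, Finset.mem_image, Finset.mem_univ, true_and] at hν
  obtain ⟨p, rfl⟩ := hν
  unfold modelLaw
  positivity

theorem sum_mod_le {N m : ℕ} {ν : (Fin N → Bool) → ℝ} (hν : ν ∈ Mod N m) : ∑ y, ν y ≤ 1 := by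
  classical
  simp only [Mod, Finset.mem_image, Finset.mem_univ, true_and] at hν
  obtain ⟨p, rfl⟩ := hν
  unfold modelLaw
  rw [← Finset.sum_div]
  refine div_le_one_of_le₀ (le_of_eq ?_) (Nat.cast_nonneg _)
  have h := Finset.card_eq_sum_card_fiberwise
    (s := ({π : Fin N → Fin m | IsPath (fun a b => p.1 a b = true) π} : Finset _))
    (t := (univ : Finset (Fin N → Bool))) (f := fun π t => p.2 (π t))
    (fun _ _ => Finset.mem_coe.2 (Finset.mem_univ _))
  rw [h]
  push_cast
  refine Finset.sum_congr rfl fun y _ => ?_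
  congr 2
  ext π
  simp only [Finset.mem_filter, Finset.mem_univ, true_and, funext_iff]

theorem card_mod_le (N m : ℕ) : #(Mod N m) ≤ 2 ^ (m * m + m) := by
  classical
  unfold Mod
  refine Finset.card_image_le.trans (le_of_eq ?_)
  simp only [Finset.card_univ, Fintype.card_prod, Fintype.card_fun, Fintype.card_bool,
    Fintype.card_fin]
  rw [← pow_mul, pow_add]

open Classical in
/-- The number of paths with `n + 1` points. -/
theorem card_path_le {σ : Type*} [Fintype σ] (Rel : σ → σ → Prop) {D : ℝ} (hD0 : 0 ≤ D)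
    (hD : ∀ a, (#{b | Rel a b} : ℝ) ≤ D) (n : ℕ) :
    (#{π : Fin (n + 1) → σ | IsPath Rel π} : ℝ) ≤ Fintype.card σ * D ^ n := by
  induction n with
  | zero =>
    have : #{π : Fin (0 + 1) → σ | IsPath Rel π} ≤ Fintype.card σ := by
      refine (Finset.card_le_univ _).trans (le_of_eq ?_)
      simp
    simpa using (show ((#{π : Fin (0 + 1) → σ | IsPath Rel π} : ℕ) : ℝ) ≤ Fintype.card σ by
      exact_mod_cast this)
  | succ n ih =>
    have h := Finset.card_eq_sum_card_fiberwise
      (s := ({π : Fin (n + 1 + 1) → σ | IsPath Rel π} : Finset _))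
      (t := ({π : Fin (n + 1) → σ | IsPath Rel π} : Finset _)) (f := fun π => Fin.init π)
      (by
        intro π hπ
        simp only [Finset.coe_filter, Finset.mem_univ, true_and, Set.mem_ofPred_eq] at hπ ⊢
        intro s t hst
        exact hπ s.castSucc t.castSucc (by simpa using hst))
    rw [h]
    push_cast
    have hfib : ∀ π' : Fin (n + 1) → σ,
        (#{π ∈ ({π : Fin (n + 1 + 1) → σ | IsPath Rel π} : Finset _) | Fin.init π = π'} : ℝ) ≤
          D := by
      intro π'
      refine le_trans ?_ (hD (π' (Fin.last n)))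
      have := Finset.card_le_card_of_injOn
        (s := {π ∈ ({π : Fin (n + 1 + 1) → σ | IsPath Rel π} : Finset _) | Fin.init π = π'})
        (t := ({b | Rel (π' (Fin.last n)) b} : Finset σ)) (fun π => π (Fin.last (n + 1)))
        (by
          intro π hπ
          simp only [Finset.coe_filter, Finset.mem_filter, Finset.mem_univ, true_and,
            Set.mem_ofPred_eq] at hπ ⊢
          rw [← hπ.2]
          exact hπ.1 (Fin.last n).castSucc (Fin.last (n + 1)) (by simp))
        (by
          intro π hπ ρ hρ hl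
          simp only [Finset.coe_filter, Finset.mem_filter, Finset.mem_univ, true_and,
            Set.mem_ofPred_eq] at hπ hρ
          rw [← Fin.snoc_init_self π, ← Fin.snoc_init_self ρ, hπ.2, hρ.2]
          simp only at hl
          rw [hl])
      exact_mod_cast this
    calc ∑ π' ∈ ({π : Fin (n + 1) → σ | IsPath Rel π} : Finset _),
          (#{π ∈ ({π : Fin (n + 1 + 1) → σ | IsPath Rel π} : Finset _) | Fin.init π = π'} : ℝ)
        ≤ ∑ _π' ∈ ({π : Fin (n + 1) → σ | IsPath Rel π} : Finset _), D :=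
          Finset.sum_le_sum fun π' _ => hfib π'
      _ = (#{π : Fin (n + 1) → σ | IsPath Rel π} : ℝ) * D := by simp
      _ ≤ Fintype.card σ * D ^ n * D := mul_le_mul_of_nonneg_right ih hD0
      _ = Fintype.card σ * D ^ (n + 1) := by ring

open Classical in
/-- Transport of a finite model to `Fin m`.  Recipe: embed `σ ↪ Fin m`, transport `Rel` and `lab`
(`Function.extend`); as `2 ≤ N` every state on a path has an edge, so paths correspond
bijectively; the number of paths is at most `card σ * D^(N-1)` (induction on `N`). -/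
theorem exists_mod_ge {σ : Type*} [Fintype σ] (Rel : σ → σ → Prop) (lab : σ → Bool) {N m : ℕ}
    (hN : 2 ≤ N) (hm : Fintype.card σ ≤ m) {D : ℝ} (hD : ∀ a, (#{b | Rel a b} : ℝ) ≤ D) :
    ∃ ν ∈ Mod N m, ∀ y : Fin N → Bool,
      (#{π : Fin N → σ | IsPath Rel π ∧ ∀ t, lab (π t) = y t} : ℝ) ≤
        Fintype.card σ * D ^ (N - 1) * ν y := by
  obtain ⟨e⟩ : Nonempty (σ ↪ Fin m) :=
    Function.Embedding.nonempty_of_card_le (by simpa using hm)
  let Rel' : Fin m → Fin m → Bool := fun a b => decide (∃ a' b', e a' = a ∧ e b' = b ∧ Rel a' b')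
  let lab' : Fin m → Bool := Function.extend e lab fun _ => false
  have hlab : ∀ a, lab' (e a) = lab a := fun a => e.injective.extend_apply _ _ a
  have hpath : ∀ π : Fin N → σ, IsPath Rel π →
      IsPath (fun a b => Rel' a b = true) (fun t => e (π t)) := by
    intro π hπ s t hst
    simp only [Rel', decide_eq_true_eq]
    exact ⟨π s, π t, rfl, rfl, hπ s t hst⟩
  have hback : ∀ π' : Fin N → Fin m, IsPath (fun a b => Rel' a b = true) π' →
      ∃ π : Fin N → σ, IsPath Rel π ∧ (fun t => e (π t)) = π' := by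
    intro π' hπ'
    have hr : ∀ t, ∃ a, e a = π' t := by
      intro t
      by_cases ht : (t : ℕ) + 1 < N
      · have := hπ' t ⟨t + 1, ht⟩ rfl
        simp only [Rel', decide_eq_true_eq] at this
        obtain ⟨a', b', h1, -, -⟩ := this
        exact ⟨a', h1⟩
      · have h1 : (t : ℕ) - 1 < N := by omega
        have := hπ' ⟨t - 1, h1⟩ t (by have := t.2; simp only; omega)
        simp only [Rel', decide_eq_true_eq] at this
        obtain ⟨a', b', -, h2, -⟩ := this
        exact ⟨b', h2⟩
    choose π hπ using hr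
    refine ⟨π, fun s t hst => ?_, funext hπ⟩
    have := hπ' s t hst
    simp only [Rel', decide_eq_true_eq] at this
    obtain ⟨a', b', h1, h2, h3⟩ := this
    rw [← hπ s] at h1
    rw [← hπ t] at h2
    rwa [e.injective h1, e.injective h2] at h3
  have hinj : Function.Injective fun (π : Fin N → σ) t => e (π t) := by
    intro π ρ h
    funext t
    exact e.injective (congrFun h t)
  refine ⟨modelLaw N Rel' lab', ?_, fun y => ?_⟩
  · simp only [Mod, Finset.mem_image, Finset.mem_univ, true_and]
    exact ⟨(Rel', lab'), rfl⟩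
  set cy : ℕ := #{π : Fin N → σ | IsPath Rel π ∧ ∀ t, lab (π t) = y t} with hcy
  set tot : ℕ := #{π : Fin N → σ | IsPath Rel π} with htot
  have h1 : cy ≤ #{π : Fin N → Fin m |
      IsPath (fun a b => Rel' a b = true) π ∧ ∀ t, lab' (π t) = y t} := by
    refine Finset.card_le_card_of_injOn (fun π t => e (π t)) ?_ hinj.injOn
    intro π hπ
    simp only [Finset.coe_filter, Finset.mem_univ, true_and, Set.mem_ofPred_eq] at hπ ⊢
    exact ⟨hpath π hπ.1, fun t => by rw [hlab, hπ.2]⟩
  have h2 : #{π : Fin N → Fin m | IsPath (fun a b => Rel' a b = true) π} = tot := by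
    symm
    refine Finset.card_bij (fun π _ t => e (π t)) ?_ (fun π _ ρ _ h => hinj h) ?_
    · intro π hπ
      simp only [Finset.mem_filter, Finset.mem_univ, true_and] at hπ ⊢
      exact hpath π hπ
    · intro π' hπ'
      simp only [Finset.mem_filter, Finset.mem_univ, true_and] at hπ' ⊢
      obtain ⟨π, h, h'⟩ := hback π' hπ'
      exact ⟨π, h, h'⟩
  have h3 : cy ≤ tot := by
    refine Finset.card_le_card fun π hπ => ?_
    simp only [Finset.mem_filter, Finset.mem_univ, true_and] at hπ ⊢
    exact hπ.1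
  have hν : (cy : ℝ) / tot ≤ modelLaw N Rel' lab' y := by
    unfold modelLaw
    rw [← h2]
    exact div_le_div_of_nonneg_right (by exact_mod_cast h1) (Nat.cast_nonneg _)
  have hν0 : (0 : ℝ) ≤ (cy : ℝ) / tot := by positivity
  rcases isEmpty_or_nonempty σ with hσ | hσ
  · have : cy = 0 := by
      rw [hcy, Finset.card_eq_zero, Finset.filter_eq_empty_iff]
      intro π _
      exact (hσ.false (π ⟨0, by omega⟩)).elim
    simp [this]
  have hD0 : 0 ≤ D := le_trans (Nat.cast_nonneg _) (hD (Classical.arbitrary σ))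
  obtain ⟨n, rfl⟩ : ∃ n, N = n + 1 := ⟨N - 1, by omega⟩
  have h4 : (tot : ℝ) ≤ Fintype.card σ * D ^ n := card_path_le Rel hD0 hD n
  simp only [Nat.add_sub_cancel]
  rcases Nat.eq_zero_or_pos tot with h0 | h0
  · have : cy = 0 := by omega
    rw [this, Nat.cast_zero]
    exact mul_nonneg (by positivity) (hν0.trans hν)
  have h0' : (0 : ℝ) < tot := by exact_mod_cast h0
  calc (cy : ℝ) = tot * (cy / tot) := by field_simp
    _ ≤ Fintype.card σ * D ^ n * (cy / tot) := mul_le_mul_of_nonneg_right h4 hν0
    _ ≤ Fintype.card σ * D ^ n * modelLaw (n + 1) Rel' lab' y :=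
        mul_le_mul_of_nonneg_left hν (by positivity)

end

end Crest.Agent.R133
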