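import Crest.Agent.R133.Tube
import Crest.Agent.R133.Sample

/-!
# Row 133: domination by a finite model
-/

open MeasureTheory Finset Filter
open scoped Matrix Topology ENNReal NNReal

namespace Crest.Agent.R133

noncomputable section

/-! ### grids -/

open Classical in
theorem model_exists_grid (d : ℕ) (J : Type) [Fintype J] {B η : ℝ} (hB : 0 ≤ B) (hη : 0 < η) :
    ∃ (σ : Type) (_ : Fintype σ) (st : J × (Fin d → ℝ) → σ) (cor : σ → J × (Fin d → ℝ)),
      (Fintype.card σ : ℝ) ≤ Fintype.card J * (2 * B / η + 3) ^ d ∧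
      (∀ z, (cor (st z)).1 = z.1) ∧ (∀ z, ‖z.2‖ ≤ B → ‖(cor (st z)).2 - z.2‖ ≤ η / 2) ∧
      ∀ j x ρ, 0 ≤ ρ →
        (#{b | (cor b).1 = j ∧ ‖(cor b).2 - x‖ ≤ ρ} : ℝ) ≤ (2 * ρ / η + 1) ^ d := by
  set K : ℕ := ⌈B / η⌉₊ with hK
  have h0 : (0 : ℤ) ∈ Icc (-(K : ℤ)) K := by simp
  refine ⟨J × (Fin d → Icc (-(K : ℤ)) K), inferInstance,
    fun z => (z.1, fun i => if h : round (z.2 i / η) ∈ Icc (-(K : ℤ)) K then ⟨_, h⟩ else ⟨0, h0⟩),
    fun b => (b.1, fun i => η * ((b.2 i : ℤ) : ℝ)), ?_, fun z => rfl, fun z hz => ?_,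
    fun j x ρ hρ => ?_⟩
  · have h1 : Fintype.card (Icc (-(K : ℤ)) K) = 2 * K + 1 := by
      rw [Fintype.card_coe, Int.card_Icc]
      omega
    rw [Fintype.card_prod, Fintype.card_fun, h1, Fintype.card_fin]
    push_cast
    refine mul_le_mul_of_nonneg_left (pow_le_pow_left₀ (by positivity) ?_ d) (by positivity)
    have := (Nat.ceil_lt_add_one (div_nonneg hB hη.le)).le
    rw [mul_div_assoc]
    linarith
  · refine (pi_norm_le_iff_of_nonneg (by positivity)).2 fun i => ?_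
    have h1 : |z.2 i| ≤ B := (norm_le_pi_norm z.2 i).trans hz
    have h2 := abs_le.1 (abs_sub_round (z.2 i / η))
    have h3 : |z.2 i / η| ≤ K := by
      rw [abs_div, abs_of_pos hη]
      exact (div_le_div_of_nonneg_right h1 hη.le).trans (Nat.le_ceil _)
    have h4 := abs_le.1 h3
    have h5 : round (z.2 i / η) ∈ Icc (-(K : ℤ)) K := by
      rw [mem_Icc]
      constructor
      · have : ((-(K : ℤ) - 1 : ℤ) : ℝ) < round (z.2 i / η) := by push_cast; linarith
        have := Int.cast_lt.1 this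
        omega
      · have : (round (z.2 i / η) : ℝ) < ((K : ℤ) + 1 : ℤ) := by push_cast; linarith
        have := Int.cast_lt.1 this
        omega
    simp only [Pi.sub_apply, dif_pos h5, Real.norm_eq_abs]
    have h6 : η * (round (z.2 i / η) : ℝ) - z.2 i = -η * (z.2 i / η - round (z.2 i / η)) := by
      field_simp
      ring
    rw [h6, abs_mul, abs_neg, abs_of_pos hη]
    have := mul_le_mul_of_nonneg_left (abs_sub_round (z.2 i / η)) hη.le
    linarith
  · have h1 : #{b : J × (Fin d → Icc (-(K : ℤ)) K) | b.1 = j ∧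
        ‖(fun i => η * ((b.2 i : ℤ) : ℝ)) - x‖ ≤ ρ} ≤
        #(Fintype.piFinset fun i => Icc ⌈(x i - ρ) / η⌉ ⌊(x i + ρ) / η⌋) := by
      refine card_le_card_of_injOn (fun b i => (b.2 i : ℤ)) (fun b hb => ?_) fun b hb b' hb' h => ?_
      · simp only [coe_filter, mem_univ, true_and, Set.mem_ofPred_eq] at hb
        rw [mem_coe, Fintype.mem_piFinset]
        intro i
        have := abs_le.1 ((norm_le_pi_norm _ i).trans hb.2)
        simp only [Pi.sub_apply] at this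
        rw [mem_Icc, Int.ceil_le, Int.le_floor, div_le_iff₀ hη, le_div_iff₀ hη]
        constructor <;> linarith [this.1, this.2]
      · simp only [coe_filter, mem_univ, true_and, Set.mem_ofPred_eq] at hb hb'
        refine Prod.ext (hb.1.trans hb'.1.symm) (funext fun i => Subtype.ext (congrFun h i))
    refine (Nat.cast_le.2 h1).trans ?_
    rw [Fintype.card_piFinset]
    push_cast
    refine (prod_le_prod (g := fun _ => 2 * ρ / η + 1) (fun _ _ => by positivity)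
      fun i _ => ?_).trans (by simp)
    rw [Int.card_Icc]
    rcases le_total (⌊(x i + ρ) / η⌋ + 1 - ⌈(x i - ρ) / η⌉) 0 with h | h
    · rw [Int.toNat_of_nonpos h, Nat.cast_zero]
      positivity
    · have h2 : (((⌊(x i + ρ) / η⌋ + 1 - ⌈(x i - ρ) / η⌉).toNat : ℤ) : ℝ) =
          (⌊(x i + ρ) / η⌋ + 1 - ⌈(x i - ρ) / η⌉ : ℤ) := by rw [Int.toNat_of_nonneg h]
      rw [Int.cast_natCast] at h2
      rw [h2]
      push_cast
      have h3 := Int.floor_le ((x i + ρ) / η)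
      have h4 := Int.le_ceil ((x i - ρ) / η)
      have h5 : (x i + ρ) / η - (x i - ρ) / η = 2 * ρ / η := by ring
      linarith

theorem model_exists_disjoint {ι α : Type*} [Finite α] (S : Set ι) (f : ι → Finset α)
    (hf : ∀ z ∈ S, (f z).Nonempty) :
    ∃ Z : Finset ι, (∀ z ∈ Z, z ∈ S) ∧ (Z : Set ι).PairwiseDisjoint f ∧
      ∀ z ∈ S, ∃ z' ∈ Z, ∃ a, a ∈ f z ∧ a ∈ f z' := by
  obtain ⟨u, hu, hd, hc⟩ := Vitali.exists_disjoint_subfamily_covering_enlargement
    (fun z => (f z : Set α)) S (fun _ => 0) 2 one_lt_two (fun _ _ => le_rfl) 0 (fun _ _ => le_rfl)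
    fun z hz => hf z hz
  have hfin : u.Finite := by
    refine Set.Finite.of_finite_image (f := fun z => (f z : Set α)) (Set.toFinite _) ?_
    intro a ha b hb hab
    by_contra hne
    have h1 := hd ha hb hne
    simp only [Function.onFun] at h1 hab
    rw [hab, disjoint_self] at h1
    exact (show (f b : Set α).Nonempty from hf b (hu hb)).ne_empty h1
  refine ⟨hfin.toFinset, fun z hz => hu (hfin.mem_toFinset.1 hz), ?_, fun z hz => ?_⟩
  · rw [hfin.coe_toFinset]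
    intro a ha b hb hab
    exact disjoint_coe.1 (hd ha hb hab)
  · obtain ⟨b, hb, ⟨a, ha⟩, -⟩ := hc z hz
    exact ⟨b, hfin.mem_toFinset.2 hb, a, ha.1, ha.2⟩

/-! ### local dynamics around a good orbit -/

/-- coordinatewise projection on the ball of radius `r` -/
def clip {d : ℕ} (r : ℝ) (u : Fin d → ℝ) : Fin d → ℝ := fun i => max (-r) (min (u i) r)

theorem norm_clip_le {d : ℕ} {r : ℝ} (hr : 0 ≤ r) (u : Fin d → ℝ) : ‖clip r u‖ ≤ r :=
  (pi_norm_le_iff_of_nonneg hr).2 fun i =>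
    abs_le.2 ⟨le_max_left _ _, max_le (by linarith) (min_le_right _ _)⟩

theorem clip_eq {d : ℕ} {r : ℝ} {u : Fin d → ℝ} (h : ‖u‖ ≤ r) : clip r u = u := by
  funext i
  have := abs_le.1 ((norm_le_pi_norm u i).trans h)
  rw [clip, min_eq_left this.2, max_eq_right this.1]

theorem norm_clip_sub_le {d : ℕ} (r : ℝ) (u u' : Fin d → ℝ) :
    ‖clip r u - clip r u'‖ ≤ ‖u - u'‖ := by
  refine (pi_norm_le_iff_of_nonneg (norm_nonneg _)).2 fun i => ?_
  refine le_trans ?_ (norm_le_pi_norm (u - u') i)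
  simp only [Pi.sub_apply, clip, Real.norm_eq_abs]
  refine (abs_max_sub_max_le_max _ _ _ _).trans (max_le (by simp) ?_)
  exact (abs_min_sub_min_le_max _ _ _ _).trans (max_le le_rfl (by simp))

theorem model_norm_mulVec_le {d : ℕ} {a : Matrix (Fin d) (Fin d) ℝ} {A : ℝ} (hA : 0 ≤ A)
    (h : ∀ i j, |a i j| ≤ A) (w : Fin d → ℝ) : ‖a *ᵥ w‖ ≤ d * A * ‖w‖ := by
  refine (pi_norm_le_iff_of_nonneg (by positivity)).2 fun i => ?_
  rw [Matrix.mulVec, dotProduct]
  refine (norm_sum_le _ _).trans ((sum_le_sum (g := fun _ => A * ‖w‖) fun j _ => ?_).trans ?_)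
  · rw [norm_mul]
    exact mul_le_mul (h i j) (norm_le_pi_norm w j) (norm_nonneg _) hA
  · simp [mul_assoc]

theorem ChartSys.Reg.lip {d : ℕ} {J : Type} {C : ChartSys d J} {z : J × (Fin d → ℝ)} {ρ r : ℝ}
    (h : C.Reg z ρ) (hr : r ≤ ρ) (hr1 : r ≤ 1) {u u' : Fin d → ℝ} (hu : ‖u - z.2‖ ≤ r)
    (hu' : ‖u' - z.2‖ ≤ r) :
    ‖(C.F (z.1, u)).2 - (C.F (z.1, u')).2‖ ≤ (d * C.A + C.A) * ‖u - u'‖ := by
  have hA : 0 ≤ C.A := zero_le_one.trans C.one_le_A
  have h1 := h.2 r hr u u' hu hu'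
  have h2 := model_norm_mulVec_le hA (C.Am_le z) (u - u')
  have h3 := norm_add_le ((C.F (z.1, u)).2 - (C.F (z.1, u')).2 - C.Am z *ᵥ (u - u'))
    (C.Am z *ᵥ (u - u'))
  rw [sub_add_cancel] at h3
  have h4 : C.A * r * ‖u - u'‖ ≤ C.A * 1 * ‖u - u'‖ := by gcongr
  linarith

/-- the map in coordinates centred at the orbit of `z`, extended to the whole space -/
def gz {d : ℕ} {J : Type} (C : ChartSys d J) (n : ℕ) (r : ℝ) (z : J × (Fin d → ℝ)) (t : ℕ)
    (u : Fin d → ℝ) : Fin d → ℝ :=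
  if t < n then (C.F ((C.F^[t] z).1, (C.F^[t] z).2 + clip r u)).2 - (C.F^[t + 1] z).2 +
    C.Am (C.F^[t] z) *ᵥ (u - clip r u) else C.Am (C.F^[t] z) *ᵥ u

section gz
variable {d : ℕ} {J : Type} {C : ChartSys d J} {n : ℕ} {r : ℝ} {z : J × (Fin d → ℝ)}

theorem gz_eq {t : ℕ} (ht : t < n) {u : Fin d → ℝ} (hu : ‖u‖ ≤ r) :
    gz C n r z t u = (C.F ((C.F^[t] z).1, (C.F^[t] z).2 + u)).2 - (C.F^[t + 1] z).2 := by
  simp [gz, ht, clip_eq hu]

theorem gz_zero (hr : 0 ≤ r) (t : ℕ) : gz C n r z t 0 = 0 := by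
  by_cases ht : t < n
  · rw [gz_eq ht (by simpa using hr), Function.iterate_succ_apply']
    simp
  · simp [gz, ht]

theorem gz_lip {ρ : ℝ} (hr : 0 ≤ r) (hρ : r ≤ ρ) (h : ∀ t < n, C.Reg (C.F^[t] z) ρ) (t : ℕ)
    (u u' : Fin d → ℝ) :
    ‖gz C n r z t u - gz C n r z t u' - C.Am (C.F^[t] z) *ᵥ (u - u')‖ ≤ C.A * r * ‖u - u'‖ := by
  have hA : 0 ≤ C.A := zero_le_one.trans C.one_le_A
  by_cases ht : t < n
  · have h1 := (h t ht).2 r hρ ((C.F^[t] z).2 + clip r u) ((C.F^[t] z).2 + clip r u')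
      (by simpa using norm_clip_le hr u) (by simpa using norm_clip_le hr u')
    rw [add_sub_add_left_eq_sub] at h1
    refine le_trans (le_of_eq ?_) (h1.trans
      (mul_le_mul_of_nonneg_left (norm_clip_sub_le r u u') (by positivity)))
    congr 1
    simp only [gz, ht, if_true, Matrix.mulVec_sub]
    abel
  · simp only [gz, ht, if_false, Matrix.mulVec_sub, sub_self, norm_zero]
    positivity

theorem gz_continuous {ρ : ℝ} (hr : 0 ≤ r) (hρ : r ≤ ρ) (h : ∀ t < n, C.Reg (C.F^[t] z) ρ)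
    (t : ℕ) : Continuous (gz C n r z t) := by
  have hA : 0 ≤ C.A := zero_le_one.trans C.one_le_A
  refine (LipschitzWith.of_dist_le' (K := C.A * r + d * C.A) fun u u' => ?_).continuous
  rw [dist_eq_norm, dist_eq_norm]
  have h1 := gz_lip hr hρ h t u u'
  have h2 := model_norm_mulVec_le hA (C.Am_le (C.F^[t] z)) (u - u')
  have h3 := norm_add_le (gz C n r z t u - gz C n r z t u' - C.Am (C.F^[t] z) *ᵥ (u - u'))
    (C.Am (C.F^[t] z) *ᵥ (u - u'))
  rw [sub_add_cancel] at h3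
  linarith

theorem orb_gz {z' : J × (Fin d → ℝ)} (h1 : ∀ t ≤ n, (C.F^[t] z').1 = (C.F^[t] z).1)
    (h2 : ∀ t ≤ n, ‖(C.F^[t] z').2 - (C.F^[t] z).2‖ ≤ r) :
    ∀ t ≤ n, orb (gz C n r z) (z'.2 - z.2) t = (C.F^[t] z').2 - (C.F^[t] z).2 := by
  intro t ht
  induction t with
  | zero => rfl
  | succ t ih =>
    rw [orb, ih (by omega), gz_eq (by omega) (h2 t (by omega)), add_sub_cancel,
      ← h1 t (by omega), Function.iterate_succ_apply' C.F t z']

end gz

theorem model_continuous_orb {d : ℕ} {g : ℕ → (Fin d → ℝ) → (Fin d → ℝ)}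
    (hg : ∀ t, Continuous (g t)) : ∀ t, Continuous fun p => orb g p t
  | 0 => continuous_id
  | t + 1 => (hg t).comp (model_continuous_orb hg t)

theorem model_volume_closedBall {d N : ℕ} (c : Fin N → Fin d → ℝ) {η : ℝ} (hη : 0 ≤ η) :
    volume (Metric.closedBall c (η / 2)) = ENNReal.ofReal (η ^ (d * N)) := by
  rw [volume_pi_closedBall _ (by positivity)]
  simp only [Real.volume_pi_closedBall _ (by positivity : 0 ≤ η / 2), Fintype.card_fin,
    prod_const, card_univ]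
  rw [← ENNReal.ofReal_pow (by positivity), ← pow_mul]
  congr 2
  ring

open Classical in
/-- The main estimate with free parameters. -/
theorem model_core {d : ℕ} {J : Type} [Fintype J] (C : ChartSys d J) (Bx : ℝ) (Cden : ℝ≥0)
    {X : Type} [MeasurableSpace X] (μ : Measure X) (Φ : X → J × (Fin d → ℝ))
    (hden : ∀ j U, MeasurableSet U → μ {x | (Φ x).1 = j ∧ (Φ x).2 ∈ U} ≤ Cden * volume U)
    {n m : ℕ} {Γ R τ η : ℝ} (hn : 1 ≤ n) (hΓ : 1 ≤ Γ) (hη : 0 < η) (hτ : 0 < τ) (hηR : η ≤ R)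
    (hτR : 4 * Γ * τ ≤ R) (hR : 4 * R ≤ Γ⁻¹) (hθ : C.A * (4 * R) * Γ * (8 * (d * n + 1)) ≤ 1)
    (hm : Fintype.card J * (2 * (|Bx| + 1) / η + 3) ^ d ≤ m) :
    ∃ ν ∈ Mod (n + 1) m, ∀ y : Fin (n + 1) → Bool,
      μ {x | C.Good Bx (n + 1) Γ (Φ x) ∧ ∀ t : Fin (n + 1), C.lab (C.F^[t] (Φ x)) = y t} *
          ENNReal.ofReal ((2 * τ) ^ (d * n)) ≤
        ENNReal.ofReal (Cden * (3 * 10 ^ d) * η ^ (d * (n + 1)) *
          (Fintype.card J * (2 * (|Bx| + 1) / η + 3) ^ d *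
            ((2 * (τ + (d * C.A + C.A + 1) * η) / η + 1) ^ d) ^ n * ν y)) := by
  have hA : 0 ≤ C.A := zero_le_one.trans C.one_le_A
  have hR0 : 0 < R := hη.trans_le hηR
  have hΓ1 : Γ⁻¹ ≤ 1 := inv_le_one_of_one_le₀ hΓ
  obtain ⟨σ, _, st, cor, hcard, hst1, hst2, hdeg⟩ :=
    model_exists_grid d J (B := |Bx| + 1) (by positivity) hη
  set ρ := τ + (d * C.A + C.A + 1) * η with hρ
  set Rel : σ → σ → Prop := fun a b =>
    (cor b).1 = (C.F (cor a)).1 ∧ ‖(cor b).2 - (C.F (cor a)).2‖ ≤ ρ with hRel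
  obtain ⟨ν, hν, hνle⟩ := exists_mod_ge Rel (fun a => C.lab (cor a)) (N := n + 1) (m := m)
    (by omega) (by exact_mod_cast hcard.trans hm) (D := (2 * ρ / η + 1) ^ d) fun a => by
      convert hdeg (C.F (cor a)).1 (C.F (cor a)).2 ρ (by positivity)
  refine ⟨ν, hν, fun y => ?_⟩
  have hν0 := mod_nonneg hν y
  set S : Set (J × (Fin d → ℝ)) :=
    {z | C.Good Bx (n + 1) Γ z ∧ ∀ t : Fin (n + 1), C.lab (C.F^[t] z) = y t} with hS
  set P : J × (Fin d → ℝ) → Set (Fin (n + 1) → Fin d → ℝ) := fun z =>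
    {v | ‖v‖ ≤ R ∧ ∀ t : Fin n, ‖v t.succ - gz C n (4 * R) z t (v t.castSucc)‖ ≤ τ} with hP
  set T : J × (Fin d → ℝ) → Set (Fin d → ℝ) := fun z =>
    {p | ∀ t ≤ n, ‖orb (gz C n (4 * R) z) p t‖ ≤ 3 * R} with hT
  set Paths : J × (Fin d → ℝ) → Finset (Fin (n + 1) → σ) := fun z =>
    {π | ∃ u ∈ P z, ∀ t : Fin (n + 1), π t = st ((C.F^[t] z).1, (C.F^[t] z).2 + u t)} with hPaths
  have hreg : ∀ z ∈ S, ∀ t < n, C.Reg (C.F^[t] z) Γ⁻¹ := fun z hz t ht =>
    (hz.1.1 t (by omega)).2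
  -- the cells visited by pseudo-orbits
  have hcell : ∀ z ∈ S, ∀ u : Fin (n + 1) → Fin d → ℝ, ‖u‖ ≤ R → ∀ t : Fin (n + 1),
      ‖(cor (st ((C.F^[t] z).1, (C.F^[t] z).2 + u t))).2 - ((C.F^[t] z).2 + u t)‖ ≤ η / 2 := by
    intro z hz u hu t
    refine hst2 _ ((norm_add_le _ _).trans (add_le_add ?_ ?_))
    · exact (hz.1.1 t t.2).1.trans (le_abs_self _)
    · exact ((norm_le_pi_norm u t).trans hu).trans (by linarith)
  have hne : ∀ z ∈ S, (Paths z).Nonempty := by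
    intro z _
    refine ⟨fun t => st ((C.F^[t] z).1, (C.F^[t] z).2 + (0 : Fin (n + 1) → Fin d → ℝ) t), ?_⟩
    simp only [hPaths, mem_filter, mem_univ, true_and]
    refine ⟨0, ⟨by simpa using hR0.le, fun t => ?_⟩, fun t => rfl⟩
    simpa [gz_zero (by positivity : 0 ≤ 4 * R)] using hτ.le
  have hsub : ∀ z ∈ S, Paths z ⊆
      ({π : Fin (n + 1) → σ | IsPath Rel π ∧ ∀ t, C.lab (cor (π t)) = y t} : Finset _) := by
    intro z hz π hπ
    simp only [hPaths, mem_filter, mem_univ, true_and] at hπ ⊢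
    obtain ⟨u, hu, hπ⟩ := hπ
    have c1 : ∀ t, cor (π t) = ((C.F^[t] z).1, (cor (π t)).2) := fun t =>
      Prod.ext (by rw [hπ t, hst1]) rfl
    have c2 : ∀ t, ‖(cor (π t)).2 - ((C.F^[t] z).2 + u t)‖ ≤ η / 2 := fun t => by
      rw [hπ t]; exact hcell z hz u hu.1 t
    have c3 : ∀ t, ‖u t‖ ≤ R := fun t => (norm_le_pi_norm u t).trans hu.1
    have c4 : ∀ t, ‖(cor (π t)).2 - (C.F^[t] z).2‖ ≤ 4 * R := fun t => by
      have := norm_add_le ((cor (π t)).2 - ((C.F^[t] z).2 + u t)) (u t)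
      rw [show (cor (π t)).2 - ((C.F^[t] z).2 + u t) + u t = (cor (π t)).2 - (C.F^[t] z).2 by
        abel] at this
      linarith [c2 t, c3 t]
    refine ⟨fun s t hst => ?_, fun t => ?_⟩
    · have hs : (s : ℕ) < n := by omega
      have e1 : t = (⟨s, hs⟩ : Fin n).succ := Fin.ext hst
      have e2 : s = (⟨s, hs⟩ : Fin n).castSucc := Fin.ext rfl
      have r1 := hreg z hz s hs
      have r2 := hu.2 ⟨s, hs⟩
      rw [← e1, ← e2, gz_eq hs ((c3 s).trans (by linarith))] at r2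
      have r3 := r1.lip hR (hR.trans hΓ1) (u := (C.F^[s] z).2 + u s) (u' := (cor (π s)).2)
        (by rw [add_sub_cancel_left]; linarith [c3 s]) (c4 s)
      refine ⟨?_, ?_⟩
      · rw [c1 t, c1 s, (r1.1 _ ((c4 s).trans hR)).1, hst, Function.iterate_succ_apply']
      · rw [c1 s]
        have r4 := c2 t
        rw [hst] at r4
        have r5 : (d * C.A + C.A) * ‖(C.F^[s] z).2 + u s - (cor (π s)).2‖ ≤
            (d * C.A + C.A) * η := by
          rw [norm_sub_rev]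
          exact mul_le_mul_of_nonneg_left ((c2 s).trans (by linarith)) (by positivity)
        have r6 := norm_add₃_le (a := (cor (π t)).2 - ((C.F^[s + 1] z).2 + u t))
          (b := u t - ((C.F ((C.F^[s] z).1, (C.F^[s] z).2 + u s)).2 - (C.F^[s + 1] z).2))
          (c := (C.F ((C.F^[s] z).1, (C.F^[s] z).2 + u s)).2 -
            (C.F ((C.F^[s] z).1, (cor (π s)).2)).2)
        rw [show (cor (π t)).2 - ((C.F^[s + 1] z).2 + u t) +
          (u t - ((C.F ((C.F^[s] z).1, (C.F^[s] z).2 + u s)).2 - (C.F^[s + 1] z).2)) +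
          ((C.F ((C.F^[s] z).1, (C.F^[s] z).2 + u s)).2 -
            (C.F ((C.F^[s] z).1, (cor (π s)).2)).2) =
          (cor (π t)).2 - (C.F ((C.F^[s] z).1, (cor (π s)).2)).2 by abel] at r6
        rw [hρ]
        linarith
    · rw [c1 t, ((hz.1.1 t t.2).2.1 _ ((c4 t).trans hR)).2, hz.2 t]
  have hvol : ∀ z ∈ S, volume (P z) ≤ #(Paths z) * ENNReal.ofReal (η ^ (d * (n + 1))) := by
    intro z hz
    calc volume (P z) ≤ volume (⋃ π ∈ Paths z, Metric.closedBall
          (fun t : Fin (n + 1) => (cor (π t)).2 - (C.F^[t] z).2) (η / 2)) := by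
          refine measure_mono fun u hu => ?_
          refine Set.mem_iUnion₂.2 ⟨fun t => st ((C.F^[t] z).1, (C.F^[t] z).2 + u t), ?_, ?_⟩
          · simp only [hPaths, mem_filter, mem_univ, true_and]
            exact ⟨u, hu, fun t => rfl⟩
          · rw [Metric.mem_closedBall, dist_comm, dist_eq_norm]
            refine (pi_norm_le_iff_of_nonneg (by positivity)).2 fun t => ?_
            rw [Pi.sub_apply, sub_sub]
            exact hcell z hz u hu.1 t
      _ ≤ ∑ π ∈ Paths z, volume (Metric.closedBall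
          (fun t : Fin (n + 1) => (cor (π t)).2 - (C.F^[t] z).2) (η / 2)) :=
          measure_biUnion_finset_le _ _
      _ = _ := by simp only [model_volume_closedBall _ hη.le, sum_const, nsmul_eq_mul]
  have htube : ∀ z ∈ S, volume (T z) * ENNReal.ofReal ((2 * τ) ^ (d * n)) ≤
      ENNReal.ofReal (3 * 10 ^ d) * volume (P z) := fun z hz =>
    tube_le n (fun s => C.Am (C.F^[s] z)) (gz C n (4 * R) z) (gz_zero (by positivity))
      (by positivity) (gz_lip (by positivity) hR (hreg z hz)) hz.1.2 hΓ hθ hτ hτR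
  have hTm : ∀ z ∈ S, MeasurableSet (T z) := by
    intro z hz
    have : T z = ⋂ t, ⋂ (_ : t ≤ n), {p | ‖orb (gz C n (4 * R) z) p t‖ ≤ 3 * R} := by
      ext p
      simp [hT]
    rw [this]
    refine MeasurableSet.iInter fun t => MeasurableSet.iInter fun _ => ?_
    exact (isClosed_le (model_continuous_orb
      (gz_continuous (by positivity) hR (hreg z hz)) t).norm continuous_const).measurableSet
  obtain ⟨Z, hZS, hZd, hZc⟩ := model_exists_disjoint S Paths hne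
  have hcover : {x | Φ x ∈ S} ⊆
      ⋃ z ∈ Z, {x | (Φ x).1 = z.1 ∧ (Φ x).2 ∈ (fun p => p - z.2) ⁻¹' T z} := by
    intro x hx
    obtain ⟨z, hz, π, h1, h2⟩ := hZc _ hx
    simp only [hPaths, mem_filter, mem_univ, true_and] at h1 h2
    obtain ⟨u', hu', h1⟩ := h1
    obtain ⟨u, hu, h2⟩ := h2
    have e1 : ∀ t ≤ n, (C.F^[t] (Φ x)).1 = (C.F^[t] z).1 := by
      intro t ht
      have := congrArg (fun b => (cor b).1) ((h1 ⟨t, by omega⟩).symm.trans (h2 ⟨t, by omega⟩))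
      simpa only [hst1] using this
    have e2 : ∀ t ≤ n, ‖(C.F^[t] (Φ x)).2 - (C.F^[t] z).2‖ ≤ 3 * R := by
      intro t ht
      set t' : Fin (n + 1) := ⟨t, by omega⟩ with ht'
      have a1 := hcell _ hx u' hu'.1 t'
      have a2 := hcell z (hZS z hz) u hu.1 t'
      rw [← h1 t'] at a1
      rw [← h2 t'] at a2
      have a3 : ‖u t' - u' t'‖ ≤ R + R := (norm_sub_le _ _).trans
        (add_le_add ((norm_le_pi_norm u t').trans hu.1) ((norm_le_pi_norm u' t').trans hu'.1))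
      have a4 := norm_add₃_le (a := -((cor (π t')).2 - ((C.F^[t'] (Φ x)).2 + u' t')))
        (b := (cor (π t')).2 - ((C.F^[t'] z).2 + u t')) (c := u t' - u' t')
      rw [norm_neg, show -((cor (π t')).2 - ((C.F^[t'] (Φ x)).2 + u' t')) +
        ((cor (π t')).2 - ((C.F^[t'] z).2 + u t')) + (u t' - u' t') =
        (C.F^[t'] (Φ x)).2 - (C.F^[t'] z).2 by abel] at a4
      simp only [ht'] at a1 a2 a3 a4
      linarith
    refine Set.mem_iUnion₂.2 ⟨z, hz, e1 0 (Nat.zero_le _), fun t ht => ?_⟩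
    rw [orb_gz e1 (fun t ht => (e2 t ht).trans (by linarith)) t ht]
    exact e2 t ht
  have hsum : (∑ z ∈ Z, (#(Paths z) : ℝ)) ≤ Fintype.card J * (2 * (|Bx| + 1) / η + 3) ^ d *
      ((2 * ρ / η + 1) ^ d) ^ n * ν y := by
    have h1 : ∑ z ∈ Z, #(Paths z) ≤
        #{π : Fin (n + 1) → σ | IsPath Rel π ∧ ∀ t, C.lab (cor (π t)) = y t} := by
      rw [← card_biUnion hZd]
      exact card_le_card (biUnion_subset.2 fun z hz => hsub z (hZS z hz))
    have h2 := hνle y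
    rw [Nat.add_sub_cancel] at h2
    calc (∑ z ∈ Z, (#(Paths z) : ℝ))
        ≤ #{π : Fin (n + 1) → σ | IsPath Rel π ∧ ∀ t, C.lab (cor (π t)) = y t} := by
          exact_mod_cast h1
      _ ≤ Fintype.card σ * ((2 * ρ / η + 1) ^ d) ^ n * ν y := by convert h2
      _ ≤ _ := by gcongr
  calc μ {x | Φ x ∈ S} * ENNReal.ofReal ((2 * τ) ^ (d * n))
      ≤ (∑ z ∈ Z, Cden * volume (T z)) * ENNReal.ofReal ((2 * τ) ^ (d * n)) := by
        refine mul_le_mul_left (((measure_mono hcover).trans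
          (measure_biUnion_finset_le _ _)).trans (sum_le_sum fun z hz => ?_)) _
        refine (hden _ _ ((hTm z (hZS z hz)).preimage (measurable_sub_const _))).trans ?_
        simp only [sub_eq_add_neg, measure_preimage_add_right, le_refl]
    _ ≤ ∑ z ∈ Z, Cden * (ENNReal.ofReal (3 * 10 ^ d) *
          (#(Paths z) * ENNReal.ofReal (η ^ (d * (n + 1))))) := by
        rw [sum_mul]
        refine sum_le_sum fun z hz => ?_
        rw [mul_assoc]
        exact mul_le_mul_right ((htube z (hZS z hz)).trans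
          (mul_le_mul_right (hvol z (hZS z hz)) _)) _
    _ = ENNReal.ofReal (Cden * (3 * 10 ^ d) * η ^ (d * (n + 1)) * ∑ z ∈ Z, (#(Paths z) : ℝ)) := by
        rw [mul_sum, ENNReal.ofReal_sum_of_nonneg fun _ _ => by positivity]
        refine sum_congr rfl fun z _ => ?_
        rw [ENNReal.ofReal_mul (p := Cden * (3 * 10 ^ d) * η ^ (d * (n + 1))) (by positivity),
          ENNReal.ofReal_mul (p := Cden * (3 * 10 ^ d)) (by positivity),
          ENNReal.ofReal_mul (p := Cden) (by positivity), ENNReal.ofReal_coe_nnreal,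
          ENNReal.ofReal_natCast]
        ring
    _ ≤ _ := ENNReal.ofReal_le_ofReal (mul_le_mul_of_nonneg_left hsum (by positivity))

/-- Recipe.  `N = n + 1`, `A = C.A`, `A' = d A + A + 1` (so on a regular ball of radius `r ≤ 1`
the map is `A'`-Lipschitz), `R = 1 / (32 A Γ (d N + 1))`, `τ = R / (4 Γ)`,
`η = τ / ((A' + 1) (d N + 1))`.  Cells: `fl v i = ⌊v i / η⌋`; states
`σ = J × {c : Fin d → ℤ | ∀ i, |c i| ≤ (Bx + 1) / η + 1}`, `card σ * η^d ≤ card J * (2 |Bx| + 5)^d`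
and `card σ ≤ C₁ (N Γ)^(2d)`.  `lab' (j,c) = C.lab (j, η c)`;
`Rel (j,c) (j',c')` says: for all `u` in the cell `c`, `(F (j,u)).1 = j'` and
`‖(F (j,u)).2 - (F (j, η c)).2‖ ≤ A' η`, and there are `u` in the cell `c`, `u'` in the cell `c'`
with `‖u' - (F (j,u)).2‖ ≤ τ`.  Out-degree `≤ D = (2 τ / η + 2 A' + 2)^d`, and
`D^n ≤ 3 (2 τ / η)^(d n)`.
For a good `z` with orbit `(j t, v t)` let `clip` be the coordinatewise projection on
`closedBall 0 (4R)` (1-Lipschitz), and for `t < n`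
`g t u = (F (j t, v t + clip u)).2 - v (t+1) + a t *ᵥ (u - clip u)` (`g t u = a t *ᵥ u` for
`t ≥ n`); `θ' = 4 A R`; apply `tube_le`.
`Paths z = {π | ∃ u ∈ P R τ, ∀ t, π t = (j t, fl (v t + u t))}` is nonempty (`u = 0`), consists of
`Rel`-paths with labels `lab (F^[t] z)`, and `volume (P R τ) ≤ #(Paths z) * η^(d N)`.  If
`Paths z` meets `Paths z'` then `j' t = j t`, `‖v' t - v t‖ ≤ 2R + η ≤ 3R` and
`orb g (v' 0 - v 0) t = v' t - v t`.  Choose good points with label word `y` and pairwise disjoint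
`Paths`, maximal (`Vitali.exists_disjoint_subfamily_covering_enlargement` with `δ = 0`; the family
is finite); cover, use `hden`, translation invariance and `exists_mod_ge`. -/
theorem exists_model {d : ℕ} {J : Type} [Fintype J] (C : ChartSys d J) (Bx : ℝ) (Cden : ℝ≥0) :
    ∃ C₁ C₂ : ℝ, 0 < C₁ ∧ 0 ≤ C₂ ∧ ∀ {X : Type} [MeasurableSpace X] (μ : Measure X)
      (Φ : X → J × (Fin d → ℝ)),
      (∀ j U, MeasurableSet U → μ {x | (Φ x).1 = j ∧ (Φ x).2 ∈ U} ≤ Cden * volume U) →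
      ∀ (N m : ℕ) (Γ : ℝ), 2 ≤ N → 1 ≤ Γ → C₁ * (N * Γ) ^ (2 * d) ≤ m →
        ∃ ν ∈ Mod N m, ∀ y : Fin N → Bool,
          μ {x | C.Good Bx N Γ (Φ x) ∧ ∀ t : Fin N, C.lab (C.F^[t] (Φ x)) = y t} ≤
            ENNReal.ofReal (C₂ * ν y) := by
  have hA1 := C.one_le_A
  have hA : 0 < C.A := by linarith
  set B : ℝ := d * C.A + C.A + 2 with hB
  have hB1 : 1 ≤ B := by rw [hB]; nlinarith [Nat.cast_nonneg (α := ℝ) d]
  refine ⟨(Fintype.card J + 1) * ((2 * |Bx| + 5) * (128 * C.A * B * (d + 1) ^ 2)) ^ d,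
    Cden * (3 * 10 ^ d) * (Fintype.card J * (2 * |Bx| + 5) ^ d) * Real.exp 1, by positivity,
    by positivity, fun μ Φ hden N m Γ hN hΓ hm => ?_⟩
  obtain ⟨n, rfl⟩ : ∃ n, N = n + 1 := ⟨N - 1, by omega⟩
  set M : ℝ := d * (n + 1) + 1 with hM
  have hd0 : (0 : ℝ) ≤ d := Nat.cast_nonneg d
  have hn0 : (0 : ℝ) ≤ n := Nat.cast_nonneg n
  have hM1 : 1 ≤ M := by rw [hM]; nlinarith
  have hΓ0 : 0 < Γ := by linarith
  set R : ℝ := 1 / (32 * C.A * Γ * M) with hR
  set τ : ℝ := R / (4 * Γ) with hτ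
  set η : ℝ := τ / (B * M) with hη
  have hR0 : 0 < R := by positivity
  have hτ0 : 0 < τ := by positivity
  have hη0 : 0 < η := by positivity
  have h4R : 4 * R ≤ Γ⁻¹ := by
    rw [hR, mul_one_div, inv_eq_one_div, div_le_div_iff₀ (by positivity) hΓ0]
    have : 1 ≤ C.A * M := one_le_mul_of_one_le_of_one_le hA1 hM1
    nlinarith
  have hηR : η ≤ R := (div_le_self hτ0.le (one_le_mul_of_one_le_of_one_le hB1 hM1)).trans
    (div_le_self hR0.le (by linarith))
  have hη1 : η ≤ 1 := by linarith [inv_le_one_of_one_le₀ hΓ]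
  have hcell : (2 * (|Bx| + 1) / η + 3) * η ≤ 2 * |Bx| + 5 := by
    rw [add_mul, div_mul_cancel₀ _ hη0.ne']
    linarith
  have hm' : Fintype.card J * (2 * (|Bx| + 1) / η + 3) ^ d ≤ m := by
    refine le_trans ?_ hm
    rw [mul_assoc, pow_mul, ← mul_pow]
    gcongr
    · linarith
    · refine ((le_div_iff₀ hη0).2 hcell).trans ?_
      have e : (2 * |Bx| + 5) / η = (2 * |Bx| + 5) * (128 * C.A * B) * (M * Γ) ^ 2 := by
        rw [hη, hτ, hR]
        field_simp
        norm_num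
      have e2 : M ≤ (d + 1) * (n + 1 : ℕ) := by
        rw [hM]
        push_cast
        nlinarith
      rw [e]
      calc (2 * |Bx| + 5) * (128 * C.A * B) * (M * Γ) ^ 2
          ≤ (2 * |Bx| + 5) * (128 * C.A * B) * ((d + 1) * (n + 1 : ℕ) * Γ) ^ 2 := by gcongr
        _ = _ := by ring
  obtain ⟨ν, hν, h⟩ := model_core C Bx Cden μ Φ hden (n := n) (m := m) (by omega) hΓ hη0 hτ0 hηR
    (by rw [hτ]; field_simp; rfl) h4R (by
      rw [hR, show C.A * (4 * (1 / (32 * C.A * Γ * M))) * Γ * (8 * (d * n + 1)) =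
        (d * n + 1) / M by field_simp; ring, div_le_one (by positivity), hM]
      nlinarith) hm'
  refine ⟨ν, hν, fun y => ?_⟩
  have hν0 := mod_nonneg hν y
  have hpos : (0 : ℝ) < (2 * τ) ^ (d * n) := by positivity
  rw [← ENNReal.mul_le_mul_iff_left (ENNReal.ofReal_pos.2 hpos).ne' ENNReal.ofReal_ne_top,
    ← ENNReal.ofReal_mul (by positivity)]
  refine (h y).trans (ENNReal.ofReal_le_ofReal ?_)
  have k1 : (2 * (τ + (d * C.A + C.A + 1) * η) / η + 1) * η ≤ 2 * τ * (1 + 1 / M) := by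
    have e : τ = B * M * η := by rw [hη]; field_simp
    rw [add_mul, div_mul_cancel₀ _ hη0.ne', show 2 * τ * (1 + 1 / M) = 2 * τ + 2 * (τ / M) by ring,
      show τ / M = B * η by rw [e]; field_simp, hB]
    nlinarith
  have k2 : (1 + 1 / M) ^ (d * n) ≤ Real.exp 1 := by
    calc (1 + 1 / M) ^ (d * n) ≤ Real.exp (1 / M) ^ (d * n) := by
          gcongr
          linarith [Real.add_one_le_exp (1 / M)]
      _ = Real.exp ((d * n : ℕ) * (1 / M)) := (Real.exp_nat_mul _ _).symm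
      _ ≤ _ := by
          refine Real.exp_le_exp.2 ?_
          rw [mul_one_div, div_le_one (by positivity), hM]
          push_cast
          nlinarith
  calc (Cden : ℝ) * (3 * 10 ^ d) * η ^ (d * (n + 1)) *
        (Fintype.card J * (2 * (|Bx| + 1) / η + 3) ^ d *
          ((2 * (τ + (d * C.A + C.A + 1) * η) / η + 1) ^ d) ^ n * ν y)
      = Cden * (3 * 10 ^ d) * (Fintype.card J * ((2 * (|Bx| + 1) / η + 3) * η) ^ d) *
          ((2 * (τ + (d * C.A + C.A + 1) * η) / η + 1) * η) ^ (d * n) * ν y := by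
        rw [← pow_mul, mul_pow, mul_pow _ η]
        ring
    _ ≤ Cden * (3 * 10 ^ d) * (Fintype.card J * (2 * |Bx| + 5) ^ d) *
          (2 * τ * (1 + 1 / M)) ^ (d * n) * ν y := by gcongr
    _ ≤ Cden * (3 * 10 ^ d) * (Fintype.card J * (2 * |Bx| + 5) ^ d) *
          ((2 * τ) ^ (d * n) * Real.exp 1) * ν y := by
        rw [mul_pow (2 * τ)]
        gcongr
    _ = _ := by ring

end

end Crest.Agent.R133
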