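import Crest.Agent.R133.Defs

/-!
# Row 133: growth of the parameters
-/

open Filter
open scoped Topology

namespace Crest.Agent.R133

noncomputable section

variable {B : Blocks}

theorem Design.h_succ' (D : Design B) (k : ℕ) :
    B.h (k + 1) = B.h k * (2 * k + 3) / (2 * k + 4) := by
  have h := D.h_succ k
  have : (2 * k + 4 : ℝ) ≠ 0 := by positivity
  field_simp
  linarith

theorem Design.h_pos (D : Design B) : ∀ k, 0 < B.h k
  | 0 => D.h_zero_pos
  | k + 1 => by rw [D.h_succ']; have := D.h_pos k; positivity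

theorem Design.gap_eq (D : Design B) (k : ℕ) :
    B.h k - B.h (k + 1) = B.h (k + 1) / (2 * k + 3) := by
  have h := D.h_succ k
  have : (2 * k + 3 : ℝ) ≠ 0 := by positivity
  field_simp
  linarith

theorem Design.gap_nonneg (D : Design B) (k : ℕ) : 0 ≤ B.h k - B.h (k + 1) := by
  rw [D.gap_eq]; have := D.h_pos (k + 1); positivity

theorem Design.h_sq_le (D : Design B) : ∀ k : ℕ, B.h k ^ 2 * (2 * k + 3) ≤ 3 * B.h 0 ^ 2
  | 0 => by simp [mul_comm]
  | k + 1 => by
    refine le_trans ?_ (D.h_sq_le k)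
    rw [D.h_succ', div_pow, div_mul_eq_mul_div, div_le_iff₀ (by positivity)]
    push_cast
    have h1 : 0 ≤ B.h k ^ 2 * (2 * k + 3) := by positivity
    nlinarith

theorem Design.le_h_sq (D : Design B) : ∀ k : ℕ, B.h 0 ^ 2 ≤ B.h k ^ 2 * (k + 1)
  | 0 => by simp
  | k + 1 => by
    refine le_trans (D.le_h_sq k) ?_
    rw [D.h_succ', div_pow, div_mul_eq_mul_div, le_div_iff₀ (by positivity)]
    push_cast
    have h1 : 0 ≤ B.h k ^ 2 * (k + 2) := by positivity
    nlinarith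

theorem Design.tendsto_h (D : Design B) : Tendsto B.h atTop (𝓝 0) := by
  have h1 : Tendsto (fun k : ℕ => 3 * B.h 0 ^ 2 / (2 * k + 3 : ℝ)) atTop (𝓝 0) := by
    refine Tendsto.div_atTop tendsto_const_nhds ?_
    exact tendsto_atTop_add_const_right _ _
      (tendsto_natCast_atTop_atTop.const_mul_atTop two_pos)
  have h2 : Tendsto (fun k : ℕ => B.h k ^ 2) atTop (𝓝 0) := by
    refine squeeze_zero (fun k => sq_nonneg _) (fun k => ?_) h1
    rw [le_div_iff₀ (by positivity)]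
    exact D.h_sq_le k
  have h3 := h2.sqrt
  rw [Real.sqrt_zero] at h3
  exact h3.congr fun k => Real.sqrt_sq (D.h_pos k).le

theorem Design.eventually_le_mul_h (D : Design B) (c : ℝ) :
    ∀ᶠ k : ℕ in atTop, c ≤ (2 * k + 3) * B.h k := by
  have h0 := D.h_pos 0
  filter_upwards [tendsto_natCast_atTop_atTop.eventually_ge_atTop (c ^ 2 / B.h 0 ^ 2)] with k hk
  have hk' : c ^ 2 ≤ k * B.h 0 ^ 2 := by rwa [div_le_iff₀ (by positivity)] at hk
  have h1 := D.le_h_sq k
  have hp := D.h_pos k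
  refine le_trans (le_abs_self c) (abs_le_of_sq_le_sq ?_ (by positivity))
  have h2 : (k : ℝ) * B.h 0 ^ 2 ≤ k * (B.h k ^ 2 * (k + 1)) :=
    mul_le_mul_of_nonneg_left h1 (Nat.cast_nonneg _)
  have h3 : 0 ≤ B.h k ^ 2 := sq_nonneg _
  have h4 : (0 : ℝ) ≤ k := Nat.cast_nonneg _
  nlinarith [mul_nonneg h3 h4, mul_nonneg (mul_nonneg h3 h4) h4]

theorem Blocks.log_N_nonneg (B : Blocks) (k : ℕ) : 0 ≤ Real.log (B.N k) :=
  Real.log_nonneg (by exact_mod_cast B.N_pos k)

theorem Design.eventually_growth (D : Design B) (c : ℝ) :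
    ∀ᶠ k : ℕ in atTop, c * (B.N k + Real.log (B.N (k + 1)) + k + 1) ≤ B.L (k + 1) := by
  filter_upwards [tendsto_natCast_atTop_atTop.eventually_ge_atTop c] with k hk
  refine le_trans (mul_le_mul_of_nonneg_right (by linarith) ?_) (D.growth k)
  have := B.log_N_nonneg (k + 1)
  positivity

theorem Design.eventually_le_L (D : Design B) (c : ℝ) : ∀ᶠ k : ℕ in atTop, c ≤ B.L k := by
  have h : ∀ᶠ k : ℕ in atTop, c ≤ B.L (k + 1) := by
    filter_upwards [D.eventually_growth |c|] with k hk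
    have h1 := B.log_N_nonneg (k + 1)
    have h2 : |c| * 1 ≤ |c| * (B.N k + Real.log (B.N (k + 1)) + k + 1) :=
      mul_le_mul_of_nonneg_left (by
        have : (0 : ℝ) ≤ B.N k := Nat.cast_nonneg _
        have : (0 : ℝ) ≤ k := Nat.cast_nonneg _
        linarith) (abs_nonneg _)
    have := le_abs_self c
    linarith
  obtain ⟨k₀, hk₀⟩ := eventually_atTop.1 h
  refine eventually_atTop.2 ⟨k₀ + 1, fun k hk => ?_⟩
  obtain ⟨j, rfl⟩ : ∃ j, k = j + 1 := ⟨k - 1, by omega⟩
  exact hk₀ j (by omega)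

theorem Blocks.L_eq (B : Blocks) (k : ℕ) : B.L k = B.h k * B.N k := by
  have : (B.N k : ℝ) ≠ 0 := by exact_mod_cast (B.N_pos k).ne'
  rw [Blocks.h]; field_simp

/-- The inverse regularity radius used at level `k + 1`. -/
def Blocks.Gam (B : Blocks) (d k : ℕ) : ℝ := Real.exp (B.L (k + 1) / (16 * (d + 1)))

theorem Blocks.L_nonneg (B : Blocks) (k : ℕ) : 0 ≤ B.L k :=
  Real.log_nonneg (by exact_mod_cast B.q_pos k)

theorem Blocks.one_le_Gam (B : Blocks) (d k : ℕ) : 1 ≤ B.Gam d k :=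
  Real.one_le_exp (by have := B.L_nonneg (k + 1); positivity)

theorem Design.summable_Gam (D : Design B) (d : ℕ) :
    Summable fun k => (B.N (k + 1) : ℝ) * (B.Gam d k)⁻¹ := by
  refine Summable.of_norm_bounded_eventually_nat (g := fun k => Real.exp (-1) ^ k)
    (summable_geometric_of_lt_one (Real.exp_pos _).le (Real.exp_lt_one_iff.2 (by norm_num))) ?_
  filter_upwards [D.eventually_growth (16 * (d + 1))] with k hk
  have hN : (0 : ℝ) < B.N (k + 1) := by exact_mod_cast B.N_pos (k + 1)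
  rw [Real.norm_of_nonneg (by have := B.one_le_Gam d k; positivity), Blocks.Gam,
    ← Real.exp_neg, ← Real.exp_nat_mul]
  nth_rewrite 1 [← Real.exp_log hN]
  rw [← Real.exp_add, Real.exp_le_exp]
  have h1 : B.N k + Real.log (B.N (k + 1)) + k + 1 ≤ B.L (k + 1) / (16 * (d + 1)) := by
    rw [le_div_iff₀ (by positivity)]; linarith
  have : (0 : ℝ) ≤ B.N k := Nat.cast_nonneg _
  linarith

theorem Design.eventually_states (D : Design B) (d : ℕ) {C₁ : ℝ} (hC : 0 < C₁) :
    ∀ᶠ k : ℕ in atTop, C₁ * (B.N (k + 1) * B.Gam d k) ^ (2 * d) ≤ D.m (k + 1) := by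
  filter_upwards [D.eventually_growth (8 * (|Real.log C₁| + 2 * d))] with k hk
  refine le_trans ?_ (D.le_m (k + 1))
  have hN : (0 : ℝ) < B.N (k + 1) := by exact_mod_cast B.N_pos (k + 1)
  have hl := B.log_N_nonneg (k + 1)
  have hL := B.L_nonneg (k + 1)
  rw [Blocks.Gam]
  nth_rewrite 1 [← Real.exp_log hN, ← Real.exp_log hC]
  rw [← Real.exp_add, ← Real.exp_nat_mul, ← Real.exp_add, Real.exp_le_exp]
  have h1 : (2 * d : ℝ) * (B.L (k + 1) / (16 * (d + 1))) ≤ B.L (k + 1) / 8 := by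
    rw [← mul_div_assoc, div_le_div_iff₀ (by positivity) (by positivity)]
    nlinarith
  have h2 : (0 : ℝ) ≤ B.N k := Nat.cast_nonneg _
  have h3 : (0 : ℝ) ≤ k := Nat.cast_nonneg _
  have h4 : (0 : ℝ) ≤ d := Nat.cast_nonneg _
  have h5 := le_abs_self (Real.log C₁)
  have h6 := abs_nonneg (Real.log C₁)
  push_cast
  nlinarith [mul_nonneg h6 hl, mul_nonneg h6 h2, mul_nonneg h6 h3, mul_nonneg h4 h2,
    mul_nonneg h4 h3]

theorem Design.eventually_green (D : Design B) (d : ℕ) {K : ℝ} (hK : 1 ≤ K) :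
    ∀ᶠ k : ℕ in atTop, B.N (k + 1) * K ^ (B.N k + 1) *
      Real.exp (B.L (k + 1) / (16 * (d + 1)) / 2) ≤ B.Gam d k := by
  filter_upwards [D.eventually_growth (32 * (d + 1) * (Real.log K + 1))] with k hk
  have hN : (0 : ℝ) < B.N (k + 1) := by exact_mod_cast B.N_pos (k + 1)
  have hl := B.log_N_nonneg (k + 1)
  have hK0 : 0 < K := by linarith
  have hlK : 0 ≤ Real.log K := Real.log_nonneg hK
  rw [Blocks.Gam]
  nth_rewrite 1 [← Real.exp_log hN, ← Real.exp_log hK0]
  rw [← Real.exp_nat_mul, ← Real.exp_add, ← Real.exp_add, Real.exp_le_exp]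
  have h1 : (Real.log K + 1) * (B.N k + Real.log (B.N (k + 1)) + k + 1) ≤
      B.L (k + 1) / (16 * (d + 1)) / 2 := by
    rw [div_div, le_div_iff₀ (by positivity)]; linarith
  have h2 : (0 : ℝ) ≤ B.N k := Nat.cast_nonneg _
  have h3 : (0 : ℝ) ≤ k := Nat.cast_nonneg _
  push_cast
  nlinarith [mul_nonneg hlK hl, mul_nonneg hlK h3]

end

end Crest.Agent.R133
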