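import Crest.Agent.R133.Defs

/-!
# Row 133: averages over the starts of blocks
-/

open MeasureTheory Finset Filter
open scoped Topology ENNReal

namespace Crest.Agent.R133

noncomputable section

variable {B : Blocks} {X : Type} [MeasurableSpace X] {μ : Measure X} {T : X → X}

theorem integrable_iter (hT : MeasurePreserving T μ μ) {g : X → ℝ} (hg : Integrable g μ) (t : ℕ) :
    Integrable (fun x => g (T^[t] x)) μ :=
  (hT.iterate t).integrable_comp_of_integrable hg

namespace Tower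

variable (τ : Tower B μ T)

theorem P_iter (k : ℕ) (x : X) : ∀ t, τ.P k (T^[t] x) = (τ.P k x + t) % B.N k
  | 0 => (Nat.mod_eq_of_lt (τ.P_lt k x)).symm
  | t + 1 => by
    rw [Function.iterate_succ_apply', τ.P_step, P_iter k x t, Nat.mod_add_mod, add_assoc]

theorem W_iter (k : ℕ) (x : X) : ∀ t, τ.P k x + t < B.N k → τ.W k (T^[t] x) = τ.W k x
  | 0, _ => rfl
  | t + 1, h => by
    rw [Function.iterate_succ_apply', τ.W_step, W_iter k x t (by omega)]
    rw [τ.P_iter, Nat.mod_eq_of_lt (by omega)]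
    omega

theorem name_eq (x : X) : ∀ k, B.name k (τ.W k x) (τ.P k x) = B.name 0 (τ.W 0 x) (τ.P 0 x)
  | 0 => rfl
  | k + 1 => by
    rw [← name_eq x k, Blocks.name, ← τ.W_compat, ← τ.P_compat]

theorem measurableSet_P (k t : ℕ) : MeasurableSet {x | τ.P k x = t} :=
  τ.meas_P k (measurableSet_singleton t)

theorem measurableSet_WP (k w t : ℕ) : MeasurableSet {x | τ.W k x = w ∧ τ.P k x = t} :=
  (τ.meas_W k (measurableSet_singleton w)).inter (τ.meas_P k (measurableSet_singleton t))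

theorem start_iter {k : ℕ} {x : X} (hx : τ.P k x = 0) {t : ℕ} (ht : t < B.N k) :
    τ.P k (T^[t] x) = t ∧ τ.W k (T^[t] x) = τ.W k x := by
  refine ⟨?_, τ.W_iter k x t (by omega)⟩
  rw [τ.P_iter, hx, zero_add, Nat.mod_eq_of_lt ht]

theorem sub_start {k : ℕ} {x : X} (hx : τ.P (k + 1) x = 0) {i : ℕ} (hi : i < B.M k) :
    τ.W k (T^[i * B.N k] x) = B.word k (τ.W (k + 1) x) i := by
  have hlt : i * B.N k < B.N (k + 1) := by
    rw [B.N_succ]; exact Nat.mul_lt_mul_of_pos_right hi (B.N_pos k)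
  obtain ⟨h1, h2⟩ := τ.start_iter hx hlt
  rw [τ.W_compat, h1, h2, Nat.mul_div_cancel _ (B.N_pos k)]

theorem setIntegral_shift (hT : MeasurePreserving T μ μ) (k : ℕ) {t : ℕ} (ht : t < B.N k)
    {g : X → ℝ} (hg : Integrable g μ) :
    ∫ x in {x | τ.P k x = t}, g x ∂μ = ∫ x in {x | τ.P k x = 0}, g (T^[t] x) ∂μ := by
  have hpre : T^[t] ⁻¹' {x | τ.P k x = t} = {x | τ.P k x = 0} := by
    ext x
    simp only [Set.mem_preimage, Set.mem_ofPred_eq, τ.P_iter]
    have h1 := τ.P_lt k x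
    constructor
    · intro h
      by_cases h2 : τ.P k x + t < B.N k
      · rw [Nat.mod_eq_of_lt h2] at h; omega
      · rw [Nat.mod_eq_sub_mod (by omega), Nat.mod_eq_of_lt (by omega)] at h; omega
    · intro h; rw [h, zero_add, Nat.mod_eq_of_lt ht]
  have h1 := (hT.iterate t).restrict_preimage (τ.measurableSet_P k t)
  rw [hpre] at h1
  rw [← h1.map_eq, integral_map h1.measurable.aemeasurable]
  rw [h1.map_eq]
  exact hg.integrableOn.aestronglyMeasurable

theorem integral_eq_sum (hT : MeasurePreserving T μ μ) (k : ℕ) {g : X → ℝ} (hg : Integrable g μ) :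
    ∫ x, g x ∂μ = ∑ t ∈ range (B.N k), ∫ x in {x | τ.P k x = 0}, g (T^[t] x) ∂μ := by
  have h1 : (Set.univ : Set X) = ⋃ t ∈ range (B.N k), {x | τ.P k x = t} := by
    ext x
    simp only [Set.mem_univ, mem_range, Set.mem_iUnion, Set.mem_ofPred_eq, true_iff]
    exact ⟨_, τ.P_lt k x, rfl⟩
  rw [← setIntegral_univ, h1, integral_biUnion_finset _ (fun t _ => τ.measurableSet_P k t)
    (fun s _ t _ hst => Set.disjoint_left.2 fun x h1 h2 => hst (h1.symm.trans h2))
    (fun _ _ => hg.integrableOn)]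
  exact sum_congr rfl fun t ht => τ.setIntegral_shift hT k (mem_range.1 ht) hg

theorem setIntegral_split (hT : MeasurePreserving T μ μ) (k : ℕ) {g : X → ℝ}
    (hg : Integrable g μ) :
    ∫ x in {x | τ.P k x = 0}, g x ∂μ =
      ∑ i ∈ range (B.M k), ∫ x in {x | τ.P (k + 1) x = 0}, g (T^[i * B.N k] x) ∂μ := by
  have hN := B.N_pos k
  have h1 : {x | τ.P k x = 0} = ⋃ i ∈ range (B.M k), {x | τ.P (k + 1) x = i * B.N k} := by
    ext x
    simp only [mem_range, Set.mem_iUnion, Set.mem_ofPred_eq, τ.P_compat k x]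
    constructor
    · intro h
      refine ⟨τ.P (k + 1) x / B.N k, ?_, ?_⟩
      · rw [Nat.div_lt_iff_lt_mul hN, ← B.N_succ]; exact τ.P_lt _ _
      · exact (Nat.div_mul_cancel (Nat.dvd_of_mod_eq_zero h)).symm
    · rintro ⟨i, -, h⟩
      rw [h, Nat.mul_mod_left]
  rw [h1, integral_biUnion_finset _ (fun t _ => τ.measurableSet_P _ _)
    (fun s _ t _ hst => Set.disjoint_left.2 fun x h1 h2 =>
      hst (Nat.eq_of_mul_eq_mul_right hN (h1.symm.trans h2)))
    (fun _ _ => hg.integrableOn)]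
  refine sum_congr rfl fun i hi => τ.setIntegral_shift hT (k + 1) ?_ hg
  rw [B.N_succ]; exact Nat.mul_lt_mul_of_pos_right (mem_range.1 hi) hN

/-- The expectation conditional on being at the start of a block of level `k`. -/
def E (k : ℕ) (g : X → ℝ) : ℝ := B.N k * ∫ x in {x | τ.P k x = 0}, g x ∂μ

theorem E_sum_split (hT : MeasurePreserving T μ μ) (k : ℕ) {g : X → ℝ} (hg : Integrable g μ) :
    τ.E (k + 1) (fun x => ∑ i ∈ range (B.M k), g (T^[i * B.N k] x)) = B.M k * τ.E k g := by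
  rw [E, E, integral_finsetSum (f := fun i x => g (T^[i * B.N k] x)) _ fun i _ =>
    (integrable_iter hT hg _).integrableOn, ← τ.setIntegral_split hT k hg, B.N_succ]
  push_cast; ring

theorem E_sum_orbit (hT : MeasurePreserving T μ μ) (k : ℕ) {g : X → ℝ} (hg : Integrable g μ) :
    τ.E k (fun x => ∑ t ∈ range (B.N k), g (T^[t] x)) = B.N k * ∫ x, g x ∂μ := by
  rw [E, integral_finsetSum (f := fun t x => g (T^[t] x)) _ fun i _ =>
    (integrable_iter hT hg _).integrableOn, ← τ.integral_eq_sum hT k hg]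

theorem E_const [IsProbabilityMeasure μ] (hT : MeasurePreserving T μ μ) (k : ℕ) (c : ℝ) :
    τ.E k (fun _ => c) = c := by
  have h := τ.integral_eq_sum hT k (integrable_const c)
  rw [sum_const, card_range, nsmul_eq_mul, integral_const, probReal_univ, one_smul] at h
  exact h.symm

theorem E_add (k : ℕ) {f g : X → ℝ} (hf : Integrable f μ) (hg : Integrable g μ) :
    τ.E k (fun x => f x + g x) = τ.E k f + τ.E k g := by
  rw [E, E, E, integral_add hf.integrableOn hg.integrableOn, mul_add]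

theorem E_sub (k : ℕ) {f g : X → ℝ} (hf : Integrable f μ) (hg : Integrable g μ) :
    τ.E k (fun x => f x - g x) = τ.E k f - τ.E k g := by
  rw [E, E, E, integral_sub hf.integrableOn hg.integrableOn, mul_sub]

theorem E_const_mul (k : ℕ) (c : ℝ) (f : X → ℝ) : τ.E k (fun x => c * f x) = c * τ.E k f := by
  rw [E, E, integral_const_mul]; ring

theorem E_mono (k : ℕ) {f g : X → ℝ} (hf : Integrable f μ) (hg : Integrable g μ)
    (h : ∀ x, τ.P k x = 0 → f x ≤ g x) : τ.E k f ≤ τ.E k g :=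
  mul_le_mul_of_nonneg_left (setIntegral_mono_on hf.integrableOn hg.integrableOn
    (τ.measurableSet_P k 0) h) (Nat.cast_nonneg _)

theorem E_le_integral (k : ℕ) {f : X → ℝ} (hf : Integrable f μ) (h : ∀ x, 0 ≤ f x) :
    τ.E k f ≤ B.N k * ∫ x, f x ∂μ :=
  mul_le_mul_of_nonneg_left (setIntegral_le_integral hf (Eventually.of_forall h))
    (Nat.cast_nonneg _)

theorem integrable_W [IsFiniteMeasure μ] (k : ℕ) {β : Type} [Fintype β] [MeasurableSpace β]
    [MeasurableSingletonClass β] {Y : X → β} (hY : Measurable Y) (f : ℕ → β → ℝ) :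
    Integrable (fun x => f (τ.W k x) (Y x)) μ := by
  have hm : Measurable fun x => f (τ.W k x) (Y x) :=
    (measurable_of_countable fun p : ℕ × β => f p.1 p.2).comp ((τ.meas_W k).prodMk hY)
  refine Integrable.of_bound hm.aestronglyMeasurable (∑ w ∈ range (B.q k), ∑ y, |f w y|)
    (Eventually.of_forall fun x => ?_)
  calc ‖f (τ.W k x) (Y x)‖ ≤ ∑ y, |f (τ.W k x) y| :=
        single_le_sum (f := fun y => |f (τ.W k x) y|) (fun _ _ => abs_nonneg _) (mem_univ _)
    _ ≤ _ := single_le_sum (f := fun w => ∑ y, |f w y|)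
        (fun _ _ => sum_nonneg fun _ _ => abs_nonneg _) (mem_range.2 (τ.W_lt k x))

theorem E_indicator_W [IsProbabilityMeasure μ] (k : ℕ) (Bad : Finset ℕ) :
    τ.E k (fun x => if τ.W k x ∈ Bad then 1 else 0) ≤ #Bad / B.q k := by
  have hq : (0 : ℝ) < B.q k := by exact_mod_cast B.q_pos k
  have hN : (0 : ℝ) < B.N k := by exact_mod_cast B.N_pos k
  have h1 : ∫ x in {x | τ.P k x = 0}, (if τ.W k x ∈ Bad then (1 : ℝ) else 0) ∂μ =
      μ.real (⋃ w ∈ Bad.filter (· < B.q k), {x | τ.W k x = w ∧ τ.P k x = 0}) := by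
    have hs : MeasurableSet {x | τ.W k x ∈ Bad} := τ.meas_W k (MeasurableSet.of_discrete)
    have : (fun x => if τ.W k x ∈ Bad then (1 : ℝ) else 0) =
        {x | τ.W k x ∈ Bad}.indicator 1 := by
      ext x; simp [Set.indicator_apply]
    rw [this, integral_indicator_one hs, measureReal_restrict_apply hs]
    congr 1
    ext x
    simp only [Set.mem_inter_iff, Set.mem_ofPred_eq, mem_filter, Set.mem_iUnion, exists_prop]
    exact ⟨fun h => ⟨_, ⟨h.1, τ.W_lt k x⟩, rfl, h.2⟩, by rintro ⟨w, hw, rfl, h⟩; exact ⟨hw.1, h⟩⟩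
  rw [E, h1]
  have h2 := measureReal_biUnion_finset_le (μ := μ) (Bad.filter (· < B.q k))
    fun w => {x | τ.W k x = w ∧ τ.P k x = 0}
  have h3 : ∑ w ∈ Bad.filter (· < B.q k), μ.real {x | τ.W k x = w ∧ τ.P k x = 0} =
      #(Bad.filter (· < B.q k)) * ((B.q k : ℝ) * B.N k)⁻¹ := by
    rw [sum_congr rfl (g := fun _ => ((B.q k : ℝ) * B.N k)⁻¹), sum_const, nsmul_eq_mul]
    intro w hw
    rw [measureReal_def, τ.law k w 0 (mem_filter.1 hw).2 (B.N_pos k), ENNReal.toReal_inv,
      ENNReal.toReal_natCast]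
    push_cast; rfl
  have h4 : (#(Bad.filter (· < B.q k)) : ℝ) ≤ #Bad := by exact_mod_cast card_filter_le _ _
  calc _ ≤ (B.N k : ℝ) * (#Bad * ((B.q k : ℝ) * B.N k)⁻¹) := by
        refine mul_le_mul_of_nonneg_left (h2.trans (h3.le.trans ?_)) hN.le
        exact mul_le_mul_of_nonneg_right h4 (by positivity)
    _ = _ := by field_simp

end Tower

end

end Crest.Agent.R133
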