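import Crest.Agent.R133.Green
import Crest.Agent.R133.Model
import Crest.Agent.R133.Rates
import Crest.Agent.R133.TowerE

/-!
# Row 133: the main argument
-/

open MeasureTheory Finset Filter
open scoped Matrix Topology ENNReal NNReal

namespace Crest.Agent.R133

noncomputable section

variable {B : Blocks} {X : Type} [MeasurableSpace X] {μ : Measure X} {T : X → X}
  {d : ℕ} {J : Type}

/-- The label word of an orbit segment. -/
def Yw (C : ChartSys d J) (Φ : X → J × (Fin d → ℝ)) (T : X → X) (N : ℕ) (x : X) :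
    Fin N → Bool := fun t => C.lab (Φ (T^[t] x))

/-- The derivative cocycle along an orbit. -/
def coc (C : ChartSys d J) (Φ : X → J × (Fin d → ℝ)) (T : X → X) (x : X) :
    ℕ → Matrix (Fin d) (Fin d) ℝ := fun s => C.Am (Φ (T^[s] x))

theorem measurable_Yw {C : ChartSys d J} {Φ : X → J × (Fin d → ℝ)} (hT : Measurable T)
    (hlab : Measurable fun x => C.lab (Φ x)) (N : ℕ) : Measurable (Yw C Φ T N) :=
  measurable_pi_lambda _ fun t => hlab.comp (hT.iterate t)

omit [MeasurableSpace X] in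
theorem sub_Yw (C : ChartSys d J) (Φ : X → J × (Fin d → ℝ)) (T : X → X) {N N' M : ℕ}
    (h : N' = M * N) (x : X) {i : ℕ} (hi : i < M) :
    sub N (Yw C Φ T N' x) i = Yw C Φ T N (T^[i * N] x) := by
  funext t
  have ht : i * N + t < N' := by
    have h1 := t.2
    have h2 : (i + 1) * N ≤ M * N := Nat.mul_le_mul_right _ hi
    rw [add_mul] at h2
    omega
  simp only [sub, dif_pos ht, Yw]
  rw [← Function.iterate_add_apply, add_comm]

omit [MeasurableSpace X] in
theorem coc_iter (C : ChartSys d J) (Φ : X → J × (Fin d → ℝ)) (T : X → X) (x : X) (j : ℕ) :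
    coc C Φ T (T^[j] x) = fun s => coc C Φ T x (j + s) := by
  funext s
  simp only [coc]
  rw [← Function.iterate_add_apply, add_comm]

theorem integrable_phi [IsFiniteMeasure μ] {C : ChartSys d J} {Φ : X → J × (Fin d → ℝ)}
    (hT : Measurable T) (hAm : ∀ i j, Measurable fun x => C.Am (Φ x) i j) {c : ℝ} {n : ℕ}
    (hc : ∀ x, -c ≤ phi (coc C Φ T x) n) : Integrable (fun x => phi (coc C Φ T x) n) μ := by
  obtain ⟨U, hU⟩ := exists_phi_le d C.A n
  have hm : Measurable fun x => phi (coc C Φ T x) n :=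
    measurable_phi _ (fun s i j => (hAm i j).comp (hT.iterate s)) n
  refine Integrable.of_bound hm.aestronglyMeasurable (max c U) (Eventually.of_forall fun x => ?_)
  rw [Real.norm_eq_abs, abs_le]
  exact ⟨(neg_le_neg (le_max_left _ _)).trans (hc x),
    (hU _ fun s i j => C.Am_le _ i j).trans (le_max_right _ _)⟩

theorem ae_iterate {C : ChartSys d J} {Φ : X → J × (Fin d → ℝ)} (hT : MeasurePreserving T μ μ)
    (hF : ∀ᵐ x ∂μ, Φ (T x) = C.F (Φ x)) : ∀ᵐ x ∂μ, ∀ t, C.F^[t] (Φ x) = Φ (T^[t] x) := by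
  have h : ∀ᵐ x ∂μ, ∀ t, Φ (T (T^[t] x)) = C.F (Φ (T^[t] x)) :=
    ae_all_iff.2 fun t => (hT.iterate t).quasiMeasurePreserving.ae hF
  filter_upwards [h] with x hx t
  induction t with
  | zero => rfl
  | succ t ih => rw [Function.iterate_succ_apply', Function.iterate_succ_apply', hx, ih]

/-- Domination of the law of the label word gives a bound on averages. -/
theorem integral_indicator_le [IsProbabilityMeasure μ] {β : Type} [Fintype β] [MeasurableSpace β]
    [MeasurableSingletonClass β] {Y : X → β} (hY : Measurable Y) {G : Set X}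
    (hG : MeasurableSet G) {ν Z : β → ℝ} {C₂ : ℝ} (hC : 0 ≤ C₂) (hν : ∀ y, 0 ≤ ν y)
    (hZ : ∀ y, 0 ≤ Z y) (hνZ : ∑ y, ν y * Z y ≤ 1)
    (hdom : ∀ y, μ (G ∩ {x | Y x = y}) ≤ ENNReal.ofReal (C₂ * ν y)) :
    ∫ x, G.indicator (fun x => Z (Y x)) x ∂μ ≤ C₂ := by
  classical
  have hm : ∀ y, MeasurableSet (G ∩ {x | Y x = y}) := fun y =>
    hG.inter (hY (measurableSet_singleton y))
  have h1 : (fun x => G.indicator (fun x => Z (Y x)) x) =
      fun x => ∑ y, (G ∩ {x | Y x = y}).indicator (fun _ => Z y) x := by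
    funext x
    by_cases hx : x ∈ G
    · rw [Set.indicator_of_mem hx, sum_eq_single (Y x)]
      · rw [Set.indicator_of_mem (by exact ⟨hx, rfl⟩)]
      · intro y _ hy
        exact Set.indicator_of_notMem (fun h => hy h.2.symm) _
      · simp
    · rw [Set.indicator_of_notMem hx]
      exact (sum_eq_zero fun y _ => Set.indicator_of_notMem (fun h => hx h.1) _).symm
  rw [h1, integral_finsetSum _ fun y _ => (integrable_const _).indicator (hm y)]
  calc _ ≤ ∑ y, C₂ * (ν y * Z y) := by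
        refine sum_le_sum fun y _ => ?_
        rw [integral_indicator_const _ (hm y), smul_eq_mul, ← mul_assoc]
        refine mul_le_mul_of_nonneg_right ?_ (hZ y)
        exact ENNReal.toReal_le_of_le_ofReal (mul_nonneg hC (hν y)) (hdom y)
    _ ≤ C₂ * 1 := by rw [← mul_sum]; exact mul_le_mul_of_nonneg_left hνZ hC
    _ = C₂ := mul_one _

/-- The score at the first level. -/
theorem init_ineq (τ : Tower B μ T) [IsProbabilityMeasure μ] (hT : MeasurePreserving T μ μ)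
    {C : ChartSys d J} {Φ : X → J × (Fin d → ℝ)} (hlab : Measurable fun x => C.lab (Φ x))
    (hsym : μ {x | C.lab (Φ x) ≠ B.name 0 (τ.W 0 x) (τ.P 0 x)} ≤ ENNReal.ofReal (1 / 48))
    (k : ℕ) (hh : 0 ≤ B.h k) {Λ : ℕ → (Fin (B.N k) → Bool) → ℝ}
    (hΛ : ∀ w < B.q k, ∀ y, B.h k * ((B.N k : ℝ) / 6 - ham (B.name k w) y) ≤ Λ w y) :
    B.h k * (7 / 48) * B.N k ≤ τ.E k fun x => Λ (τ.W k x) (Yw C Φ T (B.N k) x) := by
  set S := {x | C.lab (Φ x) ≠ B.name 0 (τ.W 0 x) (τ.P 0 x)} with hS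
  have hSm : MeasurableSet S := by
    have h1 : Measurable fun x => B.name 0 (τ.W 0 x) (τ.P 0 x) :=
      (measurable_of_countable fun p : ℕ × ℕ => B.name 0 p.1 p.2).comp
        ((τ.meas_W 0).prodMk (τ.meas_P 0))
    exact (measurableSet_eq_fun hlab h1).compl
  have hi : Integrable (S.indicator fun _ => (1 : ℝ)) μ := (integrable_const _).indicator hSm
  have hsum : Integrable (fun x => ∑ t ∈ range (B.N k), S.indicator (fun _ => (1 : ℝ)) (T^[t] x)) μ :=
    integrable_finsetSum _ fun t _ => integrable_iter hT hi t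
  have h1 : τ.E k (fun x => B.h k * ((B.N k : ℝ) / 6 -
      ∑ t ∈ range (B.N k), S.indicator (fun _ => (1 : ℝ)) (T^[t] x))) ≤
      τ.E k fun x => Λ (τ.W k x) (Yw C Φ T (B.N k) x) := by
    refine τ.E_mono k (((integrable_const _).sub hsum).const_mul _)
      (τ.integrable_W k (measurable_Yw hT.measurable hlab _) Λ) fun x hx => ?_
    refine le_trans (le_of_eq ?_) (hΛ _ (τ.W_lt k x) _)
    congr 2
    rw [ham, card_filter, ← Fin.sum_univ_eq_sum_range
      (fun t => S.indicator (fun _ => (1 : ℝ)) (T^[t] x))]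
    push_cast
    refine sum_congr rfl fun t _ => ?_
    obtain ⟨h1, h2⟩ := τ.start_iter hx t.2
    have h3 := τ.name_eq (T^[t] x) k
    rw [h1, h2] at h3
    simp only [Set.indicator_apply, hS, Set.mem_ofPred_eq, Yw, h3, ne_comm]
  refine le_trans ?_ h1
  rw [τ.E_const_mul, τ.E_sub k (integrable_const _) hsum, τ.E_const hT, τ.E_sum_orbit hT k hi,
    integral_indicator_const _ hSm, smul_eq_mul, mul_one, mul_assoc]
  refine mul_le_mul_of_nonneg_left ?_ hh
  have h2 : μ.real S ≤ 1 / 48 := ENNReal.toReal_le_of_le_ofReal (by norm_num) hsym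
  have h3 : (0 : ℝ) ≤ B.N k := Nat.cast_nonneg _
  nlinarith

/-- The mean of `phi` per unit time. -/
def aRate (τ : Tower B μ T) (C : ChartSys d J) (Φ : X → J × (Fin d → ℝ)) (c : ℝ) (k : ℕ) : ℝ :=
  (τ.E k (fun x => phi (coc C Φ T x) (B.N k)) + c) / B.N k

/-- The defect of additivity of `phi` on a block of level `k + 1`. -/
def defect (B : Blocks) (C : ChartSys d J) (Φ : X → J × (Fin d → ℝ)) (T : X → X) (c : ℝ) (k : ℕ)
    (x : X) : ℝ :=
  ∑ i ∈ range (B.M k), phi (coc C Φ T (T^[i * B.N k] x)) (B.N k) + (B.M k - 1) * c -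
    phi (coc C Φ T x) (B.N (k + 1))

theorem E_defect (τ : Tower B μ T) [IsProbabilityMeasure μ] (hT : MeasurePreserving T μ μ)
    {C : ChartSys d J} {Φ : X → J × (Fin d → ℝ)} {c : ℝ}
    (hint : ∀ k, Integrable (fun x => phi (coc C Φ T x) (B.N k)) μ) (k : ℕ) :
    Integrable (defect B C Φ T c k) μ ∧
      τ.E (k + 1) (defect B C Φ T c k) =
        B.N (k + 1) * (aRate τ C Φ c k - aRate τ C Φ c (k + 1)) := by
  have h1 : Integrable (fun x => ∑ i ∈ range (B.M k),
      phi (coc C Φ T (T^[i * B.N k] x)) (B.N k)) μ :=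
    integrable_finsetSum _ fun i _ => integrable_iter hT (hint k) _
  have h1' : Integrable (fun x => ∑ i ∈ range (B.M k),
      phi (coc C Φ T (T^[i * B.N k] x)) (B.N k) + (B.M k - 1) * c) μ :=
    h1.add (integrable_const _)
  refine ⟨h1'.sub (hint (k + 1)), ?_⟩
  have hN : (B.N k : ℝ) ≠ 0 := by exact_mod_cast (B.N_pos k).ne'
  have hM : (B.M k : ℝ) ≠ 0 := by
    have := B.two_le_M k
    exact_mod_cast (by omega : B.M k ≠ 0)
  have h2 : (B.N (k + 1) : ℝ) = B.M k * B.N k := by rw [B.N_succ]; push_cast; rfl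
  unfold defect
  rw [τ.E_sub (k + 1) h1' (hint (k + 1)),
    τ.E_add (k + 1) h1 (integrable_const _), τ.E_const hT,
    τ.E_sum_split hT k (g := fun x => phi (coc C Φ T x) (B.N k)) (hint k), aRate, aRate, h2]
  field_simp
  ring

/-- One step of the recursion for the scores. -/
theorem step_ineq (D : Design B) (τ : Tower B μ T) [IsProbabilityMeasure μ]
    (hT : MeasurePreserving T μ μ) {C : ChartSys d J} {Φ : X → J × (Fin d → ℝ)} {Bx c C₂ : ℝ}
    (hlab : Measurable fun x => C.lab (Φ x)) (hAm : ∀ i j, Measurable fun x => C.Am (Φ x) i j)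
    (hF : ∀ᵐ x ∂μ, Φ (T x) = C.F (Φ x)) (hB : ∀ x, ‖(Φ x).2‖ ≤ Bx)
    (hint : ∀ k, Integrable (fun x => phi (coc C Φ T x) (B.N k)) μ) (k : ℕ)
    (hdef : ∀ x, 0 ≤ defect B C Φ T c k x)
    (hgreen : ∀ x, defect B C Φ T c k x ≤ B.L (k + 1) / (16 * (d + 1)) →
      Green (coc C Φ T x) (B.N (k + 1) - 1) (B.Gam d k))
    (hC₂ : 0 ≤ C₂) {ν : (Fin (B.N (k + 1)) → Bool) → ℝ} (hν : ν ∈ Mod (B.N (k + 1)) (D.m (k + 1)))
    (hdom : ∀ y, μ {x | C.Good Bx (B.N (k + 1)) (B.Gam d k) (Φ x) ∧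
      ∀ t : Fin (B.N (k + 1)), C.lab (C.F^[t] (Φ x)) = y t} ≤ ENNReal.ofReal (C₂ * ν y))
    (hreg : (B.N (k + 1) : ℝ) * μ.real {x | ¬ C.Reg (Φ x) (B.Gam d k)⁻¹} ≤ 1 / 96)
    (hk : 288 ≤ k) {Λ : ℕ → (Fin (B.N k) → Bool) → ℝ} (hΛ : Λ ∈ D.fam k) :
    ∃ Λ' ∈ D.fam (k + 1),
      B.M k * τ.E k (fun x => Λ (τ.W k x) (Yw C Φ T (B.N k) x)) - 4 * B.M k - C₂ -
        (B.h k - B.h (k + 1)) * B.N (k + 1) / 48 -
        16 * (d + 1) / (2 * k + 3) * (B.N (k + 1) * (aRate τ C Φ c k - aRate τ C Φ c (k + 1))) ≤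
      τ.E (k + 1) fun x => Λ' (τ.W (k + 1) x) (Yw C Φ T (B.N (k + 1)) x) := by
  obtain ⟨Λ', hΛ', Bad, Z, hBad, hZ0, hZ1, hpt⟩ := D.step k Λ hΛ ν hν
  refine ⟨Λ', hΛ', ?_⟩
  have hN' : (0 : ℝ) < B.N (k + 1) := by exact_mod_cast B.N_pos (k + 1)
  have hq' : (0 : ℝ) < B.q (k + 1) := by exact_mod_cast B.q_pos (k + 1)
  have hh' := D.h_pos (k + 1)
  have hL' : B.L (k + 1) = B.h (k + 1) * B.N (k + 1) := B.L_eq (k + 1)
  set thr : ℝ := B.L (k + 1) / (16 * (d + 1)) with hthr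
  have hthr0 : 0 < thr := by rw [hthr, hL']; positivity
  set gap : ℝ := (B.h k - B.h (k + 1)) * B.N (k + 1) with hgap
  have hgap0 : 0 ≤ gap := mul_nonneg (D.gap_nonneg k) hN'.le
  set RB := toMeasurable μ {x | ¬ C.Reg (Φ x) (B.Gam d k)⁻¹} with hRB
  have hRBm : MeasurableSet RB := measurableSet_toMeasurable _ _
  obtain ⟨hΔi, hΔE⟩ := E_defect τ hT (c := c) hint k
  have hΔm : Measurable (defect B C Φ T c k) := by
    have hm : ∀ n, Measurable fun x => phi (coc C Φ T x) n := fun n =>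
      measurable_phi _ (fun s i j => (hAm i j).comp (hT.measurable.iterate s)) n
    exact ((Finset.measurable_sum _ fun i _ =>
      (hm (B.N k)).comp (hT.measurable.iterate _)).add measurable_const).sub (hm _)
  set G : Set X := {x | defect B C Φ T c k x ≤ thr} ∩ ⋂ t ∈ range (B.N (k + 1)), T^[t] ⁻¹' RBᶜ
    with hG
  have hGm : MeasurableSet G := (measurableSet_le hΔm measurable_const).inter
    (Finset.measurableSet_biInter _ fun t _ => hT.measurable.iterate t hRBm.compl)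
  have hY := measurable_Yw (C := C) (Φ := Φ) hT.measurable hlab
  -- the averaged error terms
  have hdom' : ∀ y, μ (G ∩ {x | Yw C Φ T (B.N (k + 1)) x = y}) ≤ ENNReal.ofReal (C₂ * ν y) := by
    intro y
    refine le_trans (measure_mono_ae ?_) (hdom y)
    filter_upwards [ae_iterate hT hF] with x hx hxG
    obtain ⟨⟨h1, h2⟩, h3⟩ := hxG
    refine ⟨⟨fun t ht => ?_, ?_⟩, fun t => ?_⟩
    · rw [hx]
      refine ⟨hB _, ?_⟩
      by_contra hcon
      exact Set.mem_iInter₂.1 h2 t (mem_range.2 ht) (subset_toMeasurable _ _ hcon)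
    · have : (fun s => C.Am (C.F^[s] (Φ x))) = coc C Φ T x := by
        funext s; rw [hx]; rfl
      rw [this]
      exact hgreen x h1
    · rw [hx, ← h3]; rfl
  have iZ : Integrable (G.indicator fun x => Z (Yw C Φ T (B.N (k + 1)) x)) μ :=
    (τ.integrable_W 0 (hY _) fun _ y => Z y).indicator hGm
  have eZ : τ.E (k + 1) (G.indicator fun x => Z (Yw C Φ T (B.N (k + 1)) x)) ≤
      B.N (k + 1) * C₂ :=
    (τ.E_le_integral _ iZ fun x => Set.indicator_nonneg (fun _ _ => hZ0 _) x).trans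
      (mul_le_mul_of_nonneg_left
        (integral_indicator_le (hY _) hGm hC₂ (mod_nonneg hν) hZ0 hZ1 hdom') hN'.le)
  have iB : Integrable (fun x => if τ.W (k + 1) x ∈ Bad then (1 : ℝ) else 0) μ :=
    τ.integrable_W (k + 1) (hY 0) fun w _ => if w ∈ Bad then 1 else 0
  have eB : τ.E (k + 1) (fun x => if τ.W (k + 1) x ∈ Bad then (1 : ℝ) else 0) ≤ 1 / 96 := by
    refine (τ.E_indicator_W (k + 1) Bad).trans ?_
    rw [div_le_div_iff₀ hq' (by norm_num)]
    have h1 : (#Bad : ℝ) * (k + 1) ≤ 3 * B.q (k + 1) := by exact_mod_cast hBad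
    have h2 : (288 : ℝ) ≤ k := by exact_mod_cast hk
    have h3 : (0 : ℝ) ≤ #Bad := Nat.cast_nonneg _
    nlinarith
  have iR0 : Integrable (RB.indicator fun _ => (1 : ℝ)) μ := (integrable_const _).indicator hRBm
  have iR : Integrable (fun x => ∑ t ∈ range (B.N (k + 1)),
      RB.indicator (fun _ => (1 : ℝ)) (T^[t] x)) μ :=
    integrable_finsetSum _ fun t _ => integrable_iter hT iR0 t
  have eR : τ.E (k + 1) (fun x => ∑ t ∈ range (B.N (k + 1)),
      RB.indicator (fun _ => (1 : ℝ)) (T^[t] x)) ≤ 1 / 96 := by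
    rw [τ.E_sum_orbit hT _ iR0, integral_indicator_const _ hRBm, smul_eq_mul, mul_one,
      measureReal_def, hRB, measure_toMeasurable]
    exact hreg
  have iS0 := τ.integrable_W k (hY (B.N k)) Λ
  have iS : Integrable (fun x => ∑ i ∈ range (B.M k),
      Λ (τ.W k (T^[i * B.N k] x)) (Yw C Φ T (B.N k) (T^[i * B.N k] x))) μ :=
    integrable_finsetSum _ fun i _ => integrable_iter hT iS0 _
  have eS := τ.E_sum_split hT k iS0
  -- the pointwise inequality
  have i1 : Integrable (fun x => (if τ.W (k + 1) x ∈ Bad then (1 : ℝ) else 0) +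
      ∑ t ∈ range (B.N (k + 1)), RB.indicator (fun _ => (1 : ℝ)) (T^[t] x)) μ := iB.add iR
  have i2 : Integrable (fun x => thr⁻¹ * defect B C Φ T c k x) μ := hΔi.const_mul _
  have i3 : Integrable (fun x => ((if τ.W (k + 1) x ∈ Bad then (1 : ℝ) else 0) +
      ∑ t ∈ range (B.N (k + 1)), RB.indicator (fun _ => (1 : ℝ)) (T^[t] x)) +
      thr⁻¹ * defect B C Φ T c k x) μ := i1.add i2
  have i4 : Integrable (fun x => ∑ i ∈ range (B.M k),
      Λ (τ.W k (T^[i * B.N k] x)) (Yw C Φ T (B.N k) (T^[i * B.N k] x)) - 4 * B.M k) μ :=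
    iS.sub (integrable_const _)
  have i5 : Integrable (fun x => gap * (((if τ.W (k + 1) x ∈ Bad then (1 : ℝ) else 0) +
      ∑ t ∈ range (B.N (k + 1)), RB.indicator (fun _ => (1 : ℝ)) (T^[t] x)) +
      thr⁻¹ * defect B C Φ T c k x)) μ := i3.const_mul _
  have i6 : Integrable (fun x => (B.N (k + 1) : ℝ)⁻¹ *
      G.indicator (fun x => Z (Yw C Φ T (B.N (k + 1)) x)) x) μ := iZ.const_mul _
  have i7 : Integrable (fun x => ∑ i ∈ range (B.M k),
      Λ (τ.W k (T^[i * B.N k] x)) (Yw C Φ T (B.N k) (T^[i * B.N k] x)) - 4 * B.M k -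
      gap * (((if τ.W (k + 1) x ∈ Bad then (1 : ℝ) else 0) +
      ∑ t ∈ range (B.N (k + 1)), RB.indicator (fun _ => (1 : ℝ)) (T^[t] x)) +
      thr⁻¹ * defect B C Φ T c k x)) μ := i4.sub i5
  have hmono := τ.E_mono (k + 1) (f := fun x => ∑ i ∈ range (B.M k),
      Λ (τ.W k (T^[i * B.N k] x)) (Yw C Φ T (B.N k) (T^[i * B.N k] x)) - 4 * B.M k -
      gap * (((if τ.W (k + 1) x ∈ Bad then (1 : ℝ) else 0) +
      ∑ t ∈ range (B.N (k + 1)), RB.indicator (fun _ => (1 : ℝ)) (T^[t] x)) +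
      thr⁻¹ * defect B C Φ T c k x) - (B.N (k + 1) : ℝ)⁻¹ *
      G.indicator (fun x => Z (Yw C Φ T (B.N (k + 1)) x)) x) (i7.sub i6)
      (τ.integrable_W (k + 1) (hY (B.N (k + 1))) Λ') fun x hx => by
    obtain ⟨p1, p2⟩ := hpt _ (τ.W_lt (k + 1) x) (Yw C Φ T (B.N (k + 1)) x)
    have hs : ∑ i ∈ range (B.M k), Λ (B.word k (τ.W (k + 1) x) i)
        (sub (B.N k) (Yw C Φ T (B.N (k + 1)) x) i) = ∑ i ∈ range (B.M k),
        Λ (τ.W k (T^[i * B.N k] x)) (Yw C Φ T (B.N k) (T^[i * B.N k] x)) :=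
      sum_congr rfl fun i hi => by
        rw [τ.sub_start hx (mem_range.1 hi), sub_Yw C Φ T (B.N_succ k) x (mem_range.1 hi)]
    rw [hs] at p1 p2
    have n1 : 0 ≤ (if τ.W (k + 1) x ∈ Bad then (1 : ℝ) else 0) := by split_ifs <;> norm_num
    have n2' : ∀ t, 0 ≤ RB.indicator (fun _ => (1 : ℝ)) (T^[t] x) := fun t =>
      Set.indicator_nonneg (fun _ _ => zero_le_one) _
    have n2 : 0 ≤ ∑ t ∈ range (B.N (k + 1)), RB.indicator (fun _ => (1 : ℝ)) (T^[t] x) :=
      sum_nonneg fun t _ => n2' t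
    have n3 : 0 ≤ thr⁻¹ * defect B C Φ T c k x := mul_nonneg (inv_nonneg.2 hthr0.le) (hdef x)
    have n4 : 0 ≤ (B.N (k + 1) : ℝ)⁻¹ *
        G.indicator (fun x => Z (Yw C Φ T (B.N (k + 1)) x)) x :=
      mul_nonneg (inv_nonneg.2 hN'.le) (Set.indicator_nonneg (fun _ _ => hZ0 _) x)
    by_cases hgood : x ∈ G ∧ τ.W (k + 1) x ∉ Bad
    · have p3 := p2 hgood.2
      rw [Set.indicator_of_mem hgood.1]
      rw [div_eq_inv_mul] at p3
      have := mul_nonneg hgap0 (add_nonneg (add_nonneg n1 n2) n3)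
      linarith
    · have hone : 1 ≤ ((if τ.W (k + 1) x ∈ Bad then (1 : ℝ) else 0) +
          ∑ t ∈ range (B.N (k + 1)), RB.indicator (fun _ => (1 : ℝ)) (T^[t] x)) +
          thr⁻¹ * defect B C Φ T c k x := by
        by_cases hb : τ.W (k + 1) x ∈ Bad
        · rw [if_pos hb]; linarith
        · have hxG : x ∉ G := fun h => hgood ⟨h, hb⟩
          by_cases hd : defect B C Φ T c k x ≤ thr
          · have : ∃ t ∈ range (B.N (k + 1)), T^[t] x ∈ RB := by
              by_contra hcon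
              push Not at hcon
              exact hxG ⟨hd, Set.mem_iInter₂.2 fun t ht => hcon t ht⟩
            obtain ⟨t, ht, hmem⟩ := this
            have h1 := single_le_sum (f := fun t => RB.indicator (fun _ => (1 : ℝ)) (T^[t] x))
              (fun t _ => n2' t) ht
            simp only [Set.indicator_of_mem hmem] at h1
            linarith
          · have h1 : 1 ≤ thr⁻¹ * defect B C Φ T c k x := by
              rw [← div_eq_inv_mul, le_div_iff₀ hthr0]; linarith [not_le.1 hd]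
            linarith
      have := mul_le_mul_of_nonneg_left hone hgap0
      linarith
  refine le_trans ?_ hmono
  rw [τ.E_sub _ i7 i6, τ.E_sub _ i4 i5, τ.E_sub _ iS (integrable_const _), τ.E_const hT,
    τ.E_const_mul, τ.E_const_mul, τ.E_add _ i1 i2, τ.E_add _ iB iR, τ.E_const_mul, hΔE]
  have f1 : (B.N (k + 1) : ℝ)⁻¹ *
      τ.E (k + 1) (G.indicator fun x => Z (Yw C Φ T (B.N (k + 1)) x)) ≤ C₂ := by
    rw [← div_eq_inv_mul, div_le_iff₀ hN']; linarith
  have f2 : gap * thr⁻¹ = 16 * (d + 1) / (2 * k + 3) := by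
    rw [hgap, D.gap_eq, hthr, hL']; field_simp
  have f3 := mul_le_mul_of_nonneg_left (add_le_add eB eR) hgap0
  have f4 : gap * (thr⁻¹ * (B.N (k + 1) * (aRate τ C Φ c k - aRate τ C Φ c (k + 1)))) =
      16 * (d + 1) / (2 * k + 3) *
        (B.N (k + 1) * (aRate τ C Φ c k - aRate τ C Φ c (k + 1))) := by
    rw [← mul_assoc, f2]
  have eS' : τ.E (k + 1) (fun x => ∑ i ∈ range (B.M k),
      Λ (τ.W k (T^[i * B.N k] x)) (Yw C Φ T (B.N k) (T^[i * B.N k] x))) =
      B.M k * τ.E k (fun x => Λ (τ.W k x) (Yw C Φ T (B.N k) x)) := eS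
  rw [eS', mul_add gap, f4]
  linarith

/-- The block system has no piecewise smooth model. -/
theorem no_chart_model (D : Design B) (τ : Tower B μ T) [IsProbabilityMeasure μ]
    (hT : MeasurePreserving T μ μ) [Fintype J] (C : ChartSys d J)
    (Φ : X → J × (Fin d → ℝ)) (Bx : ℝ) (Cden : ℝ≥0)
    (hlab : Measurable fun x => C.lab (Φ x)) (hAm : ∀ i j, Measurable fun x => C.Am (Φ x) i j)
    (hF : ∀ᵐ x ∂μ, Φ (T x) = C.F (Φ x)) (hB : ∀ x, ‖(Φ x).2‖ ≤ Bx)
    (hden : ∀ j U, MeasurableSet U → μ {x | (Φ x).1 = j ∧ (Φ x).2 ∈ U} ≤ Cden * volume U)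
    (hsym : μ {x | C.lab (Φ x) ≠ B.name 0 (τ.W 0 x) (τ.P 0 x)} ≤ ENNReal.ofReal (1 / 48))
    (hreg : Tendsto (fun k => (B.N (k + 1) : ℝ≥0∞) * μ {x | ¬ C.Reg (Φ x) (B.Gam d k)⁻¹})
      atTop (𝓝 0)) : False := by
  obtain ⟨c, K, hc, hK, hgr⟩ := exists_green_const d C.one_le_A
  obtain ⟨C₁, C₂, hC₁, hC₂, hmod⟩ := exists_model C Bx Cden
  have hbd : ∀ x s i j, |coc C Φ T x s i j| ≤ C.A := fun x s i j => C.Am_le _ i j
  have hlow : ∀ k x, -c ≤ phi (coc C Φ T x) (B.N k) := fun k x =>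
    (hgr _ (hbd x)).1 _ (B.N_pos k)
  have hint : ∀ k, Integrable (fun x => phi (coc C Φ T x) (B.N k)) μ := fun k =>
    integrable_phi hT.measurable hAm (hlow k)
  have hM1 : ∀ k, 1 ≤ B.M k := fun k => le_trans one_le_two (B.two_le_M k)
  have hdefeq : ∀ k x, defect B C Φ T c k x = ∑ i ∈ range (B.M k),
      phi (fun s => coc C Φ T x (i * B.N k + s)) (B.N k) + (B.M k - 1) * c -
        phi (coc C Φ T x) (B.M k * B.N k) := fun k x => by
    simp only [defect, coc_iter, B.N_succ]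
  have hdef : ∀ k x, 0 ≤ defect B C Φ T c k x := fun k x => by
    rw [hdefeq, sub_nonneg]
    exact ((hgr _ (hbd x)).2 _ _ (B.N_pos k) (hM1 k)).1
  have hNpos : ∀ k, (0 : ℝ) < B.N k := fun k => by exact_mod_cast B.N_pos k
  have ha0 : ∀ k, 0 ≤ aRate τ C Φ c k := fun k => by
    have h1 := τ.E_mono k (integrable_const (-c)) (hint k) fun x _ => hlow k x
    rw [τ.E_const hT] at h1
    exact div_nonneg (by linarith) (hNpos k).le
  have hastep : ∀ k, 0 ≤ aRate τ C Φ c k - aRate τ C Φ c (k + 1) := fun k => by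
    obtain ⟨h1, h2⟩ := E_defect τ hT (c := c) hint k
    have h3 := τ.E_mono (k + 1) (integrable_const 0) h1 fun x _ => hdef k x
    rw [τ.E_const hT, h2] at h3
    exact nonneg_of_mul_nonneg_right h3 (hNpos (k + 1))
  have hale : ∀ k, aRate τ C Φ c k ≤ aRate τ C Φ c 0 := fun k => by
    induction k with
    | zero => exact le_rfl
    | succ k ih => linarith [hastep k]
  have hreg' : ∀ᶠ k in atTop,
      (B.N (k + 1) : ℝ) * μ.real {x | ¬ C.Reg (Φ x) (B.Gam d k)⁻¹} ≤ 1 / 96 := by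
    filter_upwards [hreg.eventually (ge_mem_nhds (show (0 : ℝ≥0∞) < ENNReal.ofReal (1 / 96) by
      norm_num))] with k hk
    have := ENNReal.toReal_le_of_le_ofReal (by norm_num) hk
    rwa [ENNReal.toReal_mul, ENNReal.toReal_natCast] at this
  obtain ⟨k₁, hk₁⟩ := eventually_atTop.1 ((D.eventually_states d hC₁).and
    ((D.eventually_green d hK).and (hreg'.and ((eventually_ge_atTop 288).and
    ((D.eventually_le_L (48 * (8 + 2 * C₂))).and
    (D.eventually_le_mul_h (48 * (16 * (d + 1)) * aRate τ C Φ c 0)))))))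
  have key : ∀ k, k₁ ≤ k → ∃ Λ ∈ D.fam k,
      (B.h k₁ * (7 / 48) - (4 + C₂) * (2 / B.N k₁ - 2 / B.N k) - (B.h k₁ - B.h k) / 48 -
        16 * (d + 1) / (2 * k₁ + 3) * (aRate τ C Φ c k₁ - aRate τ C Φ c k)) * B.N k ≤
        τ.E k fun x => Λ (τ.W k x) (Yw C Φ T (B.N k) x) := by
    intro k hk
    induction k, hk using Nat.le_induction with
    | base =>
      obtain ⟨Λ, hΛ, h⟩ := D.init k₁
      refine ⟨Λ, hΛ, le_trans (le_of_eq ?_) (init_ineq τ hT hlab hsym k₁ (D.h_pos k₁).le h)⟩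
      ring
    | succ k hk ih =>
      obtain ⟨Λ, hΛ, ih⟩ := ih
      obtain ⟨e1, e2, e3, e4, -, -⟩ := hk₁ k hk
      have hN2 : 2 ≤ B.N (k + 1) := by
        rw [B.N_succ]; exact le_trans (B.two_le_M k) (Nat.le_mul_of_pos_right _ (B.N_pos k))
      obtain ⟨ν, hν, hdom⟩ := hmod μ Φ hden _ _ _ hN2 (B.one_le_Gam d k) e1
      have hcast : (B.N (k + 1) : ℝ) = B.M k * B.N k := by rw [B.N_succ]; push_cast; rfl
      obtain ⟨Λ', hΛ', h⟩ := step_ineq D τ hT hlab hAm hF hB hint k (hdef k) (fun x hx => by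
        rw [hdefeq] at hx
        have h1 := ((hgr _ (hbd x)).2 _ _ (B.N_pos k) (hM1 k)).2 _ hx
        rw [← B.N_succ, ← hcast] at h1
        exact h1.mono e2) hC₂ hν hdom e3 e4 hΛ
      refine ⟨Λ', hΛ', le_trans ?_ h⟩
      have hM2 : (2 : ℝ) ≤ B.M k := by exact_mod_cast B.two_le_M k
      have hN := hNpos k
      have g1 := mul_le_mul_of_nonneg_left ih (by linarith : (0 : ℝ) ≤ B.M k)
      have g2 : 16 * (d + 1 : ℝ) / (2 * k + 3) ≤ 16 * (d + 1) / (2 * k₁ + 3) := by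
        refine div_le_div_of_nonneg_left (by positivity) (by positivity) ?_
        have : (k₁ : ℝ) ≤ k := by exact_mod_cast hk
        linarith
      have g3 := mul_le_mul_of_nonneg_right g2 (mul_nonneg (hNpos (k + 1)).le (hastep k))
      have g4 : (2 / B.N k - 2 / B.N (k + 1) : ℝ) * B.N (k + 1) = 2 * B.M k - 2 := by
        rw [hcast]; field_simp
      have g5 : 4 * B.M k + C₂ ≤ (4 + C₂) * ((2 / B.N k - 2 / B.N (k + 1) : ℝ) * B.N (k + 1)) := by
        rw [g4]; nlinarith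
      rw [← mul_assoc, mul_comm (B.M k : ℝ) _, mul_assoc, ← hcast] at g1
      linarith
  obtain ⟨-, -, -, -, e5, e6⟩ := hk₁ k₁ le_rfl
  have hh := D.h_pos k₁
  obtain ⟨k, hk1, hk2⟩ := ((eventually_ge_atTop k₁).and
    (D.tendsto_h.eventually (gt_mem_nhds (show 0 < B.h k₁ / 12 by positivity)))).exists
  obtain ⟨Λ, hΛ, h⟩ := key k hk1
  have h1 := τ.E_mono k (τ.integrable_W k (measurable_Yw (C := C) (Φ := Φ) hT.measurable hlab _) Λ)
    (integrable_const (B.L k)) fun x _ => D.top k Λ hΛ _ (τ.W_lt k x) _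
  rw [τ.E_const hT, B.L_eq] at h1
  have h2 := le_of_mul_le_mul_right (h.trans h1) (hNpos k)
  have h3 : (4 + C₂) * (2 / B.N k₁ - 2 / B.N k) ≤ B.h k₁ / 48 := by
    have h4 : (0 : ℝ) ≤ 2 / B.N k := by have := hNpos k; positivity
    have h5 : (4 + C₂) * (2 / B.N k₁) ≤ B.h k₁ / 48 := by
      rw [B.L_eq] at e5
      rw [← mul_div_assoc, div_le_iff₀ (hNpos k₁)]
      linarith
    nlinarith
  have h6 : 16 * (d + 1) / (2 * k₁ + 3) * (aRate τ C Φ c k₁ - aRate τ C Φ c k) ≤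
      B.h k₁ / 48 := by
    have h7 : aRate τ C Φ c k₁ - aRate τ C Φ c k ≤ aRate τ C Φ c 0 := by
      linarith [hale k₁, ha0 k]
    refine (mul_le_mul_of_nonneg_left h7 (by positivity)).trans ?_
    rw [div_mul_eq_mul_div, div_le_iff₀ (by positivity)]
    linarith
  linarith [D.h_pos k]

end

end Crest.Agent.R133
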