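import Crest.Agent.R133.Main
import Crest.Agent.R133.Charts

/-!
# Row 133: no smooth model
-/

open MeasureTheory Filter
open scoped Topology ENNReal NNReal Manifold ContDiff

namespace Crest.Agent.R133

variable {B : Blocks} {X : Type} [MeasurableSpace X] {μ : Measure X} {T : X → X}

theorem not_conjugate (D : Design B) (τ : Tower B μ T) [IsProbabilityMeasure μ]
    (hT : MeasurePreserving T μ μ) {d : ℕ} {H : Type} [TopologicalSpace H]
    (I : ModelWithCorners ℝ (EuclideanSpace ℝ (Fin d)) H)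
    (hI : ∀ R : ℝ, ∃ K : ℝ≥0, ∀ ρ : ℝ, 0 < ρ →
      volume {v : EuclideanSpace ℝ (Fin d) | ‖v‖ ≤ R ∧ v ∈ Set.range I ∧
        ¬ Metric.closedBall v ρ ⊆ interior (Set.range I)} ≤ K * ENNReal.ofReal ρ)
    {M : Type} [TopologicalSpace M] [T2Space M] [CompactSpace M] [ChartedSpace H M]
    [IsManifold I ∞ M] [MeasurableSpace M] [BorelSpace M] (ν : Measure M)
    [IsProbabilityMeasure ν] (hν : Crest.AnalysisR.HasSmoothPositiveDensity I ν) (S : M → M)
    (hS : ContMDiff I I ∞ S) (hSν : MeasurePreserving S ν ν) :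
    ¬ Crest.AnalysisR.AreMeasConjugate μ T ν S := by
  rintro ⟨X₀, M₀, F, G, -, -, hX₀, -, -, -, hF, hG, -, hGF, hmap, hcomm⟩
  have hsym0 : Measurable fun x => B.name 0 (τ.W 0 x) (τ.P 0 x) :=
    (measurable_of_countable fun p : ℕ × ℕ => B.name 0 p.1 p.2).comp
      ((τ.meas_W 0).prodMk (τ.meas_P 0))
  obtain ⟨J, hJ, C, Φ, Bx, Cden, h1, h2, h3, h4, h5, h6, h7⟩ :=
    exists_chartSys I hI ν hν S hS hSν (fun y => B.name 0 (τ.W 0 (G y)) (τ.P 0 (G y)))
      (hsym0.comp hG) (ε := 1 / 48) (by norm_num) (fun k => B.N (k + 1))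
      (fun k => B.N_pos (k + 1)) (fun k => (B.Gam d k)⁻¹)
      (fun k => inv_pos.2 (lt_of_lt_of_le one_pos (B.one_le_Gam d k))) (D.summable_Gam d)
  have hle : ∀ s : Set M, μ (F ⁻¹' s) ≤ ν s := fun s => by
    rw [← hmap]; exact Measure.le_map_apply hF.aemeasurable s
  have hae : ∀ᵐ x ∂μ, x ∈ X₀ := hX₀
  refine no_chart_model D τ hT C (fun x => Φ (F x)) Bx Cden (h1.comp hF)
    (fun i j => (h2 i j).comp hF) ?_ (fun x => h4 _)
    (fun j U hU => (hle {y | (Φ y).1 = j ∧ (Φ y).2 ∈ U}).trans (h5 j U hU)) ?_ ?_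
  · filter_upwards [hae] with x hx
    rw [hcomm x hx, h3]
  · refine le_trans (measure_mono_ae ?_) ((hle _).trans h6)
    filter_upwards [hae] with x hx h
    change C.lab (Φ (F x)) ≠ B.name 0 (τ.W 0 (G (F x))) (τ.P 0 (G (F x)))
    rw [hGF x hx]
    exact h
  · refine tendsto_of_tendsto_of_tendsto_of_le_of_le tendsto_const_nhds h7
      (fun _ => zero_le) fun k => ?_
    exact mul_le_mul_right (hle {y | ¬ C.Reg (Φ y) (B.Gam d k)⁻¹}) _

theorem noSmoothModel (D : Design B) (τ : Tower B μ T) [IsProbabilityMeasure μ]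
    (hT : MeasurePreserving T μ μ) : Crest.AnalysisR.NoSmoothPositiveVolumeModel μ T := by
  constructor
  · intro d M _ _ _ _ _ _ _ ν S hp hν hS
    exact not_conjugate D τ hT (𝓡 d) (thin_boundary_self d) ν hν S S.contMDiff hS
  · intro d M _ _ _ _ _ _ _ ν S hp hν hS
    exact not_conjugate D τ hT (𝓡∂ (d + 1)) (thin_boundary_halfSpace d) ν hν S S.contMDiff hS

end Crest.Agent.R133
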