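import Crest.Agent.R133.TowerA

/-!
# Row 133: existence of the block system
-/

open MeasureTheory Finset Filter
open scoped Matrix Topology ENNReal NNReal

namespace Crest.Agent.R133

noncomputable section

namespace TowerA

variable (B : Blocks)

/-- the number of occurrences of a block in a word -/
def R (k : ℕ) : ℕ := B.M k / B.q k

theorem card_occ (k w c : ℕ) (hw : w < B.q (k + 1)) (hc : c < B.q k) :
    #{i ∈ range (B.M k) | B.word k w i = c} = R B k := by
  exact (Nat.div_eq_of_eq_mul_left (B.q_pos k) (B.balanced k w c hw hc).symm).symm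

theorem R_mul (k : ℕ) : R B k * B.q k = B.M k := by
  rw [← card_occ B k 0 0 (B.q_pos _) (B.q_pos _)]
  exact B.balanced k 0 0 (B.q_pos _) (B.q_pos _)

theorem card_fiber (k : ℕ) {c : ℕ × ℕ} (hc : c ∈ St B k) :
    #{s ∈ St B (k + 1) | up B k s = c} = B.q (k + 1) * R B k := by
  obtain ⟨hc1, hc2⟩ := (mem_St B).1 hc
  have hN := B.N_pos k
  have h1 : #{s ∈ St B (k + 1) | up B k s = c} =
      #((range (B.q (k + 1))).sigma fun w => {i ∈ range (B.M k) | B.word k w i = c.1}) := by
    symm
    refine Finset.card_bij (fun p _ => (p.1, p.2 * B.N k + c.2)) ?_ ?_ ?_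
    · rintro ⟨w, i⟩ hp
      simp only [Finset.mem_sigma, Finset.mem_range, Finset.mem_filter] at hp
      obtain ⟨hw, hi, hwi⟩ := hp
      have e1 : (i * B.N k + c.2) / B.N k = i := by
        rw [mul_comm, Nat.mul_add_div hN, Nat.div_eq_of_lt hc2, add_zero]
      have e2 : (i * B.N k + c.2) % B.N k = c.2 := by
        rw [mul_comm, Nat.mul_add_mod, Nat.mod_eq_of_lt hc2]
      refine Finset.mem_filter.2 ⟨(mem_St B).2 ⟨hw, ?_⟩, ?_⟩
      · show i * B.N k + c.2 < B.N (k + 1)
        rw [B.N_succ]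
        have : (i + 1) * B.N k ≤ B.M k * B.N k := Nat.mul_le_mul_right _ hi
        rw [add_mul, one_mul] at this
        omega
      · simp only [up, e1, e2, hwi]
    · rintro ⟨w, i⟩ _ ⟨w', i'⟩ _ h
      simp only [Prod.mk.injEq, add_left_inj] at h
      obtain ⟨rfl, h⟩ := h
      have := Nat.eq_of_mul_eq_mul_right hN h
      subst this
      rfl
    · rintro ⟨w, t⟩ hs
      obtain ⟨hs1, hs2⟩ := Finset.mem_filter.1 hs
      obtain ⟨hw, ht⟩ := (mem_St B).1 hs1
      refine ⟨⟨w, t / B.N k⟩, ?_, ?_⟩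
      · simp only [Finset.mem_sigma, Finset.mem_range, Finset.mem_filter]
        refine ⟨hw, ?_, congrArg Prod.fst hs2⟩
        rw [Nat.div_lt_iff_lt_mul hN, ← B.N_succ]
        exact ht
      · have h2 : t % B.N k = c.2 := congrArg Prod.snd hs2
        simp only [← h2, Prod.mk.injEq, true_and]
        exact Nat.div_add_mod' t (B.N k)
  rw [h1, Finset.card_sigma, Finset.sum_congr rfl fun w hw =>
    card_occ B k w c.1 (Finset.mem_range.1 hw) hc1]
  simp

/-- the sizes of the digits -/
def dg : ℕ → ℕ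
  | 0 => B.q 0 * B.N 0
  | k + 1 => B.q (k + 1) * R B k

theorem prod_dg (k : ℕ) : ∏ j ∈ range (k + 1), dg B j = B.q k * B.N k := by
  induction k with
  | zero => simp [dg]
  | succ k ih =>
    rw [Finset.prod_range_succ, ih, B.N_succ, ← R_mul, dg]
    ring

theorem dg_pos (k : ℕ) : 0 < dg B k := by
  have h := prod_dg B k
  rw [Finset.prod_range_succ] at h
  have h2 := Nat.mul_pos (B.q_pos k) (B.N_pos k)
  rw [← h] at h2
  exact Nat.pos_of_mul_pos_left h2

instance (k : ℕ) : Nonempty (Fin (dg B k)) := ⟨⟨0, dg_pos B k⟩⟩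

theorem exists_enum {α : Type*} [Inhabited α] (F : Finset α) {n : ℕ} (h : #F = n) :
    ∃ e : Fin n → α, Function.Injective e ∧ ∀ s, s ∈ F ↔ ∃ j, e j = s := by
  have e := (Finset.equivFinOfCardEq h).symm
  refine ⟨fun j => (e j).1, Subtype.val_injective.comp e.injective, fun s => ⟨fun hs => ?_, ?_⟩⟩
  · exact ⟨e.symm ⟨s, hs⟩, by simp⟩
  · rintro ⟨j, rfl⟩; exact (e j).2

theorem exists_digits : ∃ a : (∀ j, Fin (dg B j)) → ℕ → ℕ × ℕ, Measurable a ∧
    (∀ ω, Compat B (a ω)) ∧ ∀ k, ∀ s ∈ St B k, ∃ d : ∀ j, Fin (dg B j),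
      ∀ ω, a ω k = s ↔ ∀ j ∈ range (k + 1), ω j = d j := by
  obtain ⟨e₀, he₀, he₀'⟩ := exists_enum (St B 0) (n := dg B 0) (card_St B 0)
  have h1 : ∀ k (c : ℕ × ℕ), ∃ e : Fin (dg B (k + 1)) → ℕ × ℕ, c ∈ St B k →
      (Function.Injective e ∧ ∀ s, (s ∈ St B (k + 1) ∧ up B k s = c) ↔ ∃ j, e j = s) := by
    intro k c
    by_cases hc : c ∈ St B k
    · obtain ⟨e, he, he'⟩ := exists_enum _ (n := dg B (k + 1)) (card_fiber B k hc)
      exact ⟨e, fun _ => ⟨he, fun s => by rw [← he', Finset.mem_filter]⟩⟩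
    · exact ⟨fun _ => (0, 0), fun h => absurd h hc⟩
  choose e he using h1
  let a : (∀ j, Fin (dg B j)) → ℕ → ℕ × ℕ := fun ω k =>
    Nat.rec (e₀ (ω 0)) (fun k c => e k c (ω (k + 1))) k
  have ha0 : ∀ ω, a ω 0 = e₀ (ω 0) := fun _ => rfl
  have has : ∀ ω k, a ω (k + 1) = e k (a ω k) (ω (k + 1)) := fun _ _ => rfl
  have hmem : ∀ ω k, a ω k ∈ St B k := by
    intro ω k
    induction k with
    | zero => exact (he₀' _).2 ⟨_, rfl⟩
    | succ k ih => exact (((he k _ ih).2 _).2 ⟨_, rfl⟩).1
  have hup : ∀ ω, Compat B (a ω) := fun ω k =>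
    (((he k _ (hmem ω k)).2 _).2 ⟨_, rfl⟩).2.symm
  refine ⟨a, measurable_pi_lambda _ fun k => ?_, hup, fun k => ?_⟩
  · induction k with
    | zero => exact (measurable_of_countable e₀).comp (measurable_pi_apply 0)
    | succ k ih =>
      exact (measurable_of_countable (fun p : (ℕ × ℕ) × Fin (dg B (k + 1)) => e k p.1 p.2)).comp
        (ih.prodMk (measurable_pi_apply (k + 1)))
  · induction k with
    | zero =>
      intro s hs
      obtain ⟨j, rfl⟩ := (he₀' s).1 hs
      refine ⟨Function.update (fun j => ⟨0, dg_pos B j⟩) 0 j, fun ω => ?_⟩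
      simp [ha0, he₀.eq_iff]
    | succ k ih =>
      intro s hs
      obtain ⟨d, hd⟩ := ih (up B k s) (up_mem B k s)
      obtain ⟨j, hj⟩ := ((he k _ (up_mem B k s)).2 s).1 ⟨hs, rfl⟩
      refine ⟨Function.update d (k + 1) j, fun ω => ?_⟩
      have h2 : a ω (k + 1) = s ↔ a ω k = up B k s ∧ ω (k + 1) = j := by
        constructor
        · intro h
          have h3 : a ω k = up B k s := by rw [hup ω k, h]
          refine ⟨h3, (he k _ (up_mem B k s)).1 ?_⟩
          rw [hj, ← h3, ← has, h]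
        · rintro ⟨h3, h4⟩
          rw [has, h3, h4, hj]
      rw [h2, hd]
      constructor
      · rintro ⟨h3, h4⟩ i hi
        by_cases hik : i = k + 1
        · subst hik; simp [h4]
        · rw [Function.update_of_ne hik]
          exact h3 i (by simp only [Finset.mem_range] at hi ⊢; omega)
      · intro h
        refine ⟨fun i hi => ?_, by simpa using h (k + 1) (by simp)⟩
        have hi' := Finset.mem_range.1 hi
        rw [h i (Finset.mem_range.2 (by omega)), Function.update_of_ne (by omega)]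

theorem meas_pos_le {Y : Type*} [MeasurableSpace Y] (ρ : Measure Y) {f : Y → ℕ × ℕ} (k : ℕ)
    (hf : ∀ y, f y ∈ St B k)
    (hl : ∀ s ∈ St B k, ρ {y | f y = s} = ((B.q k * B.N k : ℕ) : ℝ≥0∞)⁻¹) (G : Finset ℕ) :
    ρ {y | (f y).2 ∈ G} ≤ #G * ((B.N k : ℕ) : ℝ≥0∞)⁻¹ := by
  have h1 : {y | (f y).2 ∈ G} ⊆
      ⋃ s ∈ (range (B.q k) ×ˢ G).filter (· ∈ St B k), {y | f y = s} := by
    intro y hy
    simp only [Set.mem_iUnion, Finset.mem_filter, Finset.mem_product, Finset.mem_range]
    exact ⟨f y, ⟨⟨((mem_St B).1 (hf y)).1, hy⟩, hf y⟩, rfl⟩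
  refine (measure_mono h1).trans ((measure_biUnion_finset_le _ _).trans ?_)
  rw [Finset.sum_congr rfl fun s hs => hl s (Finset.mem_filter.1 hs).2, Finset.sum_const,
    nsmul_eq_mul]
  have h2 : ((#((range (B.q k) ×ˢ G).filter (· ∈ St B k)) : ℕ) : ℝ≥0∞) ≤ (B.q k : ℝ≥0∞) * #G := by
    have := Finset.card_filter_le (range (B.q k) ×ˢ G) (· ∈ St B k)
    rw [Finset.card_product, Finset.card_range] at this
    exact_mod_cast this
  have hq : (B.q k : ℝ≥0∞) ≠ 0 := by exact_mod_cast (B.q_pos k).ne'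
  refine (mul_le_mul_left h2 _).trans (le_of_eq ?_)
  rw [Nat.cast_mul, ENNReal.mul_inv (Or.inl hq) (Or.inl (by simp)), mul_comm (B.q k : ℝ≥0∞),
    mul_assoc, ← mul_assoc (B.q k : ℝ≥0∞), ENNReal.mul_inv_cancel hq (by simp), one_mul]

theorem tendsto_inv_N (c : ℕ) :
    Tendsto (fun K => (c : ℝ≥0∞) * ((B.N K : ℕ) : ℝ≥0∞)⁻¹) atTop (𝓝 0) := by
  have h1 : Tendsto B.N atTop atTop :=
    tendsto_atTop_mono (fun k => (Nat.lt_two_pow_self (n := k)).le.trans (B.two_pow_le_N k))
      tendsto_id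
  have h2 := ENNReal.tendsto_inv_nat_nhds_zero.comp h1
  simpa using ENNReal.Tendsto.const_mul (a := (c : ℝ≥0∞)) h2 (Or.inr (by simp))

theorem exists_measure : ∃ μ : Measure (X B), IsProbabilityMeasure μ ∧
    ∀ k, ∀ s ∈ St B k, μ {x | x.1 k = s} = ((B.q k * B.N k : ℕ) : ℝ≥0∞)⁻¹ := by
  obtain ⟨a, ham, hac, had⟩ := exists_digits B
  let ρ : Measure (∀ j, Fin (dg B j)) :=
    Measure.infinitePi fun j => ProbabilityTheory.uniformOn (Set.univ : Set (Fin (dg B j)))
  have hl : ∀ k, ∀ s ∈ St B k, ρ {ω | a ω k = s} = ((B.q k * B.N k : ℕ) : ℝ≥0∞)⁻¹ := by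
    intro k s hs
    obtain ⟨d, hd⟩ := had k s hs
    have h1 : {ω | a ω k = s} = Set.pi (range (k + 1) : Finset ℕ) fun j => {d j} := by
      ext ω
      simp only [Set.mem_ofPred_eq, hd, Set.mem_pi, Finset.mem_coe, Set.mem_singleton_iff]
    rw [h1, Measure.infinitePi_pi _ fun j _ => measurableSet_singleton _, ← prod_dg,
      Nat.cast_prod, ENNReal.prod_inv_distrib fun i _ j _ _ => Or.inr (by simp)]
    refine Finset.prod_congr rfl fun j _ => ?_
    rw [ProbabilityTheory.uniformOn_univ]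
    simp
  have hesc : ∀ᵐ ω ∂ρ, Esc B (a ω) := by
    refine ae_all_iff.2 fun n => ?_
    rw [ae_iff]
    refine le_antisymm (ge_of_tendsto' (tendsto_inv_N B (n + n)) fun K => ?_) zero_le
    have h1 := meas_pos_le B ρ (f := fun ω => a ω K) K (fun ω => (hac ω).mem K) (hl K)
      (range n ∪ Finset.Ico (B.N K - n) (B.N K))
    refine (measure_mono fun ω hω => ?_).trans (h1.trans (mul_le_mul_left ?_ _))
    · by_contra hc
      apply hω
      have h2 := ((mem_St B).1 ((hac ω).mem K)).2
      simp only [Set.mem_ofPred_eq, Finset.mem_union, Finset.mem_range, Finset.mem_Ico] at hc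
      refine ⟨K, fun K' hK' => ?_⟩
      induction K', hK' using Nat.le_induction with
      | base => omega
      | succ K' _ ih => exact pos_mono (hac ω) n K' ih
    · have := Finset.card_union_le (range n) (Finset.Ico (B.N K - n) (B.N K))
      rw [Finset.card_range, Nat.card_Ico] at this
      exact_mod_cast this.trans (by omega)
  have hemb : MeasurableEmbedding (Subtype.val : X B → ℕ → ℕ × ℕ) :=
    MeasurableEmbedding.subtype_coe (measurableSet_X B)
  have key : ∀ S : Set (ℕ → ℕ × ℕ), MeasurableSet S →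
      (ρ.map a).comap (Subtype.val : X B → ℕ → ℕ × ℕ) (Subtype.val ⁻¹' S) = ρ (a ⁻¹' S) := by
    intro S hS
    rw [hemb.comap_apply, Subtype.image_preimage_coe,
      Measure.map_apply ham ((measurableSet_X B).inter hS)]
    refine measure_congr (hesc.mono fun ω hω => ?_)
    exact propext ⟨fun h => h.2, fun h => ⟨⟨hac ω, hω⟩, h⟩⟩
  refine ⟨(ρ.map a).comap Subtype.val, ⟨?_⟩, fun k s hs => ?_⟩
  · simpa using key Set.univ MeasurableSet.univ
  · exact (key {b | b k = s} (measurableSet_pred (measurable_pi_apply k) (· = s))).trans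
      (hl k s hs)

theorem preserving (μ : Measure (X B)) [IsProbabilityMeasure μ]
    (hl : ∀ k, ∀ s ∈ St B k, μ {x | x.1 k = s} = ((B.q k * B.N k : ℕ) : ℝ≥0∞)⁻¹) :
    MeasurePreserving (T B) μ μ := by
  refine ⟨(T B).measurable, ?_⟩
  have hT : ∀ x, T B x = Teq B x := fun _ => rfl
  have : IsProbabilityMeasure (μ.map (T B)) :=
    Measure.isProbabilityMeasure_map (T B).measurable.aemeasurable
  -- the two measures agree on the cells with positive position
  have h1 : ∀ K (s : ℕ × ℕ), 0 < s.2 → μ.map (T B) {x | x.1 K = s} = μ {x | x.1 K = s} := by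
    intro K s hs
    rw [(T B).map_apply]
    by_cases hS : s ∈ St B K
    · obtain ⟨h2, h3⟩ := (mem_St B).1 hS
      rw [hl K s hS, ← hl K (s.1, s.2 - 1) ((mem_St B).2 ⟨h2, by simp only; omega⟩)]
      congr 1
      ext x
      simp only [Set.mem_preimage, Set.mem_ofPred_eq, hT]
      constructor
      · intro h
        have h4 := Teq_fwd B x K (Teq_bwd B x K (by rw [h]; exact hs))
        rw [h] at h4
        rw [h4]
        simp
      · intro h
        rw [Teq_fwd B x K (by rw [h]; simp only; omega), h]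
        simp only [Nat.sub_add_cancel hs]
    · have h2 : {x : X B | x.1 K = s} = ∅ := by
        ext x
        simp only [Set.mem_ofPred_eq, Set.mem_empty_iff_false, iff_false]
        rintro rfl
        exact hS (x.2.1.mem K)
      simp [h2]
  have h2 : ∀ K (p : ℕ × ℕ → Prop), μ.map (T B) {x | p (x.1 K) ∧ 0 < (x.1 K).2} =
      μ {x | p (x.1 K) ∧ 0 < (x.1 K).2} := by
    intro K p
    have e : {x : X B | p (x.1 K) ∧ 0 < (x.1 K).2} =
        ⋃ s : {s : ℕ × ℕ // p s ∧ 0 < s.2}, {x | x.1 K = s.1} := by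
      ext x
      simp
    have hd : Pairwise (Function.onFun Disjoint
        fun s : {s : ℕ × ℕ // p s ∧ 0 < s.2} => {x : X B | x.1 K = s.1}) := by
      intro s t hst
      refine Set.disjoint_left.2 fun x h h' => hst (Subtype.ext ?_)
      exact (h : x.1 K = s.1).symm.trans h'
    have hm : ∀ s : {s : ℕ × ℕ // p s ∧ 0 < s.2}, MeasurableSet {x : X B | x.1 K = s.1} :=
      fun s => measurableSet_pred (measurable_coord B K) (· = s.1)
    rw [e, measure_iUnion hd hm, measure_iUnion hd hm]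
    exact tsum_congr fun s => h1 K s.1 s.2.2
  have h3 : ∀ K, μ {x | (x.1 K).2 = 0} ≤ (1 : ℕ) * ((B.N K : ℕ) : ℝ≥0∞)⁻¹ := by
    intro K
    simpa using meas_pos_le B μ (f := fun x => x.1 K) K (fun x => x.2.1.mem K) (hl K) {0}
  have h4 : ∀ K, μ.map (T B) {x | (x.1 K).2 = 0} ≤ (1 : ℕ) * ((B.N K : ℕ) : ℝ≥0∞)⁻¹ := by
    intro K
    rw [(T B).map_apply]
    have h5 := meas_pos_le B μ (f := fun x => x.1 K) K (fun x => x.2.1.mem K) (hl K) {B.N K - 1}
    refine (measure_mono fun x hx => ?_).trans (h5.trans (by simp))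
    simp only [Set.mem_preimage, Set.mem_ofPred_eq, hT, Finset.mem_singleton] at hx ⊢
    have h6 := ((mem_St B).1 (x.2.1.mem K)).2
    by_contra hc
    rw [Teq_fwd B x K (by omega)] at hx
    simp at hx
  have h5 : ∀ (ν₁ ν₂ : Measure (X B)),
      (∀ K (p : ℕ × ℕ → Prop), ν₁ {x | p (x.1 K) ∧ 0 < (x.1 K).2} =
        ν₂ {x | p (x.1 K) ∧ 0 < (x.1 K).2}) →
      (∀ K, ν₁ {x | (x.1 K).2 = 0} ≤ (1 : ℕ) * ((B.N K : ℕ) : ℝ≥0∞)⁻¹) →
      ∀ S ∈ cells B, ν₁ S ≤ ν₂ S := by
    rintro ν₁ ν₂ e1 e2 _ ⟨k, w, t, rfl⟩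
    have h6 := (tendsto_inv_N B 1).comp (tendsto_add_atTop_nat k)
    have h7 := (tendsto_const_nhds (x := ν₂ {x : X B | (x.1 k).1 = w ∧ (x.1 k).2 = t})).add h6
    rw [add_zero] at h7
    refine ge_of_tendsto' h7 fun n => ?_
    simp only [Function.comp, add_comm n k]
    let p : ℕ × ℕ → Prop := fun s => (proj B k n s).1 = w ∧ (proj B k n s).2 = t
    have h8 : {x : X B | (x.1 k).1 = w ∧ (x.1 k).2 = t} ⊆
        {x | p (x.1 (k + n)) ∧ 0 < (x.1 (k + n)).2} ∪ {x | (x.1 (k + n)).2 = 0} := by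
      intro x hx
      rcases Nat.eq_zero_or_pos (x.1 (k + n)).2 with h | h
      · exact Or.inr h
      · refine Or.inl ⟨?_, h⟩
        simp only [p, ← x.2.1.proj n k]
        exact hx
    refine (measure_mono h8).trans ((measure_union_le _ _).trans (add_le_add ?_ (e2 _)))
    rw [e1]
    refine measure_mono fun x hx => ?_
    have h9 := hx.1
    simp only [p, ← x.2.1.proj n k] at h9
    exact h9
  refine ext_of_generate_finite (cells B) (gen_cells B) (isPiSystem_cells B) (fun S hS => ?_)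
    (by simp)
  exact le_antisymm (h5 _ _ h2 h4 S hS) (h5 _ _ (fun K p => (h2 K p).symm) h3 S hS)

end TowerA

open TowerA in
/-- Recipe.  States are pairs `(w, t) : ℕ × ℕ`; `up k (w, t) = (B.word k w (t / N k), t % N k)`
maps a state of level `k+1` to a state of level `k`.  `X` is the subtype of `a : ℕ → ℕ × ℕ` with
`(a k).1 < q k`, `(a k).2 < N k`, `a k = up k (a (k+1))`, and *escaping*: for every `n`,
eventually `n ≤ (a K).2` and `(a K).2 + n < N K` (a measurable set, so `X` is standard Borel by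
`MeasurableSet.standardBorel`).  Both `(a K).2` and `N K - (a K).2` are non-decreasing in `K`.
`T a` is the unique compatible sequence with `(T a) K = ((a K).1, (a K).2 + 1)` for all large `K`
(define `(T a) k` by projecting down from the least `K ≥ k` with `(a K).2 + 1 < N K`; if
`t % N k + 1 < N k` then `up k (w, t + 1) = ((up k (w, t)).1, t % N k + 1)`); the inverse is
the same with `- 1`.
Measure: by `balanced`, each `w < q (k+1)` contains each `c < q k` exactly `R k = M k / q k`
times; let `occ k w c r` (`r < R k`) be the `r`-th occurrence (`Nat.nth` or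
`Finset.orderEmbOfFin`).  Take independent uniform digits (`Measure.infinitePi`):
digit `0` in `Fin (q 0) × Fin (N 0)`, digit `k+1 = (w', r)` in `Fin (q (k+1)) × Fin (R k)`, and
put `a (k+1) = (w', occ k w' (a k).1 r * N k + (a k).2)`.  By induction `a k` is uniform on
`range (q k) ×ˢ range (N k)`; it depends only on the digits `≤ k`.  Escaping holds a.e.:
`(a K).2 < n` has probability `≤ n / N K → 0` (`B.two_pow_le_N`) and the events decrease.
`μ` is the `comap` along `Subtype.val` of the image measure.  `T` preserves `μ`: the sets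
`{a k = s}` together with `∅` form a generating π-system, and for `K ≥ k`,
`T⁻¹ {a k = s}` and `{a k = s}` are, up to sets of measure `1 / N K`, unions of the same number
of level-`K` cells. -/
theorem exists_tower (B : Blocks) :
    ∃ (X : Type) (_ : MeasurableSpace X) (μ : Measure X) (T : X ≃ᵐ X),
      StandardBorelSpace X ∧ IsProbabilityMeasure μ ∧ MeasurePreserving T μ μ ∧
        Nonempty (Tower B μ T) := by
  obtain ⟨μ, hμ, hl⟩ := exists_measure B
  refine ⟨X B, inferInstance, μ, T B, (measurableSet_X B).standardBorel, hμ,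
    preserving B μ hl, ⟨?_⟩⟩
  exact
    { W := fun k x => (x.1 k).1
      P := fun k x => (x.1 k).2
      meas_W := fun k => measurable_fst.comp (measurable_coord B k)
      meas_P := fun k => measurable_snd.comp (measurable_coord B k)
      W_lt := fun k x => ((mem_St B).1 (x.2.1.mem k)).1
      P_lt := fun k x => ((mem_St B).1 (x.2.1.mem k)).2
      law := fun k w t hw ht => by
        rw [← hl k (w, t) ((mem_St B).2 ⟨hw, ht⟩)]
        congr 1
        ext x
        simp [Prod.ext_iff]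
      P_compat := fun k x => congrArg Prod.snd (x.2.1 k)
      W_compat := fun k x => congrArg Prod.fst (x.2.1 k)
      P_step := fun k x => Teq_pos B x k
      W_step := fun k x h => by
        have := congrArg Prod.fst (Teq_fwd B x k h)
        exact this
      gen := gen_cells B }

end

end Crest.Agent.R133
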