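import Crest.Agent.R133.Defs

/-!
# Row 133: the odometer on compatible sequences of states (combinatorial part)
-/

open MeasureTheory Finset Filter
open scoped Topology ENNReal

namespace Crest.Agent.R133

noncomputable section

namespace TowerA

variable (B : Blocks)

/-- the map from states of level `k + 1` to states of level `k` -/
def up (k : ℕ) (s : ℕ × ℕ) : ℕ × ℕ := (B.word k s.1 (s.2 / B.N k), s.2 % B.N k)

/-- the states of level `k` -/
def St (k : ℕ) : Finset (ℕ × ℕ) := range (B.q k) ×ˢ range (B.N k)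

theorem mem_St {k : ℕ} {s : ℕ × ℕ} : s ∈ St B k ↔ s.1 < B.q k ∧ s.2 < B.N k := by
  simp [St]

theorem card_St (k : ℕ) : #(St B k) = B.q k * B.N k := by simp [St]

theorem up_mem (k : ℕ) (s : ℕ × ℕ) : up B k s ∈ St B k :=
  (mem_St B).2 ⟨B.word_lt _ _ _, Nat.mod_lt _ (B.N_pos k)⟩

/-- projection from level `k + n` to level `k` -/
def proj : ℕ → ℕ → ℕ × ℕ → ℕ × ℕ
  | _, 0, s => s
  | k, n + 1, s => up B k (proj (k + 1) n s)

theorem proj_succ' (n : ℕ) : ∀ (k : ℕ) (s : ℕ × ℕ),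
    proj B k (n + 1) s = proj B k n (up B (k + n) s) := by
  induction n with
  | zero => intro k s; rfl
  | succ n ih =>
    intro k s
    show up B k (proj B (k + 1) (n + 1) s) = up B k (proj B (k + 1) n (up B (k + (n + 1)) s))
    rw [ih (k + 1) s, show k + 1 + n = k + (n + 1) by ring]

/-- compatible sequences -/
def Compat (a : ℕ → ℕ × ℕ) : Prop := ∀ k, a k = up B k (a (k + 1))

/-- escaping sequences -/
def Esc (a : ℕ → ℕ × ℕ) : Prop :=
  ∀ n, ∃ K₀, ∀ K, K₀ ≤ K → n ≤ (a K).2 ∧ (a K).2 + n < B.N K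

variable {B}

theorem Compat.mem {a : ℕ → ℕ × ℕ} (h : Compat B a) (k : ℕ) : a k ∈ St B k := by
  rw [h k]; exact up_mem B k _

theorem Compat.proj {a : ℕ → ℕ × ℕ} (h : Compat B a) (n : ℕ) :
    ∀ k, a k = proj B k n (a (k + n)) := by
  induction n with
  | zero => intro k; rfl
  | succ n ih =>
    intro k
    rw [proj_succ', ← add_assoc, ← h (k + n)]
    exact ih k

theorem down_ind {Q : ℕ → Prop} (K₀ : ℕ) (h0 : ∀ K, K₀ ≤ K → Q K) (hs : ∀ K, Q (K + 1) → Q K) :
    ∀ K, Q K := by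
  intro K
  have : ∀ n K, K₀ ≤ K + n → Q K := by
    intro n
    induction n with
    | zero => intro K hK; exact h0 K hK
    | succ n ih => intro K hK; exact hs K (ih (K + 1) (by omega))
  exact this K₀ K (by omega)

theorem Compat.ext {a b : ℕ → ℕ × ℕ} (ha : Compat B a) (hb : Compat B b) (K₀ : ℕ)
    (h : ∀ K, K₀ ≤ K → a K = b K) : a = b := by
  funext K
  refine down_ind (Q := fun K => a K = b K) K₀ h (fun K hK => ?_) K
  rw [ha K, hb K, hK]

theorem exists_extend (c : ℕ → ℕ × ℕ) (K₀ : ℕ) (h : ∀ K, K₀ ≤ K → c K = up B K (c (K + 1))) :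
    ∃ b, Compat B b ∧ ∀ K, K₀ ≤ K → b K = c K := by
  refine ⟨fun k => proj B k K₀ (c (k + K₀)), fun k => ?_, fun K hK => ?_⟩
  · show proj B k K₀ (c (k + K₀)) = proj B k (K₀ + 1) (c (k + 1 + K₀))
    rw [proj_succ', h (k + K₀) (by omega), show k + 1 + K₀ = k + K₀ + 1 by ring]
  · have : ∀ n, proj B K n (c (K + n)) = c K := by
      intro n
      induction n with
      | zero => rfl
      | succ n ih => rw [proj_succ', ← add_assoc, ← h (K + n) (by omega), ih]
    exact this K₀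

theorem up_succ {k : ℕ} {s : ℕ × ℕ} (h : s.2 % B.N k + 1 < B.N k) :
    up B k (s.1, s.2 + 1) = ((up B k s).1, (up B k s).2 + 1) := by
  have hN := B.N_pos k
  have h1 : (s.2 + 1) % B.N k = s.2 % B.N k + 1 := by
    rw [Nat.add_mod, Nat.mod_eq_of_lt (show 1 < B.N k by omega), Nat.mod_eq_of_lt h]
  have h2 : (s.2 + 1) / B.N k = s.2 / B.N k := by
    have e1 := Nat.div_add_mod (s.2 + 1) (B.N k)
    have e2 := Nat.div_add_mod s.2 (B.N k)
    have : B.N k * ((s.2 + 1) / B.N k) = B.N k * (s.2 / B.N k) := by omega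
    exact Nat.eq_of_mul_eq_mul_left hN this
  simp only [up, h1, h2]

theorem pos_mono {a : ℕ → ℕ × ℕ} (ha : Compat B a) (n K : ℕ)
    (h : n ≤ (a K).2 ∧ (a K).2 + n < B.N K) :
    n ≤ (a (K + 1)).2 ∧ (a (K + 1)).2 + n < B.N (K + 1) := by
  have h1 : (a K).2 = (a (K + 1)).2 % B.N K := by rw [ha K]; rfl
  have h2 := ((mem_St B).1 (ha.mem (K + 1))).2
  have hN := B.N_pos K
  have e := Nat.div_add_mod (a (K + 1)).2 (B.N K)
  rw [B.N_succ] at h2 ⊢
  have h3 : (a (K + 1)).2 / B.N K < B.M K := by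
    rw [Nat.div_lt_iff_lt_mul hN]; exact h2
  have h4 : B.N K * ((a (K + 1)).2 / B.N K + 1) ≤ B.N K * B.M K := Nat.mul_le_mul_left _ h3
  rw [mul_comm (B.M K)]
  rw [mul_add, mul_one] at h4
  omega

/-- `b` is the successor of `a` -/
def Rel (a b : ℕ → ℕ × ℕ) : Prop := ∃ K₀, ∀ K, K₀ ≤ K → b K = ((a K).1, (a K).2 + 1)

theorem Rel.fwd {a b : ℕ → ℕ × ℕ} (ha : Compat B a) (hb : Compat B b) (h : Rel a b) (K : ℕ) :
    (a K).2 + 1 < B.N K → b K = ((a K).1, (a K).2 + 1) := by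
  obtain ⟨K₀, h⟩ := h
  refine down_ind (Q := fun K => (a K).2 + 1 < B.N K → b K = ((a K).1, (a K).2 + 1)) K₀
    (fun K hK _ => h K hK) (fun K ih hK => ?_) K
  have h1 : (a K).2 = (a (K + 1)).2 % B.N K := by rw [ha K]; rfl
  have h2 : (a (K + 1)).2 + 1 < B.N (K + 1) := by
    have h3 := ((mem_St B).1 (ha.mem (K + 1))).2
    have hN := B.N_pos K
    have e := Nat.div_add_mod (a (K + 1)).2 (B.N K)
    rw [B.N_succ] at h3 ⊢
    have h4 : (a (K + 1)).2 / B.N K < B.M K := by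
      rw [Nat.div_lt_iff_lt_mul hN]; exact h3
    have h5 : B.N K * ((a (K + 1)).2 / B.N K + 1) ≤ B.N K * B.M K := Nat.mul_le_mul_left _ h4
    rw [mul_comm (B.M K)]
    rw [mul_add, mul_one] at h5
    omega
  rw [hb K, ih h2, up_succ (by rw [← h1]; exact hK), ← ha K]

theorem Rel.pos {a b : ℕ → ℕ × ℕ} (ha : Compat B a) (hb : Compat B b) (h : Rel a b) (K : ℕ) :
    (b K).2 = ((a K).2 + 1) % B.N K := by
  obtain ⟨K₀, h⟩ := h
  refine down_ind (Q := fun K => (b K).2 = ((a K).2 + 1) % B.N K) K₀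
    (fun K hK => ?_) (fun K ih => ?_) K
  · have h1 := ((mem_St B).1 (hb.mem K)).2
    rw [h K hK] at h1 ⊢
    exact (Nat.mod_eq_of_lt h1).symm
  · have h1 : (a K).2 = (a (K + 1)).2 % B.N K := by rw [ha K]; rfl
    have h2 : (b K).2 = (b (K + 1)).2 % B.N K := by rw [hb K]; rfl
    rw [h2, ih, h1, Nat.mod_mod_of_dvd _ ⟨B.M K, by rw [B.N_succ, mul_comm]⟩, Nat.mod_add_mod]

theorem Rel.bwd {a b : ℕ → ℕ × ℕ} (ha : Compat B a) (hb : Compat B b) (h : Rel a b) (K : ℕ)
    (hK : 0 < (b K).2) : (a K).2 + 1 < B.N K := by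
  have h1 := h.pos ha hb K
  have h2 := ((mem_St B).1 (ha.mem K)).2
  by_contra hc
  have : (a K).2 + 1 = B.N K := by omega
  rw [this, Nat.mod_self] at h1
  omega

theorem exists_succ {a : ℕ → ℕ × ℕ} (ha : Compat B a) (he : Esc B a) :
    ∃ b, (Compat B b ∧ Esc B b) ∧ Rel a b := by
  obtain ⟨K₀, h0⟩ := he 1
  obtain ⟨b, hb, hbc⟩ := exists_extend (B := B) (fun K => ((a K).1, (a K).2 + 1)) K₀
    (fun K hK => by
      have h1 : (a K).2 = (a (K + 1)).2 % B.N K := by rw [ha K]; rfl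
      rw [up_succ (by rw [← h1]; exact (h0 K hK).2), ← ha K])
  refine ⟨b, ⟨hb, fun n => ?_⟩, K₀, hbc⟩
  obtain ⟨K₁, h1⟩ := he (n + 1)
  refine ⟨max K₀ K₁, fun K hK => ?_⟩
  have := h1 K (le_of_max_le_right hK)
  rw [hbc K (le_of_max_le_left hK)]
  simp only
  omega

theorem exists_pred {b : ℕ → ℕ × ℕ} (hb : Compat B b) (he : Esc B b) :
    ∃ a, (Compat B a ∧ Esc B a) ∧ Rel a b := by
  obtain ⟨K₀, h0⟩ := he 1
  obtain ⟨a, ha, hac⟩ := exists_extend (B := B) (fun K => ((b K).1, (b K).2 - 1)) K₀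
    (fun K hK => by
      have h1 : (b K).2 = (b (K + 1)).2 % B.N K := by rw [hb K]; rfl
      have h2 := (h0 K hK).1
      have h3 := (h0 (K + 1) (by omega)).1
      have hN := B.N_pos K
      have h4 : ((b (K + 1)).2 - 1) % B.N K + 1 < B.N K := by
        by_contra hc
        have h5 := Nat.mod_lt ((b (K + 1)).2 - 1) hN
        have h6 : ((b (K + 1)).2 - 1) % B.N K + 1 = B.N K := by omega
        have h7 : ((b (K + 1)).2 - 1 + 1) % B.N K = 0 := by
          rw [← Nat.mod_add_mod, h6, Nat.mod_self]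
        rw [Nat.sub_add_cancel h3] at h7
        omega
      have h8 := up_succ (B := B) (k := K) (s := ((b (K + 1)).1, (b (K + 1)).2 - 1)) h4
      simp only [Nat.sub_add_cancel h3] at h8
      rw [← hb K] at h8
      rw [h8]
      simp)
  refine ⟨a, ⟨ha, fun n => ?_⟩, K₀, fun K hK => ?_⟩
  · obtain ⟨K₁, h1⟩ := he (n + 1)
    refine ⟨max K₀ K₁, fun K hK => ?_⟩
    have := h1 K (le_of_max_le_right hK)
    rw [hac K (le_of_max_le_left hK)]
    simp only
    omega
  · rw [hac K hK]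
    have := (h0 K hK).1
    simp only [Nat.sub_add_cancel this]

theorem Rel.right_unique {a b b' : ℕ → ℕ × ℕ} (hb : Compat B b) (hb' : Compat B b')
    (h : Rel a b) (h' : Rel a b') : b = b' := by
  obtain ⟨K₀, h⟩ := h
  obtain ⟨K₁, h'⟩ := h'
  exact hb.ext hb' (max K₀ K₁) fun K hK => by
    rw [h K (le_of_max_le_left hK), h' K (le_of_max_le_right hK)]

theorem Rel.left_unique {a a' b : ℕ → ℕ × ℕ} (ha : Compat B a) (ha' : Compat B a')
    (h : Rel a b) (h' : Rel a' b) : a = a' := by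
  obtain ⟨K₀, h⟩ := h
  obtain ⟨K₁, h'⟩ := h'
  exact ha.ext ha' (max K₀ K₁) fun K hK => by
    have := (h K (le_of_max_le_left hK)).symm.trans (h' K (le_of_max_le_right hK))
    simp only [Prod.mk.injEq, add_left_inj] at this
    exact Prod.ext this.1 this.2

variable (B)

/-- the phase space -/
abbrev X : Type := {a : ℕ → ℕ × ℕ // a ∈ {a | Compat B a ∧ Esc B a}}

theorem measurable_coord (k : ℕ) : Measurable fun x : X B => x.1 k :=
  (measurable_pi_apply k).comp measurable_subtype_coe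

theorem measurableSet_pred {Y : Type*} [MeasurableSpace Y] {f : Y → ℕ × ℕ} (hf : Measurable f)
    (p : ℕ × ℕ → Prop) : MeasurableSet {y | p (f y)} :=
  hf (Set.to_countable {s | p s}).measurableSet

theorem measurableSet_X : MeasurableSet {a : ℕ → ℕ × ℕ | Compat B a ∧ Esc B a} := by
  refine MeasurableSet.inter ?_ ?_
  · show MeasurableSet {a : ℕ → ℕ × ℕ | ∀ k, a k = up B k (a (k + 1))}
    rw [Set.ofPred_forall]
    refine MeasurableSet.iInter fun k => ?_
    exact measurableSet_eq_fun (measurable_pi_apply k)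
      ((measurable_of_countable (up B k)).comp (measurable_pi_apply (k + 1)))
  · show MeasurableSet {a : ℕ → ℕ × ℕ | ∀ n, ∃ K₀, ∀ K, K₀ ≤ K →
      n ≤ (a K).2 ∧ (a K).2 + n < B.N K}
    rw [Set.ofPred_forall]
    refine MeasurableSet.iInter fun n => ?_
    rw [Set.ofPred_exists]
    refine MeasurableSet.iUnion fun K₀ => ?_
    rw [Set.ofPred_forall]
    refine MeasurableSet.iInter fun K => ?_
    exact measurableSet_pred (measurable_pi_apply K)
      (fun s => K₀ ≤ K → n ≤ s.2 ∧ s.2 + n < B.N K)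

/-- the successor -/
def suc (x : X B) : X B :=
  ⟨(exists_succ x.2.1 x.2.2).choose, (exists_succ x.2.1 x.2.2).choose_spec.1⟩

/-- the predecessor -/
def pre (x : X B) : X B :=
  ⟨(exists_pred x.2.1 x.2.2).choose, (exists_pred x.2.1 x.2.2).choose_spec.1⟩

theorem rel_suc (x : X B) : Rel x.1 (suc B x).1 := (exists_succ x.2.1 x.2.2).choose_spec.2

theorem rel_pre (x : X B) : Rel (pre B x).1 x.1 := (exists_pred x.2.1 x.2.2).choose_spec.2

/-- the successor map as a bijection -/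
def Teq : X B ≃ X B where
  toFun := suc B
  invFun := pre B
  left_inv x := Subtype.ext
    (Rel.left_unique (pre B (suc B x)).2.1 x.2.1 (rel_pre B (suc B x)) (rel_suc B x))
  right_inv x := Subtype.ext
    (Rel.right_unique (suc B (pre B x)).2.1 x.2.1 (rel_suc B (pre B x)) (rel_pre B x))

theorem rel_Teq (x : X B) : Rel x.1 (Teq B x).1 := rel_suc B x

theorem Teq_fwd (x : X B) (K : ℕ) (h : (x.1 K).2 + 1 < B.N K) :
    (Teq B x).1 K = ((x.1 K).1, (x.1 K).2 + 1) :=
  (rel_Teq B x).fwd x.2.1 (Teq B x).2.1 K h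

theorem Teq_pos (x : X B) (K : ℕ) : ((Teq B x).1 K).2 = ((x.1 K).2 + 1) % B.N K :=
  (rel_Teq B x).pos x.2.1 (Teq B x).2.1 K

theorem Teq_bwd (x : X B) (K : ℕ) (h : 0 < ((Teq B x).1 K).2) : (x.1 K).2 + 1 < B.N K :=
  (rel_Teq B x).bwd x.2.1 (Teq B x).2.1 K h

theorem measurable_Teq : Measurable (Teq B) := by
  refine Measurable.subtype_mk (measurable_pi_lambda _ fun k => ?_)
  refine measurable_to_countable' fun s => ?_
  have : (fun x : X B => (Teq B x).1 k) ⁻¹' {s} = ⋃ n, {x : X B | (x.1 (k + n)).2 + 1 < B.N (k + n) ∧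
      proj B k n ((x.1 (k + n)).1, (x.1 (k + n)).2 + 1) = s} := by
    ext x
    simp only [Set.mem_preimage, Set.mem_singleton_iff, Set.mem_iUnion, Set.mem_ofPred_eq]
    constructor
    · intro h
      obtain ⟨K₀, h0⟩ := x.2.2 1
      have h1 := (h0 (k + K₀) (by omega)).2
      exact ⟨K₀, h1, by rw [← Teq_fwd B x _ h1, ← (Teq B x).2.1.proj, h]⟩
    · rintro ⟨n, h1, h2⟩
      rw [← Teq_fwd B x _ h1, ← (Teq B x).2.1.proj] at h2
      exact h2
  show MeasurableSet ((fun x : X B => (Teq B x).1 k) ⁻¹' {s})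
  rw [this]
  exact MeasurableSet.iUnion fun n => measurableSet_pred (measurable_coord B (k + n))
    (fun t => t.2 + 1 < B.N (k + n) ∧ proj B k n (t.1, t.2 + 1) = s)

theorem Teq_symm_bwd (x : X B) (K : ℕ) (h : 0 < (x.1 K).2) :
    ((Teq B).symm x).1 K = ((x.1 K).1, (x.1 K).2 - 1) := by
  obtain ⟨y, rfl⟩ := (Teq B).surjective x
  rw [Equiv.symm_apply_apply, Teq_fwd B y K (Teq_bwd B y K h)]
  simp

theorem measurable_Teq_symm : Measurable (Teq B).symm := by
  refine Measurable.subtype_mk (measurable_pi_lambda _ fun k => ?_)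
  refine measurable_to_countable' fun s => ?_
  have : (fun x : X B => ((Teq B).symm x).1 k) ⁻¹' {s} = ⋃ n, {x : X B | 0 < (x.1 (k + n)).2 ∧
      proj B k n ((x.1 (k + n)).1, (x.1 (k + n)).2 - 1) = s} := by
    ext x
    simp only [Set.mem_preimage, Set.mem_singleton_iff, Set.mem_iUnion, Set.mem_ofPred_eq]
    constructor
    · intro h
      obtain ⟨K₀, h0⟩ := x.2.2 1
      have h1 : 0 < (x.1 (k + K₀)).2 := (h0 (k + K₀) (by omega)).1
      exact ⟨K₀, h1, by rw [← Teq_symm_bwd B x _ h1, ← ((Teq B).symm x).2.1.proj, h]⟩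
    · rintro ⟨n, h1, h2⟩
      rw [← Teq_symm_bwd B x _ h1, ← ((Teq B).symm x).2.1.proj] at h2
      exact h2
  show MeasurableSet ((fun x : X B => ((Teq B).symm x).1 k) ⁻¹' {s})
  rw [this]
  exact MeasurableSet.iUnion fun n => measurableSet_pred (measurable_coord B (k + n))
    (fun t => 0 < t.2 ∧ proj B k n (t.1, t.2 - 1) = s)

/-- the successor map -/
def T : X B ≃ᵐ X B := ⟨Teq B, measurable_Teq B, measurable_Teq_symm B⟩

/-- the cells -/
def cells : Set (Set (X B)) := {s | ∃ k w t, s = {x : X B | (x.1 k).1 = w ∧ (x.1 k).2 = t}}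

theorem gen_cells :
    (inferInstance : MeasurableSpace (X B)) = MeasurableSpace.generateFrom (cells B) := by
  apply le_antisymm
  · have : @Measurable (X B) (ℕ → ℕ × ℕ) (MeasurableSpace.generateFrom (cells B)) _
        Subtype.val := by
      let _ : MeasurableSpace (X B) := MeasurableSpace.generateFrom (cells B)
      refine measurable_pi_lambda _ fun k => measurable_to_countable' fun s => ?_
      refine MeasurableSpace.measurableSet_generateFrom ⟨k, s.1, s.2, ?_⟩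
      ext x
      simp [Prod.ext_iff]
    exact this.comap_le
  · refine MeasurableSpace.generateFrom_le ?_
    rintro _ ⟨k, w, t, rfl⟩
    exact measurableSet_pred (measurable_coord B k) (fun s => s.1 = w ∧ s.2 = t)

theorem isPiSystem_cells : IsPiSystem (cells B) := by
  have key : ∀ k n w t w' t', ({x : X B | (x.1 k).1 = w ∧ (x.1 k).2 = t} ∩
      {x : X B | (x.1 (k + n)).1 = w' ∧ (x.1 (k + n)).2 = t'}).Nonempty →
      {x : X B | (x.1 k).1 = w ∧ (x.1 k).2 = t} ∩
        {x : X B | (x.1 (k + n)).1 = w' ∧ (x.1 (k + n)).2 = t'} =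
      {x : X B | (x.1 (k + n)).1 = w' ∧ (x.1 (k + n)).2 = t'} := by
    rintro k n w t w' t' ⟨y, hy1, hy2⟩
    refine Set.inter_eq_right.2 fun x hx => ?_
    have h : x.1 (k + n) = y.1 (k + n) := Prod.ext (hx.1.trans hy2.1.symm) (hx.2.trans hy2.2.symm)
    have h' : x.1 k = y.1 k := by rw [x.2.1.proj n k, y.2.1.proj n k, h]
    show (x.1 k).1 = w ∧ (x.1 k).2 = t
    rw [h']; exact hy1
  rintro _ ⟨k, w, t, rfl⟩ _ ⟨k', w', t', rfl⟩ hne
  rcases le_total k k' with h | h
  · obtain ⟨n, rfl⟩ := Nat.exists_eq_add_of_le h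
    rw [key k n w t w' t' hne]
    exact ⟨_, _, _, rfl⟩
  · obtain ⟨n, rfl⟩ := Nat.exists_eq_add_of_le h
    rw [Set.inter_comm] at hne ⊢
    rw [key k' n w' t' w t hne]
    exact ⟨_, _, _, rfl⟩

end TowerA

end

end Crest.Agent.R133
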