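import Crest.Agent.R133.Defs

/-!
# Row 133: true orbits versus pseudo-orbits in a tube
-/

open MeasureTheory Finset Filter
open scoped Matrix Topology ENNReal NNReal

namespace Crest.Agent.R133

noncomputable section

/-- The pseudo-orbit with start `p` and noise `w`. -/
def porb {V : Type*} [Add V] {n : ℕ} (g : ℕ → V → V) (p : V) (w : Fin n → V) : ℕ → V
  | 0 => p
  | t + 1 => if h : t < n then g t (porb g p w t) + w ⟨t, h⟩ else p

theorem tube_porb_succ {V : Type*} [Add V] {n : ℕ} (g : ℕ → V → V) (p : V) (w : Fin n → V)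
    {t : ℕ} (h : t < n) : porb g p w (t + 1) = g t (porb g p w t) + w ⟨t, h⟩ := by
  rw [porb, dif_pos h]

theorem tube_porb_shift {V : Type*} [Add V] {n : ℕ} (g : ℕ → V → V) (p : V)
    (w : Fin (n + 1) → V) : ∀ t, t ≤ n →
      porb g p w (t + 1) = porb (fun s => g (s + 1)) (g 0 p + w 0) (fun j : Fin n => w j.succ) t
  | 0, _ => by
    rw [tube_porb_succ g p w (Nat.succ_pos n)]
    rfl
  | t + 1, ht => by
    rw [tube_porb_succ g p w (Nat.succ_lt_succ ht), tube_porb_shift g p w t (Nat.le_of_succ_le ht),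
      tube_porb_succ _ _ _ ht]
    rfl

/-- The map (start, noise) ↦ pseudo-orbit is triangular with translations on the diagonal.
Recipe: induction on `n` (`measurePreserving_piFinSuccAbove` at `Fin.last`,
`MeasurePreserving.skew_product`, `measurePreserving_add_left`), or prove the same for the
inverse map `v ↦ (v 0, t ↦ v (t+1) - g t (v t))`. -/
theorem measurePreserving_porb {d : ℕ} (n : ℕ) (g : ℕ → (Fin d → ℝ) → (Fin d → ℝ))
    (hg : ∀ t, Measurable (g t)) :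
    MeasurePreserving
      (fun x : (Fin d → ℝ) × (Fin n → Fin d → ℝ) => fun t : Fin (n + 1) => porb g x.1 x.2 t)
      volume volume := by
  induction n generalizing g with
  | zero =>
    have h := (volume_preserving_piFinSuccAbove (fun _ : Fin (0 + 1) => Fin d → ℝ) 0).symm
    have e : (fun x : (Fin d → ℝ) × (Fin 0 → Fin d → ℝ) => fun t : Fin (0 + 1) =>
        porb g x.1 x.2 t) =
        ⇑(MeasurableEquiv.piFinSuccAbove (fun _ : Fin (0 + 1) => Fin d → ℝ) 0).symm := by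
      funext x t
      have : t = 0 := Fin.ext (by omega)
      subst this
      simp [MeasurableEquiv.piFinSuccAbove, porb]
    rw [e]
    exact h
  | succ n ih =>
    have h1 := (volume_preserving_piFinSuccAbove (fun _ : Fin (n + 1 + 1) => Fin d → ℝ) 0).symm
    have h2 := ih (fun s => g (s + 1)) (fun t => hg (t + 1))
    have h3 := volume_preserving_piFinSuccAbove (fun _ : Fin (n + 1) => Fin d → ℝ) 0
    have h4 : MeasurePreserving
        (fun x : (Fin d → ℝ) × ((Fin d → ℝ) × (Fin n → Fin d → ℝ)) =>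
          (id x.1, (g 0 x.1 + x.2.1, x.2.2))) (volume.prod volume) (volume.prod volume) := by
      refine MeasurePreserving.skew_product (MeasurePreserving.id volume)
        (g := fun (p : Fin d → ℝ) (y : (Fin d → ℝ) × (Fin n → Fin d → ℝ)) =>
          (g 0 p + y.1, y.2)) ?_ ?_
      · exact (((hg 0).comp measurable_fst).add (measurable_fst.comp measurable_snd)).prodMk
          (measurable_snd.comp measurable_snd)
      · refine Eventually.of_forall fun p => ?_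
        exact ((measurePreserving_add_left volume (g 0 p)).prod
          (MeasurePreserving.id volume)).map_eq
    have h5 := h1.comp (((MeasurePreserving.id volume).prod h2).comp
      (h4.comp ((MeasurePreserving.id volume).prod h3)))
    refine (congrArg (fun f => MeasurePreserving f volume volume) ?_).mpr h5
    funext x t
    refine Fin.cases ?_ (fun j => ?_) t
    · simp [MeasurableEquiv.piFinSuccAbove, porb]
    · have := tube_porb_shift g x.1 x.2 j (Nat.lt_succ_iff.1 j.2)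
      simp [MeasurableEquiv.piFinSuccAbove]
      rw [this]
      rfl

/-- Volume of a ball in the noise space. -/
theorem tube_volume_closedBall {d n : ℕ} (w : Fin n → Fin d → ℝ) {r : ℝ} (hr : 0 ≤ r) :
    volume (Metric.closedBall w r) = ENNReal.ofReal ((2 * r) ^ (d * n)) := by
  rw [volume_pi_closedBall w hr]
  simp_rw [Real.volume_pi_closedBall _ hr]
  rw [Finset.prod_const, Finset.card_univ, Fintype.card_fin, Fintype.card_fin,
    ← ENNReal.ofReal_pow (by positivity), ← pow_mul]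

/-- The tube of pseudo-orbits. -/
def tubeSet {d : ℕ} (n : ℕ) (g : ℕ → (Fin d → ℝ) → (Fin d → ℝ)) (R σ : ℝ) :
    Set (Fin (n + 1) → Fin d → ℝ) :=
  {v | ‖v‖ ≤ R ∧ ∀ t : Fin n, ‖v t.succ - g t (v t.castSucc)‖ ≤ σ}

theorem tube_measurableSet {d : ℕ} (n : ℕ) {g : ℕ → (Fin d → ℝ) → (Fin d → ℝ)}
    (hg : ∀ t, Continuous (g t)) (R σ : ℝ) : MeasurableSet (tubeSet n g R σ) := by
  refine IsClosed.measurableSet ?_
  have : tubeSet n g R σ = {v | ‖v‖ ≤ R} ∩
      ⋂ t : Fin n, {v | ‖v t.succ - g t (v t.castSucc)‖ ≤ σ} := by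
    ext v
    simp [tubeSet]
  rw [this]
  refine (isClosed_le continuous_norm continuous_const).inter (isClosed_iInter fun t => ?_)
  refine isClosed_le ?_ continuous_const
  exact ((continuous_apply t.succ).sub ((hg t).comp (continuous_apply t.castSucc))).norm

theorem tube_lip {d : ℕ} {a : ℕ → Matrix (Fin d) (Fin d) ℝ}
    {g : ℕ → (Fin d → ℝ) → (Fin d → ℝ)} {θ' : ℝ} (hθ0 : 0 ≤ θ')
    (hlip : ∀ t u u', ‖g t u - g t u' - a t *ᵥ (u - u')‖ ≤ θ' * ‖u - u'‖) (t : ℕ) :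
    ∃ K : ℝ, 0 ≤ K ∧ ∀ u u', ‖g t u - g t u'‖ ≤ K * ‖u - u'‖ := by
  let L : (Fin d → ℝ) →L[ℝ] (Fin d → ℝ) := LinearMap.toContinuousLinearMap (a t).mulVecLin
  refine ⟨θ' + ‖L‖, by positivity, fun u u' => ?_⟩
  have h1 : ‖a t *ᵥ (u - u')‖ ≤ ‖L‖ * ‖u - u'‖ := L.le_opNorm (u - u')
  have h2 := hlip t u u'
  calc ‖g t u - g t u'‖ = ‖(g t u - g t u' - a t *ᵥ (u - u')) + a t *ᵥ (u - u')‖ := by
        rw [sub_add_cancel]
    _ ≤ ‖g t u - g t u' - a t *ᵥ (u - u')‖ + ‖a t *ᵥ (u - u')‖ := norm_add_le _ _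
    _ ≤ (θ' + ‖L‖) * ‖u - u'‖ := by linarith [add_mul θ' ‖L‖ ‖u - u'‖]

theorem tube_continuous {d : ℕ} {g : (Fin d → ℝ) → (Fin d → ℝ)} {K : ℝ} (hK : 0 ≤ K)
    (h : ∀ u u', ‖g u - g u'‖ ≤ K * ‖u - u'‖) : Continuous g := by
  refine (LipschitzWith.of_dist_le_mul (K := ⟨K, hK⟩) fun u u' => ?_).continuous
  rw [dist_eq_norm, dist_eq_norm]
  exact h u u'

/-- Pseudo-orbits with small noise follow true orbits. -/
theorem tube_shadow {d n : ℕ} {g : ℕ → (Fin d → ℝ) → (Fin d → ℝ)}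
    (hg : ∀ t, ∃ K : ℝ, 0 ≤ K ∧ ∀ u u', ‖g t u - g t u'‖ ≤ K * ‖u - u'‖) (m : ℕ) (hm : m ≤ n) :
    ∃ C : ℝ, 0 ≤ C ∧ ∀ t ≤ m, ∀ p (w : Fin n → Fin d → ℝ),
      ‖porb g p w t - orb g p t‖ ≤ C * ‖w‖ := by
  induction m with
  | zero =>
    refine ⟨0, le_rfl, fun t ht p w => ?_⟩
    obtain rfl : t = 0 := by omega
    simp [porb, orb]
  | succ m ih =>
    obtain ⟨C, hC, h⟩ := ih (by omega)
    obtain ⟨K, hK, hK'⟩ := hg m
    refine ⟨C + (K * C + 1), by positivity, fun t ht p w => ?_⟩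
    have hw := norm_nonneg w
    have hKC : 0 ≤ K * C := by positivity
    rcases Nat.lt_or_ge t (m + 1) with h1 | h1
    · have := h t (by omega) p w
      nlinarith
    · obtain rfl : t = m + 1 := by omega
      rw [tube_porb_succ g p w (show m < n by omega), orb]
      have h2 := hK' (porb g p w m) (orb g p m)
      have h3 := h m le_rfl p w
      have h4 := norm_le_pi_norm w ⟨m, by omega⟩
      have h5 : K * ‖porb g p w m - orb g p m‖ ≤ K * (C * ‖w‖) :=
        mul_le_mul_of_nonneg_left h3 hK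
      calc ‖g m (porb g p w m) + w ⟨m, by omega⟩ - g m (orb g p m)‖
          = ‖(g m (porb g p w m) - g m (orb g p m)) + w ⟨m, by omega⟩‖ := by
            congr 1; abel
        _ ≤ ‖g m (porb g p w m) - g m (orb g p m)‖ + ‖w ⟨m, by omega⟩‖ := norm_add_le _ _
        _ ≤ (C + (K * C + 1)) * ‖w‖ := by nlinarith

/-- Step (a): true orbits thicken to pseudo-orbits. -/
theorem tube_step_a {d : ℕ} (n : ℕ) {g : ℕ → (Fin d → ℝ) → (Fin d → ℝ)}
    (hg : ∀ t, ∃ K : ℝ, 0 ≤ K ∧ ∀ u u', ‖g t u - g t u'‖ ≤ K * ‖u - u'‖) {R σ₀ : ℝ} (hR : 0 < R)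
    (hσ₀ : 0 < σ₀) :
    ∃ σ, 0 < σ ∧ σ ≤ σ₀ ∧ volume {p : Fin d → ℝ | ∀ t ≤ n, ‖orb g p t‖ ≤ 3 * R} *
      ENNReal.ofReal ((2 * σ) ^ (d * n)) ≤ volume (tubeSet n g (4 * R) σ) := by
  obtain ⟨C, hC, h⟩ := tube_shadow (n := n) hg n le_rfl
  have hcont : ∀ t, Continuous (g t) := fun t => by
    obtain ⟨K, hK, hK'⟩ := hg t
    exact tube_continuous hK hK'
  have hσ : 0 < min σ₀ (R / (C + 1)) := lt_min hσ₀ (by positivity)
  refine ⟨min σ₀ (R / (C + 1)), hσ, min_le_left _ _, ?_⟩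
  set σ := min σ₀ (R / (C + 1)) with hσdef
  have hCσ : C * σ ≤ R := by
    have h1 : σ ≤ R / (C + 1) := min_le_right _ _
    rw [le_div_iff₀ (by positivity)] at h1
    nlinarith
  have hmp := measurePreserving_porb n g fun t => (hcont t).measurable
  rw [← hmp.measure_preimage (tube_measurableSet n hcont _ _).nullMeasurableSet,
    ← tube_volume_closedBall (0 : Fin n → Fin d → ℝ) hσ.le, ← Measure.prod_prod]
  refine measure_mono ?_
  rintro ⟨p, w⟩ ⟨hp, hw⟩
  have hw' : ‖w‖ ≤ σ := by simpa using hw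
  refine ⟨?_, fun t => ?_⟩
  · refine (pi_norm_le_iff_of_nonneg (by positivity)).2 fun t => ?_
    have h1 := h t (Nat.lt_succ_iff.1 t.2) p w
    have h2 := hp t (Nat.lt_succ_iff.1 t.2)
    have h3 : C * ‖w‖ ≤ C * σ := mul_le_mul_of_nonneg_left hw' hC
    calc ‖porb g p w t‖ = ‖(porb g p w t - orb g p t) + orb g p t‖ := by rw [sub_add_cancel]
      _ ≤ ‖porb g p w t - orb g p t‖ + ‖orb g p t‖ := norm_add_le _ _
      _ ≤ 4 * R := by linarith
  · show ‖porb g p w ((t : ℕ) + 1) - g t (porb g p w t)‖ ≤ σ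
    rw [tube_porb_succ g p w t.2, add_sub_cancel_left]
    exact (norm_le_pi_norm w _).trans hw'

/-- The linear orbit. -/
def tubeLin {d : ℕ} (n : ℕ) (a : ℕ → Matrix (Fin d) (Fin d) ℝ) (p : Fin d → ℝ) :
    Fin (n + 1) → Fin d → ℝ := fun t => prop a t *ᵥ p

theorem tubeLin_succ {d : ℕ} (n : ℕ) (a : ℕ → Matrix (Fin d) (Fin d) ℝ) (p : Fin d → ℝ)
    (t : Fin n) : tubeLin n a p t.succ = a t *ᵥ tubeLin n a p t.castSucc := by
  simp [tubeLin, prop, Matrix.mulVec_mulVec]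

theorem tubeLin_smul {d : ℕ} (n : ℕ) (a : ℕ → Matrix (Fin d) (Fin d) ℝ) (c : ℝ) (p : Fin d → ℝ) :
    tubeLin n a (c • p) = c • tubeLin n a p := by
  funext t
  simp [tubeLin, Matrix.mulVec_smul]

theorem tubeLin_continuous {d : ℕ} (n : ℕ) (a : ℕ → Matrix (Fin d) (Fin d) ℝ) :
    Continuous (tubeLin n a) :=
  continuous_pi fun t => (prop a t).mulVecLin.continuous_of_finiteDimensional

theorem tube_measurePreserving_theta {d : ℕ} (n : ℕ) (a : ℕ → Matrix (Fin d) (Fin d) ℝ)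
    (G : (Fin n → Fin d → ℝ) →ₗ[ℝ] (Fin (n + 1) → Fin d → ℝ))
    (hG : ∀ w (t : Fin n), G w t.succ = a t *ᵥ G w t.castSucc + w t) :
    MeasurePreserving
      (fun x : (Fin d → ℝ) × (Fin n → Fin d → ℝ) => tubeLin n a x.1 + G x.2)
      (volume.prod volume) volume := by
  have h1 := measurePreserving_porb n (fun t v => a t *ᵥ v)
    fun t => (a t).mulVecLin.continuous_of_finiteDimensional.measurable
  have hGm : Measurable fun w => G w 0 :=
    ((continuous_apply 0).comp G.continuous_of_finiteDimensional).measurable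
  have h2 : MeasurePreserving
      (fun x : (Fin n → Fin d → ℝ) × (Fin d → ℝ) => (id x.1, x.2 + G x.1 0))
      (volume.prod volume) (volume.prod volume) := by
    refine MeasurePreserving.skew_product (MeasurePreserving.id volume)
      (g := fun (w : Fin n → Fin d → ℝ) (p : Fin d → ℝ) => p + G w 0) ?_ ?_
    · exact measurable_snd.add (hGm.comp measurable_fst)
    · exact Eventually.of_forall fun w => (measurePreserving_add_right volume (G w 0)).map_eq
  have h3 := h1.comp (Measure.measurePreserving_swap.comp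
    (h2.comp Measure.measurePreserving_swap))
  convert h3 using 1
  funext x t
  obtain ⟨p, w⟩ := x
  show tubeLin n a p t + G w t = porb (fun t v => a t *ᵥ v) (p + G w 0) w t
  induction t using Fin.induction with
  | zero => simp [tubeLin, prop, porb]
  | succ t ih =>
    rw [Fin.val_succ, tube_porb_succ _ _ _ t.2, tubeLin_succ, hG]
    rw [Fin.val_castSucc] at ih
    rw [← ih, Matrix.mulVec_add, add_assoc]

theorem tube_numeric {θ : ℝ} (m : ℕ) (hθ0 : 0 ≤ θ) (hθ : θ * (8 * (m + 1)) ≤ 1) :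
    (1 + θ) ^ m ≤ 3 * (1 - θ) ^ m := by
  have hm : (0 : ℝ) ≤ m := Nat.cast_nonneg m
  have hθ8 : θ ≤ 1 / 8 := by nlinarith
  have h1 : 1 + θ ≤ Real.exp (3 * θ) * (1 - θ) := by
    have := Real.add_one_le_exp (3 * θ)
    nlinarith
  calc (1 + θ) ^ m ≤ (Real.exp (3 * θ) * (1 - θ)) ^ m := pow_le_pow_left₀ (by positivity) h1 m
    _ = Real.exp (m * (3 * θ)) * (1 - θ) ^ m := by rw [mul_pow, Real.exp_nat_mul]
    _ ≤ 3 * (1 - θ) ^ m := by
      refine mul_le_mul_of_nonneg_right ?_ (pow_nonneg (by linarith) m)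
      calc Real.exp (m * (3 * θ)) ≤ Real.exp 1 := Real.exp_le_exp.2 (by nlinarith)
        _ ≤ 3 := by linarith [Real.exp_one_lt_d9]

/-- Recipe.  Let `E = Fin (n+1) → V`, `E' = Fin n → V` (sup norms),
`P R σ = {v | ‖v‖ ≤ R ∧ ∀ t, ‖v (t+1) - g t (v t)‖ ≤ σ}` (closed), `lin p t = prop a t *ᵥ p`,
`Θ (p, w) = lin p + G w`; `Θ` is `porb (a t *ᵥ ·) (p + G w 0) w`, hence measure preserving.
`Rm v t = g t (v t) - a t *ᵥ v t` is `θ'`-Lipschitz, `Rm 0 = 0`; `θ = θ' Γ ≤ 1/8`;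
`Θ (p,w) ∈ P R σ ↔ ‖lin p + G w‖ ≤ R ∧ ‖w - Rm (lin p + G w)‖ ≤ σ`.  For each `p`,
`w ↦ Rm (lin p + G w)` is a `θ`-contraction with fixed point `w⋆` (`ContractingWith.fixedPoint`).
(a) For small `σ > 0` (continuity/Lipschitz growth), `porb g` maps
`{p | ∀ t ≤ n, ‖orb g p t‖ ≤ 3R} ×ˢ closedBall 0 σ` into `P (4R) σ`.
(b) If `Γ σ ≤ R/2` and `Θ (p,w) ∈ P (4R) σ` then `‖lin p‖ ≤ 5R`, `‖w - w⋆‖ ≤ σ / (1-θ)`.
(c) If `‖lin p‖ ≤ R/2` and `‖w - w⋆‖ ≤ τ / (1+θ)` then `Θ (p,w) ∈ P R τ`.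
Use `Measure.prod_apply`, `Real.volume_pi_closedBall`/`addHaar_closedBall`,
`{‖lin p‖ ≤ 5R} = 10 • {‖lin p‖ ≤ R/2}` (`Measure.addHaar_smul`) and
`((1+θ)/(1-θ))^(d n) ≤ exp (3 θ d n) ≤ 3`. -/
theorem tube_le {d : ℕ} (n : ℕ) (a : ℕ → Matrix (Fin d) (Fin d) ℝ)
    (g : ℕ → (Fin d → ℝ) → (Fin d → ℝ)) {θ' Γ R τ : ℝ} (h0 : ∀ t, g t 0 = 0) (hθ0 : 0 ≤ θ')
    (hlip : ∀ t u u', ‖g t u - g t u' - a t *ᵥ (u - u')‖ ≤ θ' * ‖u - u'‖)
    (hG : Green a n Γ) (hΓ : 1 ≤ Γ) (hθ : θ' * Γ * (8 * (d * n + 1)) ≤ 1) (hτ : 0 < τ)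
    (hτR : 4 * Γ * τ ≤ R) :
    volume {p : Fin d → ℝ | ∀ t ≤ n, ‖orb g p t‖ ≤ 3 * R} * ENNReal.ofReal ((2 * τ) ^ (d * n)) ≤
      ENNReal.ofReal (3 * 10 ^ d) * volume {v : Fin (n + 1) → Fin d → ℝ |
        ‖v‖ ≤ R ∧ ∀ t : Fin n, ‖v t.succ - g t (v t.castSucc)‖ ≤ τ} := by
  obtain ⟨G, hGn, hGe⟩ := hG
  have hΓ0 : 0 < Γ := by linarith
  have hR : 0 < R := lt_of_lt_of_le (by positivity) hτR
  have hg := tube_lip hθ0 hlip
  have hcont : ∀ t, Continuous (g t) := fun t => by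
    obtain ⟨K, hK, hK'⟩ := hg t
    exact tube_continuous hK hK'
  obtain ⟨θ, hθdef⟩ : ∃ θ, θ = θ' * Γ := ⟨_, rfl⟩
  rw [← hθdef] at hθ
  have hθ00 : 0 ≤ θ := by rw [hθdef]; positivity
  have hdn : (0 : ℝ) ≤ d * n := by positivity
  have hθ8 : θ ≤ 1 / 8 := by nlinarith
  have hΘ := tube_measurePreserving_theta n a G hGe
  -- the nonlinear remainder
  obtain ⟨Rm, hRm⟩ : ∃ Rm : (Fin (n + 1) → Fin d → ℝ) → (Fin n → Fin d → ℝ),
      Rm = fun (v : Fin (n + 1) → Fin d → ℝ) (t : Fin n) => g t (v t.castSucc) - a t *ᵥ v t.castSucc := ⟨_, rfl⟩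
  have hRmlip : ∀ v v', ‖Rm v - Rm v'‖ ≤ θ' * ‖v - v'‖ := by
    intro v v'
    refine (pi_norm_le_iff_of_nonneg (by positivity)).2 fun t => ?_
    have h1 := hlip t (v t.castSucc) (v' t.castSucc)
    have h2 : ‖v t.castSucc - v' t.castSucc‖ ≤ ‖v - v'‖ := norm_le_pi_norm (v - v') t.castSucc
    have h3 : (Rm v - Rm v') t = g t (v t.castSucc) - g t (v' t.castSucc) -
        a t *ᵥ (v t.castSucc - v' t.castSucc) := by
      rw [hRm, Matrix.mulVec_sub]
      simp only [Pi.sub_apply]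
      abel
    rw [h3]
    exact h1.trans (mul_le_mul_of_nonneg_left h2 hθ0)
  have hRm0 : ∀ v, ‖Rm v‖ ≤ θ' * ‖v‖ := by
    intro v
    have h1 := hRmlip v 0
    have h2 : Rm 0 = 0 := by
      rw [hRm]
      funext t
      simp [h0]
    rwa [h2, sub_zero, sub_zero] at h1
  have hmem : ∀ (R' σ : ℝ), 0 ≤ σ → ∀ p w, tubeLin n a p + G w ∈ tubeSet n g R' σ ↔
      ‖tubeLin n a p + G w‖ ≤ R' ∧ ‖w - Rm (tubeLin n a p + G w)‖ ≤ σ := by
    intro R' σ hσ p w
    refine and_congr_right fun _ => ?_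
    rw [pi_norm_le_iff_of_nonneg hσ]
    refine forall_congr' fun t => ?_
    have : (tubeLin n a p + G w) t.succ - g t ((tubeLin n a p + G w) t.castSucc) =
        (w - Rm (tubeLin n a p + G w)) t := by
      rw [hRm]
      simp only [Pi.sub_apply, Pi.add_apply, tubeLin_succ, hGe, Matrix.mulVec_add]
      abel
    rw [this]
  have hcon : ∀ p w w', ‖Rm (tubeLin n a p + G w) - Rm (tubeLin n a p + G w')‖ ≤
      θ * ‖w - w'‖ := by
    intro p w w'
    refine (hRmlip _ _).trans ?_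
    rw [add_sub_add_left_eq_sub, ← map_sub, hθdef, mul_assoc]
    exact mul_le_mul_of_nonneg_left (hGn _) hθ0
  have hfix : ∀ p, ∃ ws, Rm (tubeLin n a p + G ws) = ws := by
    intro p
    have hc : ContractingWith ⟨θ, hθ00⟩ fun w => Rm (tubeLin n a p + G w) := by
      refine ⟨?_, LipschitzWith.of_dist_le_mul fun w w' => ?_⟩
      · show θ < 1
        linarith
      · rw [dist_eq_norm, dist_eq_norm]
        exact hcon p w w'
    exact ⟨_, hc.fixedPoint_isFixedPt⟩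
  choose ws hws using hfix
  have hLm : ∀ r : ℝ, MeasurableSet {p : Fin d → ℝ | ‖tubeLin n a p‖ ≤ r} := fun r =>
    (isClosed_le (tubeLin_continuous n a).norm continuous_const).measurableSet
  -- step (a)
  obtain ⟨σ, hσ, hσle, ha⟩ := tube_step_a n hg hR (show 0 < R / 2 / Γ by positivity)
  have hσΓ : Γ * σ ≤ R / 2 := by
    rw [le_div_iff₀ hΓ0] at hσle
    linarith
  have h1θ : 0 < 1 - θ := by linarith
  -- step (b)
  have hb : volume (tubeSet n g (4 * R) σ) ≤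
      ENNReal.ofReal ((2 * (σ / (1 - θ))) ^ (d * n)) *
        volume {p : Fin d → ℝ | ‖tubeLin n a p‖ ≤ 5 * R} := by
    rw [← hΘ.measure_preimage (tube_measurableSet n hcont _ _).nullMeasurableSet,
      Measure.prod_apply (hΘ.measurable (tube_measurableSet n hcont _ _)),
      ← lintegral_indicator_const (hLm _)]
    refine lintegral_mono fun p => ?_
    by_cases hp : ‖tubeLin n a p‖ ≤ 5 * R
    · rw [Set.indicator_of_mem (show p ∈ {p : Fin d → ℝ | ‖tubeLin n a p‖ ≤ 5 * R} from hp),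
        ← tube_volume_closedBall (ws p) (by positivity)]
      refine measure_mono fun w hw => ?_
      obtain ⟨-, h2⟩ := (hmem _ _ hσ.le p w).1 hw
      rw [Metric.mem_closedBall, dist_eq_norm, le_div_iff₀ h1θ]
      have h3 := hcon p w (ws p)
      rw [hws] at h3
      have h4 : ‖w - ws p‖ ≤ ‖w - Rm (tubeLin n a p + G w)‖ +
          ‖Rm (tubeLin n a p + G w) - ws p‖ := norm_sub_le_norm_sub_add_norm_sub _ _ _
      nlinarith
    · have : Prod.mk p ⁻¹' ((fun x : (Fin d → ℝ) × (Fin n → Fin d → ℝ) =>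
          tubeLin n a x.1 + G x.2) ⁻¹' tubeSet n g (4 * R) σ) = ∅ := by
        refine Set.eq_empty_of_forall_notMem fun w hw => hp ?_
        obtain ⟨h1, h2⟩ := (hmem _ _ hσ.le p w).1 hw
        have h3 := hRm0 (tubeLin n a p + G w)
        have h4 : ‖w‖ ≤ ‖w - Rm (tubeLin n a p + G w)‖ + ‖Rm (tubeLin n a p + G w)‖ := by
          simpa using norm_add_le (w - Rm (tubeLin n a p + G w)) (Rm (tubeLin n a p + G w))
        have h5 : θ' * ‖tubeLin n a p + G w‖ ≤ θ' * (4 * R) := mul_le_mul_of_nonneg_left h1 hθ0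
        have h6 : ‖w‖ ≤ σ + θ' * (4 * R) := by linarith
        have h7 : Γ * ‖w‖ ≤ Γ * (σ + θ' * (4 * R)) := mul_le_mul_of_nonneg_left h6 hΓ0.le
        have h8 : Γ * (σ + θ' * (4 * R)) = Γ * σ + θ * (4 * R) := by rw [hθdef]; ring
        have h9 : θ * (4 * R) ≤ 1 / 8 * (4 * R) := mul_le_mul_of_nonneg_right hθ8 (by positivity)
        have h10 : ‖tubeLin n a p‖ ≤ ‖tubeLin n a p + G w‖ + ‖G w‖ := by
          simpa using norm_sub_le (tubeLin n a p + G w) (G w)
        have h11 := hGn w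
        linarith
      rw [this, measure_empty]
      exact zero_le
  -- step (c)
  have hc : ENNReal.ofReal ((2 * (τ / (1 + θ))) ^ (d * n)) *
      volume {p : Fin d → ℝ | ‖tubeLin n a p‖ ≤ R / 2} ≤ volume (tubeSet n g R τ) := by
    rw [← hΘ.measure_preimage (tube_measurableSet n hcont _ _).nullMeasurableSet,
      Measure.prod_apply (hΘ.measurable (tube_measurableSet n hcont _ _)),
      ← lintegral_indicator_const (hLm _)]
    refine lintegral_mono fun p => ?_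
    by_cases hp : ‖tubeLin n a p‖ ≤ R / 2
    · rw [Set.indicator_of_mem (show p ∈ {p : Fin d → ℝ | ‖tubeLin n a p‖ ≤ R / 2} from hp),
        ← tube_volume_closedBall (ws p) (by positivity)]
      refine measure_mono fun w hw => ?_
      rw [Metric.mem_closedBall, dist_eq_norm, le_div_iff₀ (by positivity)] at hw
      refine (hmem _ _ hτ.le p w).2 ⟨?_, ?_⟩
      · have h1 := hRm0 (tubeLin n a p + G (ws p))
        rw [hws] at h1
        have h2 : ‖tubeLin n a p + G (ws p)‖ ≤ R / 2 + Γ * ‖ws p‖ :=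
          (norm_add_le _ _).trans (add_le_add hp (hGn _))
        have h3 : θ' * ‖tubeLin n a p + G (ws p)‖ ≤ θ' * (R / 2 + Γ * ‖ws p‖) :=
          mul_le_mul_of_nonneg_left h2 hθ0
        have h4 : Γ * ‖ws p‖ ≤ Γ * (θ' * (R / 2 + Γ * ‖ws p‖)) :=
          mul_le_mul_of_nonneg_left (h1.trans h3) hΓ0.le
        have h5 : Γ * (θ' * (R / 2 + Γ * ‖ws p‖)) = θ * (R / 2 + Γ * ‖ws p‖) := by
          rw [hθdef]; ring
        have h6 : θ * (R / 2 + Γ * ‖ws p‖) ≤ 1 / 8 * (R / 2 + Γ * ‖ws p‖) :=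
          mul_le_mul_of_nonneg_right hθ8 (by positivity)
        have h7 : ‖w - ws p‖ ≤ τ := by nlinarith [norm_nonneg (w - ws p)]
        have h8 : ‖w‖ ≤ ‖w - ws p‖ + ‖ws p‖ := by simpa using norm_add_le (w - ws p) (ws p)
        have h9 : Γ * ‖w‖ ≤ Γ * (τ + ‖ws p‖) :=
          mul_le_mul_of_nonneg_left (by linarith) hΓ0.le
        have h10 : ‖tubeLin n a p + G w‖ ≤ R / 2 + Γ * ‖w‖ :=
          (norm_add_le _ _).trans (add_le_add hp (hGn _))
        linarith
      · have h3 := hcon p (ws p) w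
        rw [hws, norm_sub_rev (ws p) w] at h3
        have h4 : ‖w - Rm (tubeLin n a p + G w)‖ ≤ ‖w - ws p‖ +
            ‖ws p - Rm (tubeLin n a p + G w)‖ := norm_sub_le_norm_sub_add_norm_sub _ _ _
        linarith
    · rw [Set.indicator_of_notMem
        (show p ∉ {p : Fin d → ℝ | ‖tubeLin n a p‖ ≤ R / 2} from hp)]
      exact zero_le
  -- scaling
  have hs : volume {p : Fin d → ℝ | ‖tubeLin n a p‖ ≤ 5 * R} =
      ENNReal.ofReal (10 ^ d) * volume {p : Fin d → ℝ | ‖tubeLin n a p‖ ≤ R / 2} := by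
    have h1 : {p : Fin d → ℝ | ‖tubeLin n a p‖ ≤ 5 * R} =
        (fun p => (10⁻¹ : ℝ) • p) ⁻¹' {p : Fin d → ℝ | ‖tubeLin n a p‖ ≤ R / 2} := by
      ext p
      simp only [Set.mem_ofPred_eq, Set.mem_preimage, tubeLin_smul, norm_smul, norm_inv,
        Real.norm_ofNat]
      constructor <;> intro h <;> linarith
    rw [h1, Measure.addHaar_preimage_smul _ (by norm_num), Module.finrank_fin_fun, inv_pow,
      inv_inv, abs_of_pos (by positivity)]
  -- assembly
  set S := volume {p : Fin d → ℝ | ∀ t ≤ n, ‖orb g p t‖ ≤ 3 * R}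
  set L := volume {p : Fin d → ℝ | ‖tubeLin n a p‖ ≤ R / 2}
  have hnum := tube_numeric (d * n) hθ00 (by push_cast; exact hθ)
  have e1 : ENNReal.ofReal ((2 * τ) ^ (d * n)) =
      ENNReal.ofReal ((2 * σ) ^ (d * n)) * ENNReal.ofReal ((τ / σ) ^ (d * n)) := by
    rw [← ENNReal.ofReal_mul (by positivity), ← mul_pow]
    congr 2
    field_simp
  have e2 : (2 * (σ / (1 - θ))) ^ (d * n) * (τ / σ) ^ (d * n) ≤
      3 * (2 * (τ / (1 + θ))) ^ (d * n) := by
    have f1 : (2 * (σ / (1 - θ))) ^ (d * n) * (τ / σ) ^ (d * n) =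
        (2 * τ) ^ (d * n) / (1 - θ) ^ (d * n) := by
      rw [← mul_pow, ← div_pow]
      congr 1
      field_simp
    have f2 : (2 * (τ / (1 + θ))) ^ (d * n) = (2 * τ) ^ (d * n) / (1 + θ) ^ (d * n) := by
      rw [← div_pow, mul_div_assoc]
    rw [f1, f2, ← mul_div_assoc, div_le_div_iff₀ (by positivity) (by positivity)]
    have : (0 : ℝ) ≤ (2 * τ) ^ (d * n) := by positivity
    nlinarith
  calc S * ENNReal.ofReal ((2 * τ) ^ (d * n))
      = S * ENNReal.ofReal ((2 * σ) ^ (d * n)) * ENNReal.ofReal ((τ / σ) ^ (d * n)) := by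
        rw [e1, mul_assoc]
    _ ≤ ENNReal.ofReal ((2 * (σ / (1 - θ))) ^ (d * n)) * (ENNReal.ofReal (10 ^ d) * L) *
        ENNReal.ofReal ((τ / σ) ^ (d * n)) := by
        rw [← hs]
        exact mul_le_mul_left (ha.trans hb) _
    _ = ENNReal.ofReal (10 ^ d) *
        (ENNReal.ofReal ((2 * (σ / (1 - θ))) ^ (d * n) * (τ / σ) ^ (d * n)) * L) := by
        rw [ENNReal.ofReal_mul (by positivity)]
        ring
    _ ≤ ENNReal.ofReal (10 ^ d) *
        (ENNReal.ofReal (3 * (2 * (τ / (1 + θ))) ^ (d * n)) * L) := by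
        gcongr
    _ = ENNReal.ofReal (3 * 10 ^ d) *
        (ENNReal.ofReal ((2 * (τ / (1 + θ))) ^ (d * n)) * L) := by
        rw [ENNReal.ofReal_mul (by positivity), ENNReal.ofReal_mul (by positivity)]
        ring
    _ ≤ _ := mul_le_mul_right hc _

end

end Crest.Agent.R133
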