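import Crest.Agent.R133.Defs

/-!
# Row 133: zero entropy
-/

open MeasureTheory Finset Filter
open scoped Matrix Topology ENNReal NNReal

namespace Crest.Agent.R133

noncomputable section

variable {B : Blocks} {X : Type} [MeasurableSpace X] {μ : Measure X} {T : X → X}

open Crest.AnalysisR

theorem ze_gibbs [IsProbabilityMeasure μ] {α : Type} [Fintype α] [MeasurableSpace α]
    [MeasurableSingletonClass α] {f : X → α} (hf : Measurable f) (Q : α → ℝ) (hQ : ∀ a, 0 < Q a)
    (hs : ∑ a, Q a ≤ 1) {φ : X → ℝ} (hφ : Integrable φ μ) (h : ∀ x, -Real.log (Q (f x)) ≤ φ x) :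
    labelEntropy μ f ≤ ∫ x, φ x ∂μ := by
  have key : ∀ G : α → ℝ, ∫ x, G (f x) ∂μ = ∑ a, (μ (f ⁻¹' {a})).toReal * G a := by
    intro G
    rw [← integral_map hf.aemeasurable (measurable_of_finite G).aestronglyMeasurable,
      integral_fintype (Integrable.of_finite)]
    refine sum_congr rfl fun a _ => ?_
    rw [smul_eq_mul, Measure.real, Measure.map_apply hf (measurableSet_singleton a)]
  have h1 : ∑ a, (μ (f ⁻¹' {a})).toReal = 1 := by simpa using (key fun _ => 1).symm
  have hi : Integrable (fun x => -Real.log (Q (f x))) μ :=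
    (Integrable.of_finite (f := fun a => -Real.log (Q a)) (μ := μ.map f)).comp_measurable hf
  refine le_trans ?_ (integral_mono hi hφ h)
  rw [key fun a => -Real.log (Q a)]
  unfold labelEntropy
  calc _ ≤ ∑ a, ((μ (f ⁻¹' {a})).toReal * -Real.log (Q a) + (Q a - (μ (f ⁻¹' {a})).toReal)) := by
        refine sum_le_sum fun a _ => ?_
        rcases (ENNReal.toReal_nonneg (a := μ (f ⁻¹' {a}))).eq_or_lt with h0 | h0
        · rw [← h0]; simpa using (hQ a).le
        · have := Real.log_le_sub_one_of_pos (div_pos (hQ a) h0)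
          rw [Real.log_div (hQ a).ne' h0.ne'] at this
          have h2 := mul_le_mul_of_nonneg_left this h0.le
          rw [mul_sub (μ (f ⁻¹' {a})).toReal (Q a / _), mul_div_cancel₀ _ h0.ne'] at h2
          unfold Real.negMulLog
          linarith
    _ ≤ _ := by rw [sum_add_distrib, sum_sub_distrib, h1]; linarith

theorem ze_code [IsProbabilityMeasure μ] (hT : MeasurePreserving T μ μ) {m : ℕ} {P g : X → Fin m}
    (hP : Measurable P) (hg : Measurable g) {n : ℕ} {Θ : Type} [Fintype Θ] [Nonempty Θ]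
    (a : Θ → Fin n → Fin m) (ha : ∀ x, ∃ θ, ∀ j : Fin n, a θ j = g (T^[(j : ℕ)] x)) {ε δ : ℝ}
    (hε : 0 < ε) (hε1 : ε < 1) (hm : 0 < m) (hδ : μ.real {x | g x ≠ P x} ≤ δ) :
    labelEntropy μ (fun x : X => fun j : Fin n => P (T^[(j : ℕ)] x)) ≤
      Real.log (Fintype.card Θ) + n * (-Real.log (1 - ε) + δ * Real.log (m / ε)) := by
  have hm1 : (1 : ℝ) ≤ m := by exact_mod_cast hm
  let κ : Fin m → Fin m → ℝ := fun b c => if b = c then 1 - ε else ε / m
  have hκ : ∀ b c, 0 < κ b c := fun b c => by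
    simp only [κ]
    split_ifs
    · linarith
    · positivity
  have hκs : ∀ b, ∑ c, κ b c ≤ 1 := fun b => by
    calc _ ≤ ∑ c, ((if b = c then 1 - ε else 0) + ε / m) := by
          refine sum_le_sum fun c _ => ?_
          have : 0 < ε / m := by positivity
          simp only [κ]
          split_ifs <;> linarith
      _ = 1 := by
          rw [sum_add_distrib, sum_ite_eq, if_pos (mem_univ _), sum_const, card_univ,
            Fintype.card_fin, nsmul_eq_mul]
          field_simp
          ring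
  have hc : (0 : ℝ) < Fintype.card Θ := by exact_mod_cast Fintype.card_pos
  have hL : 0 ≤ Real.log (m / ε) := Real.log_nonneg (by rw [le_div_iff₀ hε]; linarith)
  have hL1 : Real.log (1 - ε) ≤ 0 := Real.log_nonpos (by linarith) (by linarith)
  have hS : MeasurableSet {x | g x ≠ P x} := (measurableSet_eq_fun hg hP).compl
  let ψ : X → ℝ := fun x => -Real.log (1 - ε) +
    Set.indicator {x | g x ≠ P x} (fun _ => Real.log (m / ε)) x
  have hψ : Integrable ψ μ := (integrable_const _).add ((integrable_const _).indicator hS)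
  have hψj : ∀ j : ℕ, Integrable (fun x => ψ (T^[j] x)) μ := fun j =>
    (hT.iterate j).integrable_comp_of_integrable hψ
  have hint : ∀ j : ℕ, ∫ x, ψ (T^[j] x) ∂μ ≤ -Real.log (1 - ε) + δ * Real.log (m / ε) := by
    intro j
    have e : ∫ x, ψ (T^[j] x) ∂μ = ∫ x, ψ x ∂μ := by
      conv_rhs => rw [← (hT.iterate j).map_eq]
      rw [integral_map (hT.iterate j).measurable.aemeasurable]
      rw [(hT.iterate j).map_eq]
      exact hψ.aestronglyMeasurable
    rw [e, integral_add (integrable_const _) ((integrable_const _).indicator hS),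
      integral_indicator_const _ hS]
    simp only [integral_const, probReal_univ, smul_eq_mul, one_mul]
    gcongr
  refine (ze_gibbs (μ := μ) (f := fun x : X => fun j : Fin n => P (T^[(j : ℕ)] x))
    (measurable_pi_lambda _ fun j => hP.comp (hT.measurable.iterate j))
    (fun y => ∑ θ, (Fintype.card Θ : ℝ)⁻¹ * ∏ j, κ (a θ j) (y j))
    (fun y => sum_pos (fun θ _ => mul_pos (inv_pos.2 hc) (prod_pos fun j _ => hκ _ _))
      univ_nonempty) ?_
    (φ := fun x => Real.log (Fintype.card Θ) + ∑ j : Fin n, ψ (T^[(j : ℕ)] x))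
    ((integrable_const _).add (integrable_finsetSum _ fun j _ => hψj j)) fun x => ?_).trans ?_
  · rw [sum_comm]
    calc _ ≤ ∑ _θ : Θ, (Fintype.card Θ : ℝ)⁻¹ := by
          refine sum_le_sum fun θ _ => ?_
          rw [← mul_sum]
          refine mul_le_of_le_one_right (inv_pos.2 hc).le ?_
          have := prod_univ_sum (fun _ : Fin n => (univ : Finset (Fin m))) fun j c => κ (a θ j) c
          rw [Fintype.piFinset_univ] at this
          rw [← this]
          exact prod_le_one (fun j _ => sum_nonneg fun c _ => (hκ _ _).le) fun j _ => hκs _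
      _ = 1 := by rw [sum_const, card_univ, nsmul_eq_mul, mul_inv_cancel₀ hc.ne']
  · obtain ⟨θ, hθ⟩ := ha x
    have h1 := single_le_sum (s := univ)
      (f := fun θ => (Fintype.card Θ : ℝ)⁻¹ * ∏ j : Fin n, κ (a θ j) (P (T^[(j : ℕ)] x)))
      (fun θ _ => (mul_pos (inv_pos.2 hc) (prod_pos fun j _ => hκ _ _)).le) (mem_univ θ)
    have h2 := Real.log_le_log (mul_pos (inv_pos.2 hc) (prod_pos fun j _ => hκ _ _)) h1
    rw [Real.log_mul (inv_pos.2 hc).ne' (prod_pos fun j _ => hκ _ _).ne', Real.log_inv,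
      Real.log_prod fun j _ => (hκ _ _).ne'] at h2
    have h3 : ∑ j : Fin n, -Real.log (κ (a θ j) (P (T^[(j : ℕ)] x))) ≤
        ∑ j : Fin n, ψ (T^[(j : ℕ)] x) := by
      refine sum_le_sum fun j _ => ?_
      rw [hθ j]
      simp only [κ, ψ]
      split_ifs with h
      · rw [Set.indicator_of_notMem (by simpa using h), add_zero]
      · rw [Set.indicator_of_mem (by simpa using h), ← Real.log_inv, inv_div]
        linarith
    rw [sum_neg_distrib] at h3
    linarith
  · rw [integral_add (integrable_const _) (integrable_finsetSum _ fun (j : Fin n) _ => hψj j),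
      integral_finsetSum _ fun (j : Fin n) _ => hψj j]
    simp only [integral_const, probReal_univ, smul_eq_mul, one_mul]
    gcongr
    calc _ ≤ ∑ _j : Fin n, (-Real.log (1 - ε) + δ * Real.log (m / ε)) :=
          sum_le_sum fun j _ => hint j
      _ = _ := by rw [sum_const, card_univ, Fintype.card_fin, nsmul_eq_mul]

theorem Tower.ze_lift (τ : Tower B μ T) {K K' : ℕ} (h : K ≤ K') :
    ∃ F : ℕ × ℕ → ℕ × ℕ, ∀ x, (τ.W K x, τ.P K x) = F (τ.W K' x, τ.P K' x) := by
  induction K', h using Nat.le_induction with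
  | base => exact ⟨id, fun _ => rfl⟩
  | succ K' _ ih =>
    obtain ⟨F, hF⟩ := ih
    exact ⟨fun s => F (B.word K' s.1 (s.2 / B.N K'), s.2 % B.N K'), fun x => by
      rw [hF, τ.W_compat K', τ.P_compat K']⟩

theorem Tower.ze_set (τ : Tower B μ T) [IsProbabilityMeasure μ] {s : Set X} (hs : MeasurableSet s)
    {ε : ℝ≥0∞} (hε : 0 < ε) : ∀ᶠ K in atTop, ∃ A : Set (ℕ × ℕ),
      μ (symmDiff {x | (τ.W K x, τ.P K x) ∈ A} s) < ε := by
  let C : Set (Set X) := {t | ∀ᶠ K in atTop, ∃ A : Set (ℕ × ℕ), t = {x | (τ.W K x, τ.P K x) ∈ A}}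
  have hC : IsSetRing C := by
    refine ⟨Eventually.of_forall fun K => ⟨∅, by simp⟩, fun s t hs ht => ?_, fun s t hs ht => ?_⟩
    · filter_upwards [hs, ht] with K ⟨A, hA⟩ ⟨A', hA'⟩
      exact ⟨A ∪ A', by rw [hA, hA']; rfl⟩
    · filter_upwards [hs, ht] with K ⟨A, hA⟩ ⟨A', hA'⟩
      exact ⟨A \ A', by rw [hA, hA']; rfl⟩
  obtain ⟨t, ht, h⟩ := exists_measure_symmDiff_lt_of_generateFrom_isSetRing (μ := μ) hC
    ⟨{Set.univ}, Set.countable_singleton _, by
      rintro _ rfl
      exact Eventually.of_forall fun K => ⟨Set.univ, by simp⟩, by simp⟩ (by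
      refine le_antisymm (τ.gen.le.trans (MeasurableSpace.generateFrom_mono ?_))
        (MeasurableSpace.generateFrom_le fun t ht => ?_)
      · rintro _ ⟨k, w, t, rfl⟩
        filter_upwards [eventually_ge_atTop k] with K hK
        obtain ⟨F, hF⟩ := τ.ze_lift hK
        refine ⟨F ⁻¹' {(w, t)}, Set.ext fun x => ?_⟩
        simp only [Set.mem_ofPred_eq, Set.mem_preimage, ← hF, Set.mem_singleton_iff, Prod.mk.injEq]
      · obtain ⟨K, A, rfl⟩ := ht.exists
        exact ((τ.meas_W K).prodMk (τ.meas_P K)) (MeasurableSet.of_discrete (s := A))) hs hε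
  filter_upwards [ht] with K ⟨A, hA⟩
  exact ⟨A, hA ▸ h⟩

theorem Tower.ze_approx (τ : Tower B μ T) [IsProbabilityMeasure μ] {m : ℕ} (hm : 0 < m)
    {P : X → Fin m} (hP : Measurable P) {δ : ℝ} (hδ : 0 < δ) :
    ∀ᶠ K in atTop, ∃ p : ℕ × ℕ → Fin m, μ.real {x | p (τ.W K x, τ.P K x) ≠ P x} ≤ δ := by
  classical
  have hm' : (0 : ℝ) < m := by exact_mod_cast hm
  have h := eventually_all.2 fun a : Fin m => τ.ze_set (hP (measurableSet_singleton a))
    (ENNReal.ofReal_pos.2 (div_pos hδ hm'))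
  filter_upwards [h] with K hK
  choose A hA using hK
  refine ⟨fun s => if h : ∃ a, s ∈ A a then h.choose else ⟨0, hm⟩, ?_⟩
  calc _ ≤ μ.real (⋃ a, symmDiff {x | (τ.W K x, τ.P K x) ∈ A a} (P ⁻¹' {a})) := by
        refine measureReal_mono fun x hx => ?_
        by_contra hn
        simp only [Set.mem_iUnion, not_exists, Set.mem_symmDiff, Set.mem_ofPred_eq,
          Set.mem_preimage, Set.mem_singleton_iff, not_or, not_and, not_not] at hn
        have h1 : ∃ a, (τ.W K x, τ.P K x) ∈ A a := ⟨P x, (hn (P x)).2 rfl⟩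
        apply hx
        simp only [dif_pos h1]
        exact ((hn _).1 h1.choose_spec).symm
    _ ≤ ∑ a, μ.real (symmDiff {x | (τ.W K x, τ.P K x) ∈ A a} (P ⁻¹' {a})) :=
        measureReal_iUnion_fintype_le _
    _ ≤ ∑ _a : Fin m, δ / m := sum_le_sum fun a _ =>
        ENNReal.toReal_le_of_le_ofReal (by positivity) (hA a).le
    _ = δ := by
        rw [sum_const, card_univ, Fintype.card_fin, nsmul_eq_mul]; field_simp

theorem Tower.ze_orbit (τ : Tower B μ T) (K : ℕ) (x : X) (j : ℕ) :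
    τ.P K (T^[j] x) = (τ.P K x + j) % B.N K ∧
      τ.W K (T^[j] x) = τ.W K (T^[(τ.P K x + j) / B.N K * B.N K - τ.P K x] x) := by
  have hN := B.N_pos K
  induction j with
  | zero =>
    have := τ.P_lt K x
    simp [Nat.mod_eq_of_lt this, Nat.div_eq_of_lt this]
  | succ j ih =>
    obtain ⟨h1, h2⟩ := ih
    have e1 : τ.P K (T^[j + 1] x) = (τ.P K x + (j + 1)) % B.N K := by
      rw [Function.iterate_succ_apply', τ.P_step, h1, Nat.mod_add_mod, add_assoc]
    refine ⟨e1, ?_⟩
    by_cases hd : B.N K ∣ τ.P K x + (j + 1)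
    · rw [Nat.div_mul_cancel hd, Nat.add_sub_cancel_left]
    · have e2 : (τ.P K x + (j + 1)) / B.N K = (τ.P K x + j) / B.N K := by
        rw [← add_assoc] at hd ⊢
        rw [Nat.succ_div, if_neg hd, add_zero]
      rw [e2, ← h2, Function.iterate_succ_apply', τ.W_step]
      by_contra hc
      apply hd
      have h3 := τ.P_lt K (T^[j] x)
      rw [Nat.dvd_iff_mod_eq_zero, ← e1, Function.iterate_succ_apply', τ.P_step,
        show τ.P K (T^[j] x) + 1 = B.N K by omega, Nat.mod_self]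

theorem Tower.ze_bound (τ : Tower B μ T) [IsProbabilityMeasure μ] (hT : MeasurePreserving T μ μ)
    {m : ℕ} (hm : 0 < m) {P : X → Fin m} (hP : Measurable P) (K : ℕ) (p : ℕ × ℕ → Fin m) {ε δ : ℝ}
    (hε : 0 < ε) (hε1 : ε < 1) (hδ : μ.real {x | p (τ.W K x, τ.P K x) ≠ P x} ≤ δ) (n : ℕ) :
    labelEntropy μ (fun x : X => fun j : Fin n => P (T^[(j : ℕ)] x)) ≤
      (Real.log (B.N K) + 2 * B.L K) +
        n * (B.h K + (-Real.log (1 - ε) + δ * Real.log (m / ε))) := by
  have hN := B.N_pos K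
  have hq := B.q_pos K
  have : Nonempty (Fin (B.N K)) := ⟨⟨0, hN⟩⟩
  have : Nonempty (Fin (B.q K)) := ⟨⟨0, hq⟩⟩
  have hlt : ∀ (t : Fin (B.N K)) (j : Fin n), (t + j : ℕ) / B.N K < n / B.N K + 2 := by
    intro t j
    have h1 : (t + j : ℕ) / B.N K ≤ (n + B.N K) / B.N K :=
      Nat.div_le_div_right (by have := t.2; have := j.2; omega)
    rw [Nat.add_div_right _ hN] at h1
    omega
  refine (ze_code hT hP ((measurable_of_countable p).comp ((τ.meas_W K).prodMk (τ.meas_P K)))
    (Θ := Fin (B.N K) × (Fin (n / B.N K + 2) → Fin (B.q K)))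
    (fun θ j => p (θ.2 ⟨_, hlt θ.1 j⟩, (θ.1 + j) % B.N K)) (fun x =>
      ⟨(⟨τ.P K x, τ.P_lt K x⟩, fun i => ⟨τ.W K (T^[i * B.N K - τ.P K x] x), τ.W_lt K _⟩),
        fun j => ?_⟩) hε hε1 hm hδ).trans ?_
  · obtain ⟨h1, h2⟩ := τ.ze_orbit K x j
    simp only [Function.comp, h1, h2]
  · have hN' : (0 : ℝ) < B.N K := by exact_mod_cast hN
    have hq' : (1 : ℝ) ≤ B.q K := by exact_mod_cast hq
    have hL : 0 ≤ B.L K := Real.log_nonneg hq'
    simp only [Fintype.card_prod, Fintype.card_fun, Fintype.card_fin]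
    push_cast
    rw [Real.log_mul hN'.ne' (by positivity), Real.log_pow]
    push_cast
    have h1 : ((n / B.N K : ℕ) : ℝ) * B.L K ≤ n * B.h K := by
      rw [Blocks.h, ← mul_div_assoc, mul_div_right_comm]
      exact mul_le_mul_of_nonneg_right Nat.cast_div_le hL
    have e : Real.log (B.q K) = B.L K := rfl
    rw [e]
    linarith

/-- Recipe.  (1) Gibbs inequality: if `Q ≥ 0` on a finite type, `∑ Q ≤ 1` and `Q (f x) > 0` for all
`x`, then `labelEntropy μ f ≤ ∫ -log (Q (f x))` (`log u ≤ u - 1`).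
(2) Approximation: for measurable `P : X → Fin m` and `ε > 0`, for all large `K` there is
`p : ℕ × ℕ → Fin m` with `μ {P x ≠ p (W K x, P K x)} ≤ ε`
(`exists_measure_symmDiff_lt_of_generateFrom_isSetRing` for the ring of sets
`{x | (W K x, P K x) ∈ s}`; by compatibility a set of level `K` is a set of every higher level).
(3) With `S = Fin (q K) × Fin (N K)`, let `π (w,t) (w',t')` be `1` if `t+1 < N K`, `w' = w`,
`t' = t+1`, be `1 / q K` if `t + 1 = N K`, `t' = 0`, and `0` otherwise (row sums `≤ 1`), and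
`κ a b = 1 - ε` if `a = b`, `ε / m` otherwise.  Put
`Q y = ∑ z : Fin (n+1) → S, (card S)⁻¹ * ∏ π (z j) (z (j+1)) * ∏ κ (p (z j)) (y j)`; then
`∑ Q ≤ 1`, and keeping only the term `z j = (W K (T^j x), P K (T^j x))`,
`∫ -log Q ≤ log (card S) + n * log (q K) / N K + (n+1) (-log (1-ε) + ε log (m / ε))`.
Hence `limsup H_n / n ≤ h K - log (1-ε) + ε log (m/ε)`, which is arbitrarily small. -/
theorem Tower.hasZeroEntropy (τ : Tower B μ T) [IsProbabilityMeasure μ]
    (hT : MeasurePreserving T μ μ) (hh : Tendsto B.h atTop (𝓝 0)) :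
    Crest.AnalysisR.HasZeroEntropy μ T := by
  intro m P hP
  have hm : 0 < m := Fin.pos (P (nonempty_of_isProbabilityMeasure μ).some)
  have hm1 : (1 : ℝ) ≤ m := by exact_mod_cast hm
  rw [tendsto_order]
  refine ⟨fun a ha => Eventually.of_forall fun n => lt_of_lt_of_le ha ?_, fun η hη => ?_⟩
  · refine div_nonneg (sum_nonneg fun y _ => Real.negMulLog_nonneg ENNReal.toReal_nonneg ?_)
      (Nat.cast_nonneg _)
    exact measureReal_le_one
  · have hε : 0 < 1 - Real.exp (-(η / 4)) := by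
      rw [sub_pos, Real.exp_lt_one_iff]; linarith
    have hε1 : 1 - Real.exp (-(η / 4)) < 1 := by linarith [Real.exp_pos (-(η / 4))]
    obtain ⟨L, hL⟩ : ∃ L, L = Real.log (m / (1 - Real.exp (-(η / 4)))) := ⟨_, rfl⟩
    have hL0 : 0 ≤ L := hL ▸ Real.log_nonneg (by rw [le_div_iff₀ hε]; linarith)
    have hδ : 0 < η / 4 / (L + 1) := by positivity
    obtain ⟨K, ⟨p, hp⟩, hK⟩ := ((τ.ze_approx hm hP hδ).and
      (hh.eventually (gt_mem_nhds (show 0 < η / 4 by positivity)))).exists
    have h1 := (tendsto_const_div_atTop_nhds_zero_nat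
      (Real.log (B.N K) + 2 * B.L K)).eventually (gt_mem_nhds (show 0 < η / 4 by positivity))
    filter_upwards [h1, eventually_gt_atTop 0] with n hn hn0
    have hn' : (0 : ℝ) < n := by exact_mod_cast hn0
    have h2 := τ.ze_bound hT hm hP K p hε hε1 hp n
    rw [sub_sub_cancel, Real.log_exp, ← hL] at h2
    have h3 : η / 4 / (L + 1) * L ≤ η / 4 := by
      rw [div_mul_eq_mul_div, div_le_iff₀ (by positivity)]
      nlinarith
    rw [div_lt_iff₀ hn'] at hn ⊢
    have h4 : (n : ℝ) * (B.h K + (- -(η / 4) + η / 4 / (L + 1) * L)) ≤ n * (3 * (η / 4)) :=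
      mul_le_mul_of_nonneg_left (by linarith) hn'.le
    linarith

end

end Crest.Agent.R133
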